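import Vale.Agent.P147.Env

namespace Vale.Agent.P147

open MeasureTheory Filter Finset
open scoped ENNReal

variable {d : ℕ} {l : V d} {μ : Measure (U d → ℝ)}

open Classical in
/-- extension by zero of a finite configuration -/
noncomputable def ext_Ind (S : Finset (V d)) (v : S → U d → ℝ) : Env d :=
  fun x => if h : x ∈ S then v ⟨x, h⟩ else 0

theorem measurable_ext_Ind (S : Finset (V d)) : Measurable (ext_Ind S) := by
  refine measurable_pi_lambda _ fun x => ?_
  unfold ext_Ind
  by_cases h : x ∈ S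
  · simp only [h, dif_pos]
    exact measurable_pi_apply _
  · simp only [h, dif_neg, not_false_eq_true]
    exact measurable_const

theorem indep_mul [IsProbabilityMeasure μ] (S T : Finset (V d)) (hST : Disjoint S T)
    {f g : Env d → ℝ≥0∞} (hf : Measurable f) (hg : Measurable g)
    (hfS : ∀ ω ω' : Env d, (∀ x ∈ S, ω x = ω' x) → f ω = f ω')
    (hgT : ∀ ω ω' : Env d, (∀ x ∈ T, ω x = ω' x) → g ω = g ω') :
    ∫⁻ ω, f ω * g ω ∂envLaw μ = (∫⁻ ω, f ω ∂envLaw μ) * ∫⁻ ω, g ω ∂envLaw μ := by
  have hi : ProbabilityTheory.iIndepFun (fun (i : V d) (ω : Env d) => id (ω i)) (envLaw μ) :=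
    ProbabilityTheory.iIndepFun_infinitePi (P := fun _ : V d => μ) (X := fun _ => id)
      (fun _ => measurable_id)
  have h1 := hi.indepFun_finset S T hST (fun i => measurable_pi_apply i)
  have h2 := h1.comp (hf.comp (measurable_ext_Ind S)) (hg.comp (measurable_ext_Ind T))
  have e1 : ((f ∘ ext_Ind S) ∘ fun (a : Env d) (i : S) => id (a i)) = f := by
    funext ω
    refine hfS _ _ fun x hx => ?_
    simp [ext_Ind, hx]
  have e2 : ((g ∘ ext_Ind T) ∘ fun (a : Env d) (i : T) => id (a i)) = g := by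
    funext ω
    refine hgT _ _ fun x hx => ?_
    simp [ext_Ind, hx]
  rw [e1, e2] at h2
  exact ProbabilityTheory.lintegral_mul_eq_lintegral_mul_lintegral_of_indepFun'' hf.aemeasurable
    hg.aemeasurable h2

theorem q_congr {ω ω' : Env d} (x : V d) (s : List (U d))
    (h : ∀ r, r <+: s → r ≠ s → ω (x + disp r) = ω' (x + disp r)) : q ω x s = q ω' x s := by
  induction s generalizing x with
  | nil => rfl
  | cons e s ih =>
    simp only [q]
    have h0 := h [] List.nil_prefix (by simp)
    simp only [disp_nil, add_zero] at h0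
    rw [h0, ih (x + vec e)]
    intro r hr hne
    have := h (e :: r) ((List.prefix_cons_inj e).2 hr) (by simpa using hne)
    simpa [add_assoc] using this

open Classical in
/-- sites whose transition rows are read by a word started at `x` -/
noncomputable def rd_Ind (x : V d) (s : List (U d)) : Finset (V d) :=
  (s.inits.toFinset.filter fun r => r ≠ s).image fun r => x + disp r

theorem mem_rd_Ind {x : V d} {s : List (U d)} {a : V d} :
    a ∈ rd_Ind x s ↔ ∃ r, r <+: s ∧ r ≠ s ∧ x + disp r = a := by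
  simp [rd_Ind, List.mem_inits, and_assoc]

theorem q_rd_Ind {ω ω' : Env d} (x : V d) (s : List (U d))
    (h : ∀ a ∈ rd_Ind x s, ω a = ω' a) : q ω x s = q ω' x s :=
  q_congr x s fun r hr hne => h _ (mem_rd_Ind.2 ⟨r, hr, hne, rfl⟩)

theorem disj_rd_Ind {x y : V d} {s t : List (U d)}
    (h : ∀ r r', r <+: s → r ≠ s → r' <+: t → r' ≠ t → x + disp r ≠ y + disp r') :
    Disjoint (rd_Ind x s) (rd_Ind y t) := by
  rw [Finset.disjoint_left]
  intro a ha hb
  obtain ⟨r, h1, h2, h3⟩ := mem_rd_Ind.1 ha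
  obtain ⟨r', h4, h5, h6⟩ := mem_rd_Ind.1 hb
  exact h r r' h1 h2 h4 h5 (h3.trans h6.symm)

theorem W_two [IsProbabilityMeasure μ] (x y : V d) (s t : List (U d))
    (h : ∀ r r', r <+: s → r ≠ s → r' <+: t → r' ≠ t → x + disp r ≠ y + disp r') :
    ∫⁻ ω, q ω x s * q ω y t ∂envLaw μ = W μ s * W μ t := by
  rw [indep_mul (rd_Ind x s) (rd_Ind y t) (disj_rd_Ind h) (measurable_q x s) (measurable_q y t)
    (fun _ _ hh => q_rd_Ind x s hh) (fun _ _ hh => q_rd_Ind y t hh), lintegral_q, lintegral_q]

theorem W_three [IsProbabilityMeasure μ] (x y z : V d) (s t v : List (U d))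
    (h1 : ∀ r r', r <+: s → r ≠ s → r' <+: v → r' ≠ v → x + disp r ≠ z + disp r')
    (h2 : ∀ r r', r <+: t → r ≠ t → r' <+: v → r' ≠ v → y + disp r ≠ z + disp r') :
    ∫⁻ ω, q ω x s * q ω y t * q ω z v ∂envLaw μ =
      (∫⁻ ω, q ω x s * q ω y t ∂envLaw μ) * W μ v := by
  classical
  rw [indep_mul (f := fun ω => q ω x s * q ω y t) (rd_Ind x s ∪ rd_Ind y t) (rd_Ind z v)
    (Finset.disjoint_union_left.2 ⟨disj_rd_Ind h1, disj_rd_Ind h2⟩)
    ((measurable_q x s).mul (measurable_q y t)) (measurable_q z v)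
    (fun _ _ hh => by
      beta_reduce
      rw [q_rd_Ind x s fun a ha => hh a (Finset.mem_union_left _ ha),
        q_rd_Ind y t fun a ha => hh a (Finset.mem_union_right _ ha)])
    (fun _ _ hh => q_rd_Ind z v hh), lintegral_q]

theorem W_regen [IsProbabilityMeasure μ] {s t : List (U d)} (hs : Rec l s) (ht : NN l t) :
    W μ (s ++ t) = W μ s * W μ t := by
  rw [← W_two 0 (0 + disp s) s t]
  · unfold W
    simp only [q_append]
  · intro r r' h1 h2 h3 _ heq
    have a1 := hs r h1 h2
    have a2 := ht r' h3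
    have a3 : lv l r = lv l s + lv l r' := by
      simp only [zero_add] at heq
      rw [lv, heq, dot_add]; rfl
    omega

end Vale.Agent.P147
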