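import Vale.Agent.P147.Def2

namespace Vale.Agent.P147

open MeasureTheory Filter Finset
open scoped ENNReal

variable {d : ℕ} {l : V d} {μ : Measure (U d → ℝ)}

theorem Pat.le_H_NO (p : Pat l) {t : List (U d)} {e : Bool × Bool} (ht : t <+: p.P e) :
    lv l t ≤ p.H := by
  by_cases h : t = p.P e
  · rw [h, p.lv_P]
  · exact (p.up e.1 e.2 t ht h).le

theorem Pat.no_overlap (p : Pat l) {x : V d} {s t : List (U d)} {e : Bool × Bool}
    (hs : p.Res (x + disp s)) (ht : t <+: p.P e) (h0 : t ≠ []) :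
    ¬ p.Res (x + disp (s ++ t)) := by
  have h1 := p.low e.1 e.2 t ht h0
  have h2 := p.le_H_NO ht
  have h3 := p.hM
  have h4 := p.sb.1
  have h5 := p.hbH
  have hM : 0 < p.M := by omega
  unfold Pat.Res at hs ⊢
  have h6 : dot l (x + disp (s ++ t)) = dot l (x + disp s) + lv l t := by
    rw [disp_append, ← add_assoc, dot_add]; rfl
  rw [h6]
  set a := dot l (x + disp s)
  have h7 : 0 ≤ a % p.M := Int.emod_nonneg _ hM.ne'
  have h8 : (a + lv l t) % p.M = a % p.M + lv l t := by
    rw [← Int.emod_add_emod]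
    exact Int.emod_eq_of_lt (by omega) (by omega)
  rw [h8]; omega

theorem Pat.rec_spw (p : Pat l) {x : V d} {w : List (U d)} (h : p.SpW x w) : Rec l w := by
  obtain ⟨s, e, rfl, hs, -⟩ := h
  intro t ht hne
  have h4 := p.sb.1
  have h5 := p.hbH
  rw [lv_append, p.lv_P]
  rcases pre_append ht with h | ⟨r', h1, -, rfl⟩
  · by_cases h2 : t = s
    · subst h2; omega
    · have := hs t h h2; omega
  · rw [lv_append]
    have h2 : r' ≠ p.P e := fun h => hne (by rw [h])
    have := p.up e.1 e.2 r' h1 h2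
    omega

theorem Pat.one_le_lv_spw (p : Pat l) {x : V d} {w : List (U d)} (h : p.SpW x w) (hw : NN l w) :
    1 ≤ lv l w := by
  obtain ⟨s, e, rfl, hs, -⟩ := h
  have h4 := p.sb.1
  have h5 := p.hbH
  have h1 := hw s (List.prefix_append _ _)
  rw [lv_append, p.lv_P]
  omega

theorem Pat.P_eq_NO (p : Pat l) {e e' : Bool × Bool} (h : p.P e <+: p.P e') : p.P e = p.P e' := by
  by_contra hne
  have := p.up e'.1 e'.2 _ h hne
  rw [p.lv_P] at this
  omega

theorem Pat.split (p : Pat l) {x : V d} {w1 w2 : List (U d)} (h1 : p.SpW x w1)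
    (h : p.SpW x (w1 ++ w2)) (h0 : w2 ≠ []) : p.SpW (x + disp w1) w2 := by
  obtain ⟨s, e, hse, hs, hr⟩ := h
  have hpre : s <+: w1 ++ w2 := hse ▸ List.prefix_append _ _
  rcases List.prefix_or_prefix_of_prefix (List.prefix_append w1 w2) hpre with h2 | h2
  · obtain ⟨s', rfl⟩ := h2
    rw [List.append_assoc, List.append_cancel_left_eq] at hse
    refine ⟨s', e, hse, fun t ht hne => ?_, ?_⟩
    · have := hs (w1 ++ t) ((List.prefix_append_right_inj w1).2 ht)
        (fun h => hne (List.append_cancel_left h))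
      rw [lv_append, lv_append] at this
      omega
    · rw [disp_append, ← add_assoc] at hr; exact hr
  · exfalso
    obtain ⟨s1, e1, rfl, hs1, hr1⟩ := h1
    rcases pre_append h2 with h3 | ⟨r', h3, h4, rfl⟩
    · obtain ⟨r, rfl⟩ := h3
      rw [List.append_assoc, List.append_assoc, List.append_cancel_left_eq] at hse
      by_cases hr0 : r = []
      · subst hr0
        rw [List.nil_append] at hse
        have h5 : p.P e1 <+: p.P e := hse ▸ List.prefix_append _ _
        have h6 := p.P_eq_NO h5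
        rw [h6] at hse
        exact h0 (List.append_right_eq_self.1 hse)
      · have h5 : r <+: p.P e := hse ▸ List.prefix_append _ _
        exact p.no_overlap hr h5 hr0 hr1
    · exact p.no_overlap hr1 h3 h4 hr

theorem Pat.P_ne_nil_NO (p : Pat l) (e : Bool × Bool) : p.P e ≠ [] := by
  intro h
  have h1 := p.lv_P e
  have h4 := p.sb.1
  have h5 := p.hbH
  rw [h, lv_nil] at h1
  omega

theorem Pat.first (p : Pat l) {x : V d} {w : List (U d)}
    (h : ∃ w1 t, w = w1 ++ t ∧ p.SpW x w1 ∧ NN l t) (hw : NN l w) :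
    ∃ s e t, w = s ++ p.P e ++ t ∧ p.Irr x s ∧ NN l t := by
  classical
  have hex : ∃ n, ∃ w1 t, w1.length = n ∧ w = w1 ++ t ∧ p.SpW x w1 ∧ NN l t := by
    obtain ⟨w1, t, h⟩ := h
    exact ⟨_, w1, t, rfl, h⟩
  obtain ⟨w1, t, hn, hwt, ⟨s, e, rfl, hs, hr⟩, ht⟩ := Nat.find_spec hex
  refine ⟨s, e, t, hwt, ⟨?_, hs, hr, ?_⟩, ht⟩
  · refine her_nn l w s ?_ hw
    rw [hwt, List.append_assoc]; exact List.prefix_append _ _
  · rintro ⟨w', t', rfl, hw', ht'⟩
    have hlt : w'.length < Nat.find hex := by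
      rw [← hn]
      have := List.length_pos_of_ne_nil (p.P_ne_nil_NO e)
      simp only [List.length_append]
      omega
    refine Nat.find_min hex hlt ⟨w', t' ++ p.P e ++ t, rfl, ?_, hw', (ht'.append (p.nn_P e)).append ht⟩
    rw [hwt]; simp only [List.append_assoc]

theorem Pat.u_inj_NO (p : Pat l) {e e' : Bool × Bool} (h : p.u e = p.u e') : e = e' := by
  rcases e with ⟨i, j⟩
  rcases e' with ⟨i', j'⟩
  have key := p.hind ((if i then 1 else 0) - (if i' then 1 else 0))
    ((if j then 1 else 0) - (if j' then 1 else 0)) (by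
      have h2 : p.u (i, j) - p.u (i', j') = 0 := sub_eq_zero.2 h
      rw [← h2]
      cases i <;> cases j <;> cases i' <;> cases j' <;> simp [Pat.u] <;> abel)
  cases i <;> cases j <;> cases i' <;> cases j' <;> simp at key ⊢

theorem Pat.irr_aux_NO (p : Pat l) {x : V d} {s s' t t' : List (U d)} {e e' : Bool × Bool}
    (hs : p.Irr x s) (hs' : p.Irr x s') (ht : NN l t)
    (h : s ++ p.P e ++ t = s' ++ p.P e' ++ t') (hp : s <+: s') : s = s' := by
  obtain ⟨r, rfl⟩ := hp
  by_cases hr0 : r = []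
  · subst hr0; simp
  exfalso
  rw [List.append_assoc, List.append_assoc, List.append_assoc, List.append_cancel_left_eq] at h
  have h1 : r <+: p.P e ++ t := h ▸ List.prefix_append _ _
  rcases pre_append h1 with h2 | ⟨r', h2, -, rfl⟩
  · exact p.no_overlap hs.2.2.1 h2 hr0 hs'.2.2.1
  · exact hs'.2.2.2 ⟨s ++ p.P e, r', by simp only [List.append_assoc],
      ⟨s, e, rfl, hs.2.1, hs.2.2.1⟩, her_nn l _ _ h2 ht⟩

theorem Pat.irr_unique (p : Pat l) {x : V d} {s s' t t' : List (U d)} {e e' : Bool × Bool}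
    (hs : p.Irr x s) (hs' : p.Irr x s') (ht : NN l t) (ht' : NN l t')
    (h : s ++ p.P e ++ t = s' ++ p.P e' ++ t') : s = s' ∧ e = e' := by
  have h1 : s <+: s ++ p.P e ++ t := by rw [List.append_assoc]; exact List.prefix_append _ _
  have h2 : s' <+: s ++ p.P e ++ t := by
    rw [h, List.append_assoc]; exact List.prefix_append _ _
  have hss : s = s' := by
    rcases List.prefix_or_prefix_of_prefix h1 h2 with h3 | h3
    · exact p.irr_aux_NO hs hs' ht h h3
    · exact (p.irr_aux_NO hs' hs ht' h.symm h3).symm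
  subst hss
  refine ⟨rfl, ?_⟩
  rw [List.append_assoc, List.append_assoc, List.append_cancel_left_eq] at h
  have h3 : p.P e <+: p.P e ++ t := List.prefix_append _ _
  have h4 : p.P e' <+: p.P e ++ t := h ▸ List.prefix_append _ _
  have h5 : p.P e = p.P e' := by
    rcases List.prefix_or_prefix_of_prefix h3 h4 with h5 | h5
    · exact p.P_eq_NO h5
    · exact (p.P_eq_NO h5).symm
  apply p.u_inj_NO
  have h6 := p.disp_P e
  rw [h5, p.disp_P] at h6
  exact (add_left_cancel h6).symm

theorem Pat.res_lat_NO (p : Pat l) {x u : V d} (hu : dot l u = 0) (y : V d) :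
    p.Res (x + u + y) ↔ p.Res (x + y) := by
  unfold Pat.Res
  simp only [dot_add, hu, add_zero]

theorem Pat.irr_lat (p : Pat l) {x u : V d} (hu : dot l u = 0) (s : List (U d)) :
    p.Irr (x + u) s ↔ p.Irr x s := by
  unfold Pat.Irr Pat.SpW
  simp only [p.res_lat_NO hu]

end Vale.Agent.P147
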