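import Vale.Agent.P147.PFm
import Vale.Agent.P147.Ind
import Vale.Agent.P147.NO

namespace Vale.Agent.P147

open MeasureTheory Filter Finset
open scoped ENNReal

variable {d : ℕ} {l : V d} {μ : Measure (U d → ℝ)}

theorem tsum_inj_Alpha {α β : Type*} (R : β → Prop) (φ : β → α)
    (hi : ∀ w w', R w → R w' → φ w = φ w' → w = w') (f : α → ℝ≥0∞) :
    ∑' w, ind (R w) * f (φ w) ≤ ∑' u, ind (∃ w, R w ∧ φ w = u) * f u := by
  have h1 := ENNReal.tsum_comp_le_tsum_of_injective (f := fun w : {w | R w} => φ w.1)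
    (fun w w' e => Subtype.ext (hi _ _ w.2 w'.2 e)) fun u => ind (∃ w, R w ∧ φ w = u) * f u
  refine le_trans (le_of_eq ?_) h1
  rw [tsum_subtype {w | R w} fun w => ind (∃ w', R w' ∧ φ w' = φ w) * f (φ w)]
  refine tsum_congr fun w => ?_
  by_cases hw : R w
  · rw [Set.indicator_of_mem (s := {w | R w}) hw, ind_pos hw, ind_pos ⟨w, hw, rfl⟩]
  · rw [Set.indicator_of_notMem (s := {w | R w}) hw, ind_neg hw, zero_mul]

theorem Pat.glue_Alpha (p : Pat l) (e : Bool × Bool) {K L : ℕ} {j : ℤ} {s t : List (U d)}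
    (h1 : 2 * (L : ℤ) ≤ j * p.M) (h2 : j * p.M + p.M ≤ 3 * (L : ℤ))
    (hs : Cr (Cone l K) l (j * p.M) s)
    (ht : Cr (Cone l K) l (3 * (L : ℤ) - lv l s - p.H) t) :
    Rec l s ∧ Rec l (s ++ p.P e) ∧
    Cr (Cone l (K + ((p.P e).length + 1))) l (3 * (L : ℤ)) (s ++ p.P e ++ t) ∧
      disp (s ++ p.P e) ∈ p.sk L (s ++ p.P e ++ t) ∧ j * p.M ≤ lv l (s ++ p.P e) ∧
      lv l (s ++ p.P e) < j * p.M + p.M := by
  classical
  have b1 := p.sb.1
  have hM := p.hM
  have hH := p.hbH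
  have s1 := hs.2.1
  have s2 := lv_lt_of_pre p.sb (by omega) hs.2.2
  have rs : Rec l s := fun r hr hne => (hs.2.2 r hr hne).trans_le s1
  have res : p.Res (0 + disp s) := by
    rw [zero_add]
    show lv l s % p.M < p.b
    have : lv l s = (lv l s - j * p.M) + j * p.M := by ring
    rw [this, Int.add_mul_emod_self_right, Int.emod_eq_of_lt (by omega) (by omega)]
    omega
  have sp : p.SpW 0 (s ++ p.P e) := ⟨s, e, rfl, rs, res⟩
  have rp := p.rec_spw sp
  have lp : lv l (s ++ p.P e) = lv l s + p.H := by rw [lv_append, p.lv_P]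
  have cs := hs.1 s (List.prefix_refl _)
  have K0 : (0 : ℤ) ≤ K := by positivity
  have cP : ∀ r, r <+: p.P e → ((tr (s ++ r)).card : ℤ) ≤
      K * (lv l s + 1) + ((p.P e).length + 1) := fun r hr => by
    have a1 := card_tr_append s r
    have a2 := card_tr_le r
    have a3 := hr.length_le
    omega
  refine ⟨rs, rp, ⟨fun r hr => ?_, ?_, fun r hr hne => ?_⟩, ?_, by omega, by omega⟩
  · have n0 : (0 : ℤ) ≤ (p.P e).length + 1 := by positivity
    push_cast
    rcases pre_append hr with h | ⟨r', hr', -, rfl⟩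
    · rcases pre_append h with h | ⟨r', hr', -, rfl⟩
      · have a1 := hs.1 r h
        have a2 := hs.1.nn r h
        nlinarith
      · have a1 := cP r' hr'
        have a2 := p.nn_P e r' hr'
        rw [lv_append]
        have a3 : 0 ≤ lv l s := by omega
        nlinarith [mul_nonneg K0 a2, mul_nonneg n0 a2, mul_nonneg n0 a3]
    · have a1 := cP _ (List.prefix_refl _)
      have a2 := ht.1 r' hr'
      have a3 := ht.1.nn r' hr'
      have a4 : ((tr (s ++ p.P e ++ r')).card : ℤ) ≤ (tr (s ++ p.P e)).card + (tr r').card := by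
        exact_mod_cast card_tr_append (s ++ p.P e) r'
      rw [lv_append, lp]
      have a5 : 0 ≤ lv l s + p.H + lv l r' := by omega
      have a6 : 0 ≤ p.H - 1 := by omega
      nlinarith [mul_nonneg K0 a6, mul_nonneg n0 a5]
  · have := ht.2.1
    rw [lv_append, lp]; omega
  · rcases pre_append hr with h | ⟨r', hr', -, rfl⟩
    · by_cases h3 : r = s ++ p.P e
      · rw [h3]; omega
      · have := rp r h h3
        omega
    · have := ht.2.2 r' hr' fun h => hne (by rw [h])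
      rw [lv_append, lp]; omega
  · unfold Pat.sk
    rw [Finset.mem_filter]
    refine ⟨mem_tr.2 ⟨_, List.prefix_append _ _, rfl⟩, ?_, ?_, _, t, rfl, rfl, sp, ht.1.nn⟩
    · show _ ≤ lv l (s ++ p.P e)
      omega
    · show lv l (s ++ p.P e) ≤ _
      omega

theorem Pat.alpha [IsProbabilityMeasure μ] (p : Pat l) (h : Elliptic μ) (K : ℕ) {a : ℝ≥0∞}
    (ha0 : a ≠ 0) (ha : ∀ lam, a ≤ AA μ l K lam) :
    ∃ K' : ℕ, K ≤ K' ∧ ∃ c : ℝ≥0∞, c ≠ 0 ∧ ∃ L0 : ℕ, ∀ L : ℕ, L0 ≤ L →
      c * L ≤ ∑' s, ind (Cr (Cone l K') l (3 * (L : ℤ)) s) * W μ s * ((p.sk L s).card : ℝ≥0∞) := by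
  classical
  have b1 := p.sb.1
  have hM := p.hM
  have hH := p.hbH
  obtain ⟨m, hm⟩ : ∃ m : ℕ, p.M = m := ⟨p.M.toNat, by omega⟩
  have m0 : 0 < m := by omega
  let e : Bool × Bool := (false, false)
  have m1 : ((2 * m : ℕ) : ℝ≥0∞) ≠ 0 := by exact_mod_cast (by omega : 2 * m ≠ 0)
  refine ⟨K + ((p.P e).length + 1), Nat.le_add_right _ _,
    a * W μ (p.P e) * a * ((2 * m : ℕ) : ℝ≥0∞)⁻¹, mul_ne_zero (mul_ne_zero (mul_ne_zero ha0
      (W_ne_zero h _)) ha0) (ENNReal.inv_ne_zero.2 (ENNReal.natCast_ne_top _)), 5 * m,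
    fun L hL => ?_⟩
  set n := L / m with hn
  have n1 : n * m ≤ L := Nat.div_mul_le_self _ _
  have n2 : L < n * m + m := Nat.lt_div_mul_add m0
  have n5 : 5 ≤ n := (Nat.le_div_iff_mul_le m0).2 hL
  obtain ⟨k, hk⟩ : ∃ k, n = k + 2 := ⟨n - 2, by omega⟩
  let J : ℕ → ℤ := fun i => 2 * (n : ℤ) + 2 + i
  have J1 : ∀ i, 2 * (L : ℤ) ≤ J i * p.M := fun i => by
    have : (L : ℤ) < n * m + m := by exact_mod_cast n2
    have h3 : (0 : ℤ) ≤ (i : ℤ) * m := by positivity
    simp only [J, hm]; nlinarith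
  have J2 : ∀ i, i < k → J i * p.M + p.M ≤ 3 * (L : ℤ) := fun i hi => by
    have : (n : ℤ) * m ≤ L := by exact_mod_cast n1
    have h3 : (0 : ℤ) ≤ ((n : ℤ) - 3 - i) * m := mul_nonneg (by omega) (by positivity)
    simp only [J, hm]; nlinarith
  let R : ℕ → List (U d) × List (U d) → Prop := fun i w =>
    Cr (Cone l K) l (J i * p.M) w.1 ∧ Cr (Cone l K) l (3 * (L : ℤ) - lv l w.1 - p.H) w.2
  let φ : List (U d) × List (U d) → List (U d) := fun w => w.1 ++ p.P e ++ w.2
  have h1 : ∀ i, i < k → a * W μ (p.P e) * a ≤ ∑' u, ind (∃ w, R i w ∧ φ w = u) * W μ u := by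
    intro i hi
    refine le_trans ?_ (tsum_inj_Alpha (R i) φ (fun w w' hw hw' hh => ?_) (W μ))
    · rw [ENNReal.tsum_prod']
      calc a * W μ (p.P e) * a ≤ AA μ l K (J i * p.M) * (W μ (p.P e) * a) := by
            rw [mul_assoc]; exact mul_le_mul_left (ha _) _
        _ ≤ _ := by
          rw [AA, mass, ← ENNReal.tsum_mul_right]
          refine ENNReal.tsum_le_tsum fun s => ?_
          by_cases hs : Cr (Cone l K) l (J i * p.M) s
          · rw [ind_pos hs, one_mul, ← mul_assoc]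
            refine (mul_le_mul_right (ha (3 * (L : ℤ) - lv l s - p.H)) _).trans ?_
            rw [AA, mass, ← ENNReal.tsum_mul_left]
            refine ENNReal.tsum_le_tsum fun t => ?_
            by_cases ht : Cr (Cone l K) l (3 * (L : ℤ) - lv l s - p.H) t
            · obtain ⟨g1, g2, -⟩ := p.glue_Alpha e (J1 i) (J2 i hi) hs ht
              rw [ind_pos ht, ind_pos (show R i (s, t) from ⟨hs, ht⟩), one_mul, one_mul]
              show _ ≤ W μ (s ++ p.P e ++ t)
              rw [W_regen g2 ht.1.nn, W_regen g1 (p.nn_P e)]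
            · rw [ind_neg ht, zero_mul, mul_zero]; exact zero_le
          · rw [ind_neg hs, zero_mul, zero_mul]; exact zero_le
    · have e1 : w.1 = w'.1 := by
        have p1 : w.1 <+: φ w := by simp only [φ, List.append_assoc]; exact List.prefix_append _ _
        have p2 : w'.1 <+: φ w := by
          rw [hh]; simp only [φ, List.append_assoc]; exact List.prefix_append _ _
        rcases List.prefix_or_prefix_of_prefix p1 p2 with h3 | h3
        · exact pf_cr _ _ _ _ _ hw.1 hw'.1 h3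
        · exact (pf_cr _ _ _ _ _ hw'.1 hw.1 h3).symm
      refine Prod.ext e1 ?_
      simp only [φ, e1] at hh
      exact List.append_cancel_left hh
  have h2 : ∀ u, ∑ i ∈ Finset.range k, ind (∃ w, R i w ∧ φ w = u) * W μ u ≤
      ind (Cr (Cone l (K + ((p.P e).length + 1))) l (3 * (L : ℤ)) u) * W μ u *
        ((p.sk L u).card : ℝ≥0∞) := fun u => by
    rw [← Finset.sum_mul]
    by_cases hu : ∃ i, i < k ∧ ∃ w, R i w ∧ φ w = u
    · obtain ⟨i0, hi0, w0, hw0, e0⟩ := hu
      rw [ind_pos (e0 ▸ (p.glue_Alpha e (J1 i0) (J2 i0 hi0) hw0.1 hw0.2).2.2.1), one_mul, mul_comm]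
      refine mul_le_mul_right ?_ _
      have h3 : ∑ i ∈ Finset.range k, ind (∃ w, R i w ∧ φ w = u) =
          (((Finset.range k).filter fun i => ∃ w, R i w ∧ φ w = u).card : ℝ≥0∞) := by
        rw [Finset.card_filter, Nat.cast_sum]
        refine Finset.sum_congr rfl fun i _ => ?_
        by_cases hh : ∃ w, R i w ∧ φ w = u
        · rw [ind_pos hh, if_pos hh, Nat.cast_one]
        · rw [ind_neg hh, if_neg hh, Nat.cast_zero]
      rw [h3, Nat.cast_le]
      have h4 : ∀ i ∈ (Finset.range k).filter fun i => ∃ w, R i w ∧ φ w = u,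
          ∃ z ∈ p.sk L u, J i * p.M ≤ dot l z ∧ dot l z < J i * p.M + p.M := fun i hi => by
        obtain ⟨hi', w, hw, rfl⟩ := Finset.mem_filter.1 hi
        obtain ⟨-, -, -, g⟩ := p.glue_Alpha e (J1 i) (J2 i (Finset.mem_range.1 hi')) hw.1 hw.2
        exact ⟨_, g⟩
      choose! z hz using h4
      refine Finset.card_le_card_of_injOn z (fun i hi => (hz i hi).1) fun i hi j hj hij => ?_
      have a1 := (hz i hi).2
      have a2 := (hz j hj).2
      rw [hij] at a1
      simp only [J, hm] at a1 a2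
      have m2 : (0 : ℤ) < m := by exact_mod_cast m0
      rcases lt_trichotomy i j with h5 | h5 | h5
      · have : (i : ℤ) + 1 ≤ j := by exact_mod_cast h5
        nlinarith [a1.2, a2.1]
      · exact h5
      · have : (j : ℤ) + 1 ≤ i := by exact_mod_cast h5
        nlinarith [a1.1, a2.2]
    · rw [Finset.sum_eq_zero fun i hi => ind_neg fun hh => hu ⟨i, Finset.mem_range.1 hi, hh⟩,
        zero_mul]
      exact zero_le
  have h3 : (L : ℝ≥0∞) ≤ ((2 * m : ℕ) : ℝ≥0∞) * k := by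
    have : L ≤ 2 * m * k := by nlinarith
    exact_mod_cast this
  calc _ ≤ a * W μ (p.P e) * a * ((2 * m : ℕ) : ℝ≥0∞)⁻¹ * (((2 * m : ℕ) : ℝ≥0∞) * k) :=
        mul_le_mul_right h3 _
    _ = ∑ _i ∈ Finset.range k, a * W μ (p.P e) * a := by
        rw [mul_assoc _ _ (_ * _), ← mul_assoc _⁻¹,
          ENNReal.inv_mul_cancel m1 (ENNReal.natCast_ne_top _), one_mul, Finset.sum_const,
          Finset.card_range, nsmul_eq_mul, mul_comm]
    _ ≤ ∑ i ∈ Finset.range k, ∑' u, ind (∃ w, R i w ∧ φ w = u) * W μ u :=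
        Finset.sum_le_sum fun i hi => h1 i (Finset.mem_range.1 hi)
    _ = ∑' u, ∑ i ∈ Finset.range k, ind (∃ w, R i w ∧ φ w = u) * W μ u :=
        (Summable.tsum_finsetSum fun _ _ => ENNReal.summable).symm
    _ ≤ _ := ENNReal.tsum_le_tsum h2

end Vale.Agent.P147
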