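import Vale.Agent.P147.Def2

namespace Vale.Agent.P147

open MeasureTheory Filter Finset
open scoped ENNReal

variable {d : ℕ} {l : V d} {μ : Measure (U d → ℝ)}

noncomputable def pb_Bin (x : ℝ) (k j : ℕ) : ℝ := (k.choose j : ℝ) * x ^ j * (1 - x) ^ (k - j)

theorem pb_nonneg_Bin {x : ℝ} (h0 : 0 < x) (h1 : x < 1) (k j : ℕ) : 0 ≤ pb_Bin x k j := by
  unfold pb_Bin
  have : 0 < 1 - x := by linarith
  positivity

theorem pb_sum_Bin (x : ℝ) (k : ℕ) : ∑ j ∈ range (k + 1), pb_Bin x k j = 1 := by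
  have h := add_pow x (1 - x) k
  rw [add_sub_cancel, one_pow] at h
  rw [h]
  exact Finset.sum_congr rfl fun j _ => by unfold pb_Bin; ring

theorem pb_var_Bin (x : ℝ) (k : ℕ) :
    ∑ j ∈ range (k + 1), ((k : ℝ) * x - j) ^ 2 * pb_Bin x k j = k * x * (1 - x) := by
  have h := congrArg (Polynomial.eval x) (bernsteinPolynomial.variance ℝ k)
  simp only [Polynomial.eval_finset_sum, bernsteinPolynomial, Polynomial.eval_mul,
    Polynomial.eval_pow, Polynomial.eval_sub, Polynomial.eval_X, Polynomial.eval_natCast,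
    Polynomial.eval_one, nsmul_eq_mul] at h
  exact h

theorem pb_step_Bin (x : ℝ) (k i : ℕ) (hi : i ≤ k) :
    ((i + 1 : ℕ) : ℝ) * (1 - x) * pb_Bin x k (i + 1) = ((k : ℝ) - i) * x * pb_Bin x k i := by
  unfold pb_Bin
  rcases hi.eq_or_lt with rfl | hlt
  · simp
  · have h1 : (k.choose (i + 1) : ℝ) * ((i + 1 : ℕ) : ℝ) = (k.choose i : ℝ) * ((k : ℝ) - i) := by
      rw [← Nat.cast_sub hi]
      exact_mod_cast Nat.choose_succ_right_eq k i
    have h2 : k - i = (k - (i + 1)) + 1 := by omega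
    rw [h2, pow_succ, pow_succ]
    linear_combination (x ^ i * x * (1 - x) ^ (k - (i + 1)) * (1 - x)) * h1

theorem pb_tel_Bin (x : ℝ) (k j : ℕ) (hj : j ≤ k + 1) :
    (j : ℝ) * (1 - x) * pb_Bin x k j = ∑ i ∈ range j, ((k : ℝ) * x - i) * pb_Bin x k i := by
  induction j with
  | zero => simp
  | succ j ih =>
    rw [Finset.sum_range_succ, ← ih (by omega), pb_step_Bin x k j (by omega)]
    ring

theorem pb_a_Bin {x : ℝ} (h0 : 0 < x) (h1 : x < 1) (k j : ℕ) (hj : j ≤ k + 1) {σ : ℝ}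
    (hσ : 0 < σ) (hσ2 : σ ^ 2 = k * x * (1 - x)) :
    (j : ℝ) * (1 - x) * pb_Bin x k j ≤ σ := by
  rw [pb_tel_Bin x k j hj]
  calc ∑ i ∈ range j, ((k : ℝ) * x - i) * pb_Bin x k i
      ≤ ∑ i ∈ range j, ((((k : ℝ) * x - i) ^ 2 / σ + σ) / 2) * pb_Bin x k i := by
        refine Finset.sum_le_sum fun i _ => mul_le_mul_of_nonneg_right ?_ (pb_nonneg_Bin h0 h1 _ _)
        have h2 : (((k : ℝ) * x - i) ^ 2 / σ + σ) / 2 - ((k : ℝ) * x - i) =
            ((k : ℝ) * x - i - σ) ^ 2 / (2 * σ) := by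
          field_simp; ring
        have h3 : 0 ≤ ((k : ℝ) * x - i - σ) ^ 2 / (2 * σ) := by positivity
        linarith
    _ ≤ ∑ i ∈ range (k + 1), ((((k : ℝ) * x - i) ^ 2 / σ + σ) / 2) * pb_Bin x k i := by
        refine Finset.sum_le_sum_of_subset_of_nonneg (Finset.range_mono hj) fun i _ _ => ?_
        have := pb_nonneg_Bin h0 h1 k i
        positivity
    _ = ((∑ i ∈ range (k + 1), ((k : ℝ) * x - i) ^ 2 * pb_Bin x k i) / σ +
          σ * ∑ i ∈ range (k + 1), pb_Bin x k i) / 2 := by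
        rw [Finset.sum_div, Finset.mul_sum, ← Finset.sum_add_distrib, Finset.sum_div]
        exact Finset.sum_congr rfl fun i _ => by ring
    _ = σ := by
        rw [pb_var_Bin, pb_sum_Bin, ← hσ2]
        field_simp; ring

theorem binom_le (x : ℝ) (h0 : 0 < x) (h1 : x < 1) :
    ∃ C : ℝ, 0 < C ∧ ∀ k j : ℕ, 1 ≤ k →
      (k.choose j : ℝ) * x ^ j * (1 - x) ^ (k - j) ≤ C / Real.sqrt k := by
  have h2 : 0 < 1 - x := by linarith
  have hv : 0 < x * (1 - x) := mul_pos h0 h2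
  have hs : 0 < Real.sqrt (x * (1 - x)) := Real.sqrt_pos.2 hv
  refine ⟨1 / Real.sqrt (x * (1 - x)), by positivity, fun k j hk => ?_⟩
  have hk' : (0 : ℝ) < k := by exact_mod_cast hk
  have hsk : 0 < Real.sqrt k := Real.sqrt_pos.2 hk'
  by_cases hj : k < j
  · rw [Nat.choose_eq_zero_of_lt hj]
    simp only [Nat.cast_zero, zero_mul]
    positivity
  have hj' : j ≤ k := by omega
  set σ := Real.sqrt k * Real.sqrt (x * (1 - x)) with hσ
  have hσ0 : 0 < σ := mul_pos hsk hs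
  have hσ2 : σ ^ 2 = k * x * (1 - x) := by
    rw [hσ, mul_pow, Real.sq_sqrt hk'.le, Real.sq_sqrt hv.le]; ring
  have ha := pb_a_Bin h0 h1 k j (by omega) hσ0 hσ2
  have hb := pb_a_Bin h0 h1 k (j + 1) (by omega) hσ0 hσ2
  rw [pb_step_Bin x k j hj'] at hb
  have h3 : σ ^ 2 * pb_Bin x k j ≤ σ := by
    rw [hσ2]
    have e1 := mul_le_mul_of_nonneg_left ha h0.le
    have e2 := mul_le_mul_of_nonneg_left hb h2.le
    nlinarith
  have h4 : pb_Bin x k j ≤ 1 / σ := by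
    rw [le_div_iff₀ hσ0]
    have : σ * (pb_Bin x k j * σ) ≤ σ * 1 := by nlinarith
    exact le_of_mul_le_mul_left this hσ0
  have h5 : 1 / σ = 1 / Real.sqrt (x * (1 - x)) / Real.sqrt k := by
    rw [hσ]; field_simp
  rw [← h5]
  exact h4

theorem harm_two_Bin (m : ℕ) :
    ∑ k ∈ Icc (1 : ℕ) (2 ^ m), (k : ℝ≥0∞)⁻¹ ≤ (m : ℝ≥0∞) + 1 := by
  induction m with
  | zero => simp
  | succ m ih =>
    have h1 : 1 ≤ 2 ^ m := Nat.one_le_two_pow
    have h2 : Icc (1 : ℕ) (2 ^ (m + 1)) = Icc 1 (2 ^ m) ∪ Ioc (2 ^ m) (2 ^ (m + 1)) := by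
      ext k
      simp only [Finset.mem_Icc, Finset.mem_union, Finset.mem_Ioc, pow_succ]
      omega
    have h3 : Disjoint (Icc (1 : ℕ) (2 ^ m)) (Ioc (2 ^ m) (2 ^ (m + 1))) := by
      rw [Finset.disjoint_left]
      intro k hk hk'
      simp only [Finset.mem_Icc, Finset.mem_Ioc] at hk hk'
      omega
    rw [h2, Finset.sum_union h3]
    have h4 : ∑ k ∈ Ioc (2 ^ m : ℕ) (2 ^ (m + 1)), (k : ℝ≥0∞)⁻¹ ≤ 1 := by
      calc ∑ k ∈ Ioc (2 ^ m : ℕ) (2 ^ (m + 1)), (k : ℝ≥0∞)⁻¹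
          ≤ ∑ k ∈ Ioc (2 ^ m : ℕ) (2 ^ (m + 1)), (((2 ^ m : ℕ) : ℝ≥0∞))⁻¹ := by
            refine Finset.sum_le_sum fun k hk => ?_
            rw [ENNReal.inv_le_inv]
            exact_mod_cast (Finset.mem_Ioc.1 hk).1.le
        _ = 1 := by
            rw [Finset.sum_const, Nat.card_Ioc, show 2 ^ (m + 1) - 2 ^ m = 2 ^ m by
              rw [pow_succ]; omega, nsmul_eq_mul]
            exact ENNReal.mul_inv_cancel (by exact_mod_cast (by omega : 2 ^ m ≠ 0))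
              (ENNReal.natCast_ne_top _)
    push_cast
    exact add_le_add ih h4

theorem harm_le (C : ℝ≥0∞) (j : ℕ) :
    ∑ k ∈ Icc (1 : ℕ) (16 ^ j), C / (k : ℝ≥0∞) ≤ C * (4 * ((j : ℝ≥0∞) + 1)) := by
  have h1 : (16 : ℕ) ^ j = 2 ^ (4 * j) := by rw [pow_mul]; norm_num
  simp only [div_eq_mul_inv]
  rw [← Finset.mul_sum, h1]
  refine mul_le_mul_right ((harm_two_Bin _).trans ?_) _
  push_cast
  rw [mul_add]
  exact add_le_add le_rfl (by norm_num)

theorem harm_false (f : ℕ → ℝ≥0∞) (c : ℝ≥0∞) (hc : c ≠ 0) (j0 : ℕ) (hf : ∀ j, f j ≠ ⊤)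
    (h : ∀ j, j0 ≤ j → c / ((j : ℝ≥0∞) + 1) + f (j + 1) ≤ f j) : False := by
  have hne : ∀ j : ℕ, ((j : ℝ≥0∞) + 1) ≠ ⊤ := fun j =>
    ENNReal.add_ne_top.2 ⟨ENNReal.natCast_ne_top _, ENNReal.one_ne_top⟩
  have hct : c ≠ ⊤ := by
    intro hct
    have h1 := h j0 le_rfl
    rw [hct, ENNReal.top_div_of_ne_top (hne j0), top_add] at h1
    exact hf j0 (top_le_iff.1 h1)
  have hc0 : 0 < c.toReal := ENNReal.toReal_pos hc hct
  have h2 : ∀ j, j0 ≤ j → c.toReal / ((j : ℝ) + 1) + (f (j + 1)).toReal ≤ (f j).toReal := by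
    intro j hj
    have h3 := ENNReal.toReal_mono (hf j) (h j hj)
    rw [ENNReal.toReal_add (ENNReal.div_ne_top hct (by simp)) (hf _), ENNReal.toReal_div,
      ENNReal.toReal_add (ENNReal.natCast_ne_top _) ENNReal.one_ne_top] at h3
    simpa using h3
  have h3 : ∀ n : ℕ, ∑ i ∈ range n, c.toReal / (((i + j0 : ℕ) : ℝ) + 1) + (f (n + j0)).toReal ≤
      (f j0).toReal := by
    intro n
    induction n with
    | zero => simp
    | succ n ih =>
      rw [Finset.sum_range_succ]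
      have := h2 (n + j0) (by omega)
      rw [show n + 1 + j0 = n + j0 + 1 by omega]
      linarith
  have h4 : Summable fun i : ℕ => c.toReal / (((i + j0 : ℕ) : ℝ) + 1) := by
    refine summable_of_sum_range_le (c := (f j0).toReal) (fun i => by positivity) fun n => ?_
    have := h3 n
    have h5 : 0 ≤ (f (n + j0)).toReal := ENNReal.toReal_nonneg
    linarith
  have h5 : Summable fun i : ℕ => (((i + (j0 + 1) : ℕ) : ℝ))⁻¹ := by
    refine (h4.mul_left (c.toReal)⁻¹).congr fun i => ?_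
    push_cast
    field_simp
    ring
  exact Real.not_summable_natCast_inv ((summable_nat_add_iff (j0 + 1)).1 h5)

end Vale.Agent.P147
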