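import Vale.Agent.P147.Ind
import Vale.Agent.P147.Bin

namespace Vale.Agent.P147

open MeasureTheory Filter Finset
open scoped ENNReal

variable {d : ℕ} {l : V d} {μ : Measure (U d → ℝ)}

noncomputable def B_Anti (w0 w1 : ℝ≥0∞) (u : V d) (ψ : V d → ℝ≥0∞) (z : V d) : ℝ≥0∞ :=
  w0 * ψ z + w1 * ψ (z + u)

theorem B_comm_Anti (w0 w1 v0 v1 : ℝ≥0∞) (u v : V d) :
    Function.Commute (B_Anti w0 w1 u) (B_Anti v0 v1 v) := by
  intro ψ
  funext z
  unfold B_Anti
  rw [add_right_comm z u v]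
  ring

theorem B_iter_Anti (w0 w1 : ℝ≥0∞) (u : V d) (ψ : V d → ℝ≥0∞) (k : ℕ) (z : V d) :
    (B_Anti w0 w1 u)^[k] ψ z =
      ∑ i ∈ range (k + 1), (k.choose i : ℝ≥0∞) * (w1 ^ i * w0 ^ (k - i) * ψ (z + (i : ℤ) • u)) := by
  induction k generalizing z with
  | zero => simp
  | succ k ih =>
    rw [Function.iterate_succ_apply', B_Anti, ih, ih,
      Finset.sum_choose_succ_mul (fun i j => w1 ^ i * w0 ^ j * ψ (z + (i : ℤ) • u)) k,
      Finset.mul_sum, Finset.mul_sum]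
    congr 1
    · refine Finset.sum_congr rfl fun i hi => ?_
      have h1 : k + 1 - i = (k - i) + 1 := by
        have := Finset.mem_range.1 hi
        omega
      rw [h1, pow_succ]; ring
    · refine Finset.sum_congr rfl fun i _ => ?_
      have h1 : z + u + (i : ℤ) • u = z + ((i + 1 : ℕ) : ℤ) • u := by
        push_cast; rw [add_smul, one_smul]; abel
      rw [h1, pow_succ]; ring

theorem coef_Anti {w0 w1 : ℝ≥0∞} (h0 : w0 ≠ 0) (h0' : w0 ≠ ⊤) (h1 : w1 ≠ 0) (h1' : w1 ≠ ⊤) :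
    ∃ C : ℝ, 0 < C ∧ ∀ k i : ℕ, 1 ≤ k → i ≤ k →
      (k.choose i : ℝ≥0∞) * (w1 ^ i * w0 ^ (k - i)) ≤
        (w0 + w1) ^ k * ENNReal.ofReal (C / Real.sqrt k) := by
  lift w0 to NNReal using h0'
  lift w1 to NNReal using h1'
  have a0 : (0 : ℝ) < w0 := by
    have : w0 ≠ 0 := by simpa using h0
    positivity
  have a1 : (0 : ℝ) < w1 := by
    have : w1 ≠ 0 := by simpa using h1
    positivity
  have hs : (0 : ℝ) < w0 + w1 := by positivity
  obtain ⟨C, hC, h⟩ := binom_le ((w1 : ℝ) / (w0 + w1)) (by positivity)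
    (by rw [div_lt_one hs]; linarith)
  refine ⟨C, hC, fun k i hk hi => ?_⟩
  have h2 := h k i hk
  have h3 : 1 - (w1 : ℝ) / (w0 + w1) = w0 / (w0 + w1) := by field_simp; ring
  rw [h3] at h2
  have h4 : (k.choose i : ℝ) * ((w1 : ℝ) ^ i * (w0 : ℝ) ^ (k - i)) ≤
      ((w0 : ℝ) + w1) ^ k * (C / Real.sqrt k) := by
    have h5 : ((w0 : ℝ) + w1) ^ k = ((w0 : ℝ) + w1) ^ i * ((w0 : ℝ) + w1) ^ (k - i) := by
      rw [← pow_add]; congr 1; omega
    have h6 := mul_le_mul_of_nonneg_left h2 (pow_pos hs k).le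
    refine le_trans (le_of_eq ?_) h6
    rw [h5, div_pow, div_pow]
    field_simp
  have h7 := ENNReal.ofReal_le_ofReal h4
  rw [ENNReal.ofReal_mul (by positivity), ENNReal.ofReal_mul (by positivity),
    ENNReal.ofReal_mul (by positivity), ENNReal.ofReal_pow a1.le, ENNReal.ofReal_pow a0.le,
    ENNReal.ofReal_pow hs.le, ENNReal.ofReal_add a0.le a1.le, ENNReal.ofReal_natCast,
    ENNReal.ofReal_coe_nnreal, ENNReal.ofReal_coe_nnreal] at h7
  exact h7

theorem sum_ind_Anti {α : Type*} (S : Finset α) (r : α → Prop)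
    (h : ∀ a b, r a → r b → a = b) : ∑ a ∈ S, ind (r a) ≤ 1 := by
  classical
  by_cases hex : ∃ a ∈ S, r a
  · obtain ⟨a, ha, hr⟩ := hex
    rw [Finset.sum_eq_single_of_mem a ha (fun b _ hb => ind_neg fun h' => hb (h b a h' hr))]
    exact ind_le_one _
  · rw [Finset.sum_eq_zero (fun b hb => ind_neg fun h' => hex ⟨b, hb, h'⟩)]
    exact zero_le

theorem Pat.anti [IsProbabilityMeasure μ] (p : Pat l) (h : Elliptic μ) :
    ∃ C : ℝ≥0∞, C ≠ ⊤ ∧ ∀ G : Set (V d), LInj l G → ∀ k : ℕ, 1 ≤ k → ∀ z,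
      (p.Aop μ)^[k] (fun a => ind (a ∈ G)) z ≤ (∑ e, W μ (p.P e)) ^ k * (C / k) := by
  have hfin : ∀ s, W μ s ≠ ⊤ := fun s => ne_top_of_le_ne_top ENNReal.one_ne_top (W_le_one h s)
  have hW : ∀ i j, W μ (p.P (i, j)) = W μ (p.P1 i) * W μ (p.P2 j) := fun i j =>
    W_regen (p.rec1 i) (p.nn2 j)
  set a0 := W μ (p.P1 false)
  set a1 := W μ (p.P1 true)
  set b0 := W μ (p.P2 false)
  set b1 := W μ (p.P2 true)
  obtain ⟨C1, hC1, h1⟩ := coef_Anti (w0 := a0) (w1 := a1) (W_ne_zero h _) (hfin _)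
    (W_ne_zero h _) (hfin _)
  obtain ⟨C2, hC2, h2⟩ := coef_Anti (w0 := b0) (w1 := b1) (W_ne_zero h _) (hfin _)
    (W_ne_zero h _) (hfin _)
  have hA : p.Aop μ = B_Anti a0 a1 p.u1 ∘ B_Anti b0 b1 p.u2 := by
    funext ψ z
    simp only [Pat.Aop, Fintype.sum_prod_type, Fintype.sum_bool, hW, Pat.u, Function.comp,
      B_Anti, if_true, Bool.false_eq_true, if_false, add_zero, zero_add, add_assoc]
    ring
  have hS : ∑ e, W μ (p.P e) = (a0 + a1) * (b0 + b1) := by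
    simp only [Fintype.sum_prod_type, Fintype.sum_bool, hW]
    ring
  refine ⟨ENNReal.ofReal (C1 * C2), ENNReal.ofReal_ne_top, fun G hG k hk z => ?_⟩
  have hk' : (0 : ℝ) < k := by exact_mod_cast hk
  have hsk : 0 < Real.sqrt k := Real.sqrt_pos.2 hk'
  have hD : ENNReal.ofReal (C1 / Real.sqrt k) * ENNReal.ofReal (C2 / Real.sqrt k) =
      ENNReal.ofReal (C1 * C2) / k := by
    rw [← ENNReal.ofReal_mul (by positivity), div_mul_div_comm, Real.mul_self_sqrt hk'.le,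
      ENNReal.ofReal_div_of_pos hk', ENNReal.ofReal_natCast]
  rw [hA, (B_comm_Anti a0 a1 b0 b1 p.u1 p.u2).comp_iterate, Function.comp_apply, B_iter_Anti]
  simp only [B_iter_Anti]
  set D1 := (a0 + a1) ^ k * ENNReal.ofReal (C1 / Real.sqrt k)
  set D2 := (b0 + b1) ^ k * ENNReal.ofReal (C2 / Real.sqrt k)
  calc _ ≤ ∑ i ∈ range (k + 1), D1 * ∑ j ∈ range (k + 1),
        D2 * ind (z + (i : ℤ) • p.u1 + (j : ℤ) • p.u2 ∈ G) := by
        refine Finset.sum_le_sum fun i hi => ?_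
        rw [← mul_assoc]
        refine mul_le_mul' (h1 k i hk (Nat.lt_succ_iff.1 (Finset.mem_range.1 hi))) ?_
        refine Finset.sum_le_sum fun j hj => ?_
        rw [← mul_assoc]
        exact mul_le_mul_left (h2 k j hk (Nat.lt_succ_iff.1 (Finset.mem_range.1 hj))) _
    _ = D1 * D2 * ∑ ij ∈ range (k + 1) ×ˢ range (k + 1),
        ind (z + (ij.1 : ℤ) • p.u1 + (ij.2 : ℤ) • p.u2 ∈ G) := by
        rw [Finset.sum_product, Finset.mul_sum]
        refine Finset.sum_congr rfl fun i _ => ?_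
        rw [← Finset.mul_sum, mul_assoc D1 D2]
    _ ≤ D1 * D2 * 1 := by
        refine mul_le_mul_right (sum_ind_Anti _ _ ?_) _
        rintro ⟨i, j⟩ ⟨i', j'⟩ ha hb
        have h3 := hG _ ha _ hb (by
          simp only [dot_add, dot_smul, p.hu1, p.hu2, mul_zero])
        have h4 := p.hind ((i : ℤ) - i') ((j : ℤ) - j') (by
          have h5 := sub_eq_zero.2 h3
          rw [← h5, sub_smul, sub_smul]; abel)
        ext
        · simp only []; omega
        · simp only []; omega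
    _ = _ := by
        rw [hS, ← hD, mul_pow, mul_one]
        simp only [D1, D2]
        ring

end Vale.Agent.P147
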