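import Vale.Agent.P147.Def2

namespace Vale.Agent.P147

open MeasureTheory Filter Finset
open scoped ENNReal

variable {d : ℕ} {l : V d} {μ : Measure (U d → ℝ)}

instance envLaw_prob [IsProbabilityMeasure μ] : IsProbabilityMeasure (envLaw μ) := by
  unfold envLaw
  infer_instance

theorem measurable_shift (y : V d) : Measurable (shift y : Env d → Env d) := by
  unfold shift
  exact measurable_pi_lambda _ fun x => measurable_pi_apply (x + y)

theorem map_shift_Env [IsProbabilityMeasure μ] (y : V d) :
    (envLaw μ).map (shift y) = envLaw μ := by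
  have h := Measure.infinitePi_map_piCongrLeft (fun _ : V d => μ) (Equiv.addRight y).symm
  unfold envLaw
  refine Eq.trans ?_ h
  congr 1
  funext ω
  funext x
  have h2 := MeasurableEquiv.piCongrLeft_apply_apply (Equiv.addRight y).symm
    (β := fun _ : V d => (U d → ℝ)) ω (x + y)
  simpa [shift] using h2.symm

theorem lintegral_shift [IsProbabilityMeasure μ] (y : V d) {f : Env d → ℝ≥0∞}
    (hf : Measurable f) : ∫⁻ ω, f (shift y ω) ∂envLaw μ = ∫⁻ ω, f ω ∂envLaw μ := by
  rw [← lintegral_map hf (measurable_shift y), map_shift_Env]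

theorem lintegral_q [IsProbabilityMeasure μ] (x : V d) (s : List (U d)) :
    ∫⁻ ω, q ω x s ∂envLaw μ = W μ s := by
  unfold W
  rw [← lintegral_shift x (measurable_q 0 s)]
  simp only [q_shift, zero_add]

theorem ae_stoch [IsProbabilityMeasure μ] (h : Elliptic μ) : ∀ᵐ ω ∂envLaw μ, Stoch ω := by
  unfold Stoch
  rw [ae_all_iff]
  intro x
  have hmp : MeasurePreserving (fun ω : Env d => ω x) (envLaw μ) μ :=
    measurePreserving_eval_infinitePi (fun _ : V d => μ) x
  exact hmp.quasiMeasurePreserving.ae h

theorem cons_q {ω : Env d} (h : Stoch ω) (x : V d) : Cons (q ω x) := by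
  intro s
  simp only [q_append, q, mul_one]
  rw [← Finset.mul_sum, ← ENNReal.ofReal_sum_of_nonneg (fun e _ => ((h _).1 e).le), (h _).2]
  simp

theorem q_le_one {ω : Env d} (h : Stoch ω) (x : V d) (s : List (U d)) : q ω x s ≤ 1 := by
  induction s generalizing x with
  | nil => simp [q]
  | cons e s ih =>
    simp only [q]
    have h1 : ω x e ≤ 1 := by
      rw [← (h x).2]
      exact Finset.single_le_sum (f := fun e => ω x e) (fun e _ => ((h x).1 e).le)
        (Finset.mem_univ e)
    exact mul_le_one' (ENNReal.ofReal_le_one.2 h1) (ih _)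

theorem cons_W [IsProbabilityMeasure μ] (h : Elliptic μ) : Cons (W μ) := by
  intro s
  unfold W
  rw [← lintegral_finset_sum _ (fun e _ => measurable_q 0 (s ++ [e]))]
  refine lintegral_congr_ae ?_
  filter_upwards [ae_stoch h] with ω hω
  exact cons_q hω 0 s

theorem W_nil [IsProbabilityMeasure μ] : W μ [] = 1 := by
  simp [W, q]

theorem W_le_one [IsProbabilityMeasure μ] (h : Elliptic μ) (s : List (U d)) : W μ s ≤ 1 := by
  unfold W
  calc ∫⁻ ω, q ω 0 s ∂envLaw μ ≤ ∫⁻ _ω, 1 ∂envLaw μ := by
        refine lintegral_mono_ae ?_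
        filter_upwards [ae_stoch h] with ω hω
        exact q_le_one hω 0 s
    _ = 1 := by simp

theorem q_ne_zero_Env {ω : Env d} (h : Stoch ω) (x : V d) (s : List (U d)) : q ω x s ≠ 0 := by
  induction s generalizing x with
  | nil => simp [q]
  | cons e s ih =>
    simp only [q]
    exact mul_ne_zero (by simpa using (h x).1 e) (ih _)

theorem W_ne_zero [IsProbabilityMeasure μ] (h : Elliptic μ) (s : List (U d)) : W μ s ≠ 0 := by
  unfold W
  intro h0
  rw [lintegral_eq_zero_iff (measurable_q 0 s)] at h0
  have h1 : ∀ᵐ ω ∂envLaw μ, False := by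
    filter_upwards [ae_stoch h, h0] with ω hω h2
    exact q_ne_zero_Env hω 0 s h2
  rw [eventually_false_iff_eq_bot, ae_eq_bot] at h1
  exact IsProbabilityMeasure.ne_zero _ h1

theorem W_append_le [IsProbabilityMeasure μ] (h : Elliptic μ) (s t : List (U d)) :
    W μ (s ++ t) ≤ W μ t := by
  rw [← lintegral_q (disp s) t]
  unfold W
  refine lintegral_mono_ae ?_
  filter_upwards [ae_stoch h] with ω hω
  rw [q_append, zero_add]
  exact mul_le_of_le_one_left zero_le (q_le_one hω 0 s)

end Vale.Agent.P147
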