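import Vale.Agent.P147.PFm
import Vale.Agent.P147.Env

namespace Vale.Agent.P147

open MeasureTheory Filter Finset
open scoped ENNReal

variable {d : ℕ} {l : V d} {μ : Measure (U d → ℝ)}

theorem first_hit_BadL (P : List (U d) → Prop) {t : List (U d)} (h : ∃ r, r <+: t ∧ P r) :
    ∃ v, v <+: t ∧ P v ∧ ∀ r, r <+: v → r ≠ v → ¬ P r := by
  classical
  have hex : ∃ n, ∃ c : List (U d), c.length = n ∧ c <+: t ∧ P c := by
    obtain ⟨r, h1, h2⟩ := h
    exact ⟨_, r, rfl, h1, h2⟩
  obtain ⟨c, hc, hcs, hl⟩ := Nat.find_spec hex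
  refine ⟨c, hcs, hl, fun r hr hne hP => ?_⟩
  have h1 : r.length < c.length := lt_of_le_of_ne hr.length_le fun h => hne (hr.eq_of_length h)
  exact Nat.find_min hex (hc ▸ h1) ⟨r, rfl, hr.trans hcs, hP⟩

theorem mass_or_BadL (m : List (U d) → ℝ≥0∞) {F G : List (U d) → Prop}
    (h : ∀ s, F s → ¬ G s) : mass m (fun s => F s ∨ G s) = mass m F + mass m G := by
  unfold mass
  rw [← ENNReal.tsum_add]
  refine tsum_congr fun s => ?_
  by_cases hF : F s
  · rw [ind_pos (Or.inl hF), ind_pos hF, ind_neg (h s hF), zero_mul, add_zero]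
  · by_cases hG : G s
    · rw [ind_pos (Or.inr hG), ind_pos hG, ind_neg hF, zero_mul, zero_add]
    · rw [ind_neg (fun h' => h'.elim hF hG), ind_neg hF, ind_neg hG, zero_mul, add_zero]

theorem meas_mass_BadL (x : V d) (F : List (U d) → Prop) :
    Measurable fun ω : Env d => mass (q ω x) F :=
  Measurable.tsum fun s => measurable_const.fun_mul (measurable_q x s)

theorem int_mass_BadL (F : List (U d) → Prop) :
    ∫⁻ ω, mass (q ω 0) F ∂envLaw μ = mass (W μ) F := by
  unfold mass
  rw [lintegral_tsum fun s => (measurable_const.fun_mul (measurable_q 0 s)).aemeasurable]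
  refine tsum_congr fun s => ?_
  rw [lintegral_const_mul _ (measurable_q 0 s)]
  rfl
theorem measurable_hh (l : V d) (lam : ℤ) (z : V d) : Measurable fun ω => hh l lam ω z := meas_mass_BadL z _

theorem measurableSet_bad (l : V d) (K : ℕ) (l1 l3 : ℤ) (s : List (U d)) :
    MeasurableSet {ω | Bad l K l1 l3 ω s} := by
  have e : {ω | Bad l K l1 l3 ω s} = ⋃ t : List (U d),
      ({_ω : Env d | t <+: s ∧ Cone l K t ∧ l1 ≤ lv l t ∧ (∀ r, r <+: t → lv l r ≤ l3)} ∩
        {ω | hh l (l3 + 1) ω (disp t) ≤ 1 / 2}) := by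
    ext ω
    simp only [Bad, Set.mem_ofPred_eq, Set.mem_iUnion, Set.mem_inter_iff, and_assoc]
  rw [e]
  refine MeasurableSet.iUnion fun t => MeasurableSet.inter ?_ ?_
  · exact MeasurableSet.const _
  · exact measurableSet_le (measurable_hh _ _ _) measurable_const

theorem hh_shift (l : V d) (lam : ℤ) (y : V d) (ω : Env d) (z : V d) :
    hh l lam (shift y ω) z = hh l lam ω (z + y) := by
  unfold hh
  congr 1
  funext s
  exact q_shift y ω z s

theorem hh_half {ω : Env d} (hω : Stoch ω) (l : V d) {lam : ℤ} (hlam : 0 < lam) (z : V d) :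
    hh l lam ω z ≤ 1 / 2 ∨ hh (-l) lam ω z ≤ 1 / 2 := by
  by_contra hc
  push Not at hc
  obtain ⟨h1, h2⟩ := hc
  have hdis : ∀ s t, Cr (fun s => ∀ t, t <+: s → -lam < lv l t) l lam s →
      Cr (fun s => ∀ t, t <+: s → -lam < lv (-l) t) (-l) lam t → ¬ s <+: t := by
    intro s t hs ht hst
    have a1 := ht.1 s hst
    have a2 := hs.2.1
    rw [lv_neg] at a1
    omega
  have hdis' : ∀ s t, Cr (fun s => ∀ t, t <+: s → -lam < lv l t) l lam s →
      Cr (fun s => ∀ t, t <+: s → -lam < lv (-l) t) (-l) lam t → ¬ t <+: s := by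
    intro s t hs ht hst
    have a1 := hs.1 t hst
    have a2 := ht.2.1
    rw [lv_neg] at a2
    omega
  have hpf : PF (fun s => Cr (fun s => ∀ t, t <+: s → -lam < lv l t) l lam s ∨
      Cr (fun s => ∀ t, t <+: s → -lam < lv (-l) t) (-l) lam s) := by
    intro s t hs ht hst
    rcases hs with hs | hs <;> rcases ht with ht | ht
    · exact pf_cr _ _ _ s t hs ht hst
    · exact absurd hst (hdis s t hs ht)
    · exact absurd hst (hdis' t s ht hs)
    · exact pf_cr _ _ _ s t hs ht hst
  have h3 := mass_le (cons_q hω z) hpf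
  rw [mass_or_BadL _ (fun s hs ht => hdis s s hs ht (List.prefix_refl _))] at h3
  have h4 : (1 : ℝ≥0∞) / 2 + 1 / 2 < hh l lam ω z + hh (-l) lam ω z := ENNReal.add_lt_add h1 h2
  rw [ENNReal.add_halves] at h4
  exact absurd (h4.trans_le h3) (by simp [q])

theorem pt_BadL {ω : Env d} (hω : Stoch ω) (l : V d) (K : ℕ)
    {F : List (U d) → Prop} (hF : PF F) {l1 l2 l3 : ℤ} (h1 : l1 ≤ l2) (h2 : 2 * l3 + 1 ≤ l2) :
    mass (q ω 0) (fun s => F s ∧ Bad l K l1 l3 ω s) + 2 * mass (q ω 0) (Cr (Cone l K) l l2) ≤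
      2 * mass (q ω 0) (Cr (Cone l K) l l1) := by
  have hc := cons_q hω 0
  set P : List (U d) → Prop := fun t => Cone l K t ∧ l1 ≤ lv l t ∧ (∀ r, r <+: t → lv l r ≤ l3) ∧
    hh l (l3 + 1) ω (disp t) ≤ 1 / 2 with hP
  set B : List (U d) → Prop := fun t => P t ∧ ∀ r, r <+: t → r ≠ t → ¬ P r with hB
  set X : List (U d) → Prop := fun s => Cr (Cone l K) l l2 s ∧ ¬ ∃ b, B b ∧ b <+: s with hX
  set Y : List (U d) → Prop := fun s => Cr (Cone l K) l l2 s ∧ ∃ b, B b ∧ b <+: s with hY
  have a1 : mass (q ω 0) (fun s => F s ∧ Bad l K l1 l3 ω s) ≤ mass (q ω 0) B := by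
    refine cover_mass hc (fun s t hs ht hst => hF s t hs.1 ht.1 hst) fun t ht => ?_
    obtain ⟨v, hv, hv1, hv2⟩ := first_hit_BadL P (t := t) ht.2
    exact ⟨v, ⟨hv1, hv2⟩, hv⟩
  have hpf : PF (fun s => B s ∨ X s) := by
    intro s t hs ht hst
    rcases hs with hs | hs <;> rcases ht with ht | ht
    · by_contra hne
      exact ht.2 s hst hne hs.1
    · exact absurd ⟨s, hs, hst⟩ ht.2
    · exfalso
      have b1 := ht.1.2.2.1 s hst
      have b2 := ht.1.2.2.1 [] List.nil_prefix
      have b3 := hs.1.2.1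
      rw [lv_nil] at b2
      omega
    · exact pf_cr _ _ _ s t hs.1 ht.1 hst
  have a2 : mass (q ω 0) B + mass (q ω 0) X ≤ mass (q ω 0) (Cr (Cone l K) l l1) := by
    rw [← mass_or_BadL _ (fun s hs hx => hx.2 ⟨s, hs, List.prefix_refl _⟩)]
    refine cover_mass hc hpf fun t ht => ?_
    rcases ht with ht | ht
    · exact exists_cr (her_cone l K) ht.1.1 ht.1.2.1
    · exact exists_cr (her_cone l K) ht.1.1 (h1.trans ht.1.2.1)
  have a3 : mass (q ω 0) (Cr (Cone l K) l l2) ≤ mass (q ω 0) Y + mass (q ω 0) X := by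
    rw [← mass_or_BadL _ (fun s hs hx => hx.2 hs.2)]
    refine mass_mono _ fun s hs => ?_
    by_cases hb : ∃ b, B b ∧ b <+: s
    · exact Or.inl ⟨hs, hb⟩
    · exact Or.inr ⟨hs, hb⟩
  have a4 : mass (q ω 0) Y ≤ mass (q ω 0) B * (1 / 2) := by
    calc mass (q ω 0) Y
        ≤ ∑' s, ∑' b, ind (B b) * (ind (b <+: s) * (ind (Cr (Cone l K) l l2 s) * q ω 0 s)) := by
          refine ENNReal.tsum_le_tsum fun s => ?_
          by_cases hs : Y s
          · obtain ⟨b, hb, hbs⟩ := hs.2
            refine le_trans (le_of_eq ?_) (ENNReal.le_tsum b)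
            rw [ind_pos hs, ind_pos hb, ind_pos hbs, ind_pos hs.1]
            simp only [one_mul]
          · rw [ind_neg hs, zero_mul]
            exact zero_le
      _ = ∑' b, ∑' s, ind (B b) * (ind (b <+: s) * (ind (Cr (Cone l K) l l2 s) * q ω 0 s)) :=
          ENNReal.tsum_comm
      _ ≤ ∑' b, ind (B b) * q ω 0 b * (1 / 2) := by
          refine ENNReal.tsum_le_tsum fun b => ?_
          rw [ENNReal.tsum_mul_left,
            tsum_ext (fun s => ind (Cr (Cone l K) l l2 s) * q ω 0 s) b]
          by_cases hb : B b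
          · rw [mul_assoc]
            refine mul_le_mul_right ?_ _
            have e : ∑' v, ind (Cr (Cone l K) l l2 (b ++ v)) * q ω 0 (b ++ v) =
                q ω 0 b * mass (q ω (disp b)) (fun v => Cr (Cone l K) l l2 (b ++ v)) := by
              unfold mass
              rw [← ENNReal.tsum_mul_left]
              refine tsum_congr fun v => ?_
              rw [q_append, zero_add]
              ring
            rw [e]
            refine mul_le_mul_right (le_trans ?_ hb.1.2.2.2) _
            unfold hh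
            refine cover_mass (cons_q hω _) ?_ fun v hv => ?_
            · intro v v' hv hv' hvv
              exact List.append_cancel_left
                (pf_cr _ _ _ _ _ hv hv' ((List.prefix_append_right_inj b).2 hvv))
            · have b1 := hb.1.2.2.1 b (List.prefix_refl _)
              refine exists_cr (fun s t hts hs r hr => hs r (hr.trans hts)) ?_ ?_
              · intro t ht
                have b2 := hv.1.nn (b ++ t) ((List.prefix_append_right_inj b).2 ht)
                rw [lv_append] at b2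
                omega
              · have b2 := hv.2.1
                rw [lv_append] at b2
                omega
          · rw [ind_neg hb, zero_mul]
            exact zero_le
      _ = mass (q ω 0) B * (1 / 2) := by
          unfold mass
          rw [ENNReal.tsum_mul_right]
  have a5 : 2 * (mass (q ω 0) B * (1 / 2)) = mass (q ω 0) B := by
    rw [mul_comm (mass (q ω 0) B), ← mul_assoc, one_div,
      ENNReal.mul_inv_cancel (by norm_num) (by norm_num), one_mul]
  calc mass (q ω 0) (fun s => F s ∧ Bad l K l1 l3 ω s) + 2 * mass (q ω 0) (Cr (Cone l K) l l2)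
      ≤ mass (q ω 0) B + 2 * (mass (q ω 0) B * (1 / 2) + mass (q ω 0) X) := by
        gcongr
        exact a3.trans (by gcongr)
    _ = 2 * (mass (q ω 0) B + mass (q ω 0) X) := by
        rw [mul_add, a5]
        ring
    _ ≤ _ := by gcongr
theorem bad_le [IsProbabilityMeasure μ] (h : Elliptic μ) (l : V d) (K : ℕ)
    {F : List (U d) → Prop} (hF : PF F) {l1 l2 l3 : ℤ} (h1 : l1 ≤ l2) (h2 : 2 * l3 + 1 ≤ l2) :
    ∫⁻ ω, mass (q ω 0) (fun s => F s ∧ Bad l K l1 l3 ω s) ∂envLaw μ + 2 * AA μ l K l2 ≤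
      2 * AA μ l K l1 := by
  unfold AA
  rw [← int_mass_BadL, ← int_mass_BadL, ← lintegral_const_mul _ (meas_mass_BadL _ _),
    ← lintegral_const_mul _ (meas_mass_BadL _ _),
    ← lintegral_add_right _ ((meas_mass_BadL _ _).const_mul _)]
  refine lintegral_mono_ae ?_
  filter_upwards [ae_stoch h] with ω hω
  exact pt_BadL hω l K hF h1 h2

end Vale.Agent.P147
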