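import Vale.Agent.P147.Def2

namespace Vale.Agent.P147

open MeasureTheory Filter Finset
open scoped ENNReal

variable {d : ℕ} {l : V d} {μ : Measure (U d → ℝ)}

theorem lt_sum_Comb (l : V d) (A B : Finset (V d)) :
    ∑ z ∈ A ×ˢ B, ((A ×ˢ B).filter fun z' => z'.1 - z'.2 = z.1 - z.2 ∧ dot l z.1 < dot l z'.1).card
      ≤ ∑ b ∈ B, cnt l A {z | z + b ∈ B} := by
  classical
  rw [Finset.sum_product_right]
  refine Finset.sum_le_sum fun b _ => ?_
  have e : cnt l A {z | z + b ∈ B} =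
      ∑ a ∈ A, (A.filter fun a' => dot l a < dot l a' ∧ a' - a + b ∈ B).card := by
    unfold cnt
    rw [Finset.card_filter, Finset.sum_product]
    refine Finset.sum_congr rfl fun a _ => ?_
    rw [Finset.card_filter]
    refine Finset.sum_congr rfl fun a' _ => ?_
    by_cases h1 : dot l a < dot l a' <;> by_cases h2 : a' - a + b ∈ B <;> simp [h1, h2]
  rw [e]
  refine Finset.sum_le_sum fun a _ => ?_
  refine Finset.card_le_card_of_injOn (fun z => z.1) (fun z hz => ?_) fun z hz z' hz' h => ?_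
  · simp only [Finset.coe_filter, Finset.mem_product, Set.mem_ofPred_eq] at hz ⊢
    refine ⟨hz.1.1, hz.2.2, ?_⟩
    have : z.1 - a + b = z.2 := by
      have := hz.2.1
      linear_combination (exp := 1) this
    rw [this]; exact hz.1.2
  · simp only [Finset.coe_filter, Finset.mem_product, Set.mem_ofPred_eq] at hz hz' h
    refine Prod.ext h ?_
    have h1 := hz.2.1
    have h2 := hz'.2.1
    linear_combination (exp := 1) h2 - h1 + h

theorem sq_sum_Comb (l : V d) (A B : Finset (V d)) (hB : LInj l (B : Set (V d))) :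
    ∑ z ∈ A ×ˢ B, ((A ×ˢ B).filter fun z' => z'.1 - z'.2 = z.1 - z.2).card
      ≤ A.card * B.card + 2 * ∑ b ∈ B, cnt l A {z | z + b ∈ B} := by
  classical
  have h1 := lt_sum_Comb l A B
  have h2 : ∑ z ∈ A ×ˢ B, ((A ×ˢ B).filter fun z' =>
      z'.1 - z'.2 = z.1 - z.2 ∧ dot l z'.1 < dot l z.1).card =
      ∑ z ∈ A ×ˢ B, ((A ×ˢ B).filter fun z' =>
        z'.1 - z'.2 = z.1 - z.2 ∧ dot l z.1 < dot l z'.1).card := by
    simp only [Finset.card_filter]
    rw [Finset.sum_comm]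
    refine Finset.sum_congr rfl fun z _ => Finset.sum_congr rfl fun z' _ => ?_
    simp only [eq_comm (a := z.1 - z.2)]
  have h3 : ∀ z ∈ A ×ˢ B, ((A ×ˢ B).filter fun z' => z'.1 - z'.2 = z.1 - z.2).card ≤
      1 + ((A ×ˢ B).filter fun z' => z'.1 - z'.2 = z.1 - z.2 ∧ dot l z.1 < dot l z'.1).card +
      ((A ×ˢ B).filter fun z' => z'.1 - z'.2 = z.1 - z.2 ∧ dot l z'.1 < dot l z.1).card := by
    intro z hz
    rw [← Finset.card_singleton z]
    refine le_trans (Finset.card_le_card fun z' hz' => ?_) ((Finset.card_union_le _ _).trans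
      (Nat.add_le_add_right (Finset.card_union_le _ _) _))
    simp only [Finset.mem_union, Finset.mem_filter, Finset.mem_singleton] at hz' ⊢
    rcases lt_trichotomy (dot l z.1) (dot l z'.1) with h | h | h
    · exact Or.inl (Or.inr ⟨hz'.1, hz'.2, h⟩)
    · refine Or.inl (Or.inl ?_)
      have e := congrArg (dot l) hz'.2
      rw [dot_sub, dot_sub] at e
      have e2 := hB _ (Finset.mem_product.1 hz'.1).2 _ (Finset.mem_product.1 hz).2 (by omega)
      refine Prod.ext ?_ e2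
      have h4 := hz'.2
      linear_combination (exp := 1) h4 + e2
    · exact Or.inr ⟨hz'.1, hz'.2, h⟩
  have h4 := Finset.sum_le_sum h3
  rw [Finset.sum_add_distrib, Finset.sum_add_distrib, h2, Finset.sum_const, Finset.card_product,
    smul_eq_mul, mul_one] at h4
  omega

theorem comb (l : V d) (A B : Finset (V d)) (hB : LInj l (B : Set (V d))) (θ : ℝ≥0∞)
    (h0 : θ ≠ 0) (ht : θ ≠ ⊤) :
    (A.card : ℝ≥0∞) * B.card ≤ θ * (Finset.image₂ (fun a b => a - b) A B).card +
      θ⁻¹ * ((A.card : ℝ≥0∞) * B.card + 2 * ∑ b ∈ B, (cnt l A {z | z + b ∈ B} : ℝ≥0∞)) := by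
  classical
  set r : V d → ℕ := fun y => ((A ×ˢ B).filter fun z' => z'.1 - z'.2 = y).card with hr
  have hD : Finset.image₂ (fun a b => a - b) A B =
      (A ×ˢ B).image fun z : V d × V d => z.1 - z.2 := by
    ext y; simp [Finset.mem_image₂]; tauto
  have h1 : A.card * B.card = ∑ y ∈ Finset.image₂ (fun a b => a - b) A B, r y := by
    rw [hD, ← Finset.card_product]
    exact Finset.card_eq_sum_card_image _ _
  have h2 : ∑ y ∈ Finset.image₂ (fun a b => a - b) A B, r y * r y ≤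
      A.card * B.card + 2 * ∑ b ∈ B, cnt l A {z | z + b ∈ B} := by
    refine le_trans (le_of_eq ?_) (sq_sum_Comb l A B hB)
    rw [hD]
    exact (Finset.sum_comp r fun z : V d × V d => z.1 - z.2).symm
  have h3 : ∀ n : ℕ, (n : ℝ≥0∞) ≤ θ + θ⁻¹ * ((n * n : ℕ) : ℝ≥0∞) := fun n => by
    rcases le_total (n : ℝ≥0∞) θ with h | h
    · exact h.trans le_self_add
    · refine le_trans ?_ le_add_self
      push_cast
      calc (n : ℝ≥0∞) = θ⁻¹ * (θ * n) := by
            rw [← mul_assoc, ENNReal.inv_mul_cancel h0 ht, one_mul]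
        _ ≤ _ := by gcongr
  have h1' : (A.card : ℝ≥0∞) * B.card =
      ∑ y ∈ Finset.image₂ (fun a b => a - b) A B, (r y : ℝ≥0∞) := by exact_mod_cast h1
  have h2' : ∑ y ∈ Finset.image₂ (fun a b => a - b) A B, ((r y * r y : ℕ) : ℝ≥0∞) ≤
      (A.card : ℝ≥0∞) * B.card + 2 * ∑ b ∈ B, (cnt l A {z | z + b ∈ B} : ℝ≥0∞) := by
    exact_mod_cast h2
  calc (A.card : ℝ≥0∞) * B.card = _ := h1'
    _ ≤ ∑ y ∈ Finset.image₂ (fun a b => a - b) A B, (θ + θ⁻¹ * ((r y * r y : ℕ) : ℝ≥0∞)) :=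
      Finset.sum_le_sum fun y _ => h3 _
    _ ≤ _ := by
      rw [Finset.sum_add_distrib, Finset.sum_const, ← Finset.mul_sum, nsmul_eq_mul, mul_comm]
      gcongr

theorem exists_bsk {b : ℤ} (hb : SB l b) (L : ℕ) {g : List (U d) → Prop} {t : List (U d)}
    (ht : Cr g l (3 * (L : ℤ)) t) :
    ∃ B : Finset (V d), LInj l (B : Set (V d)) ∧
      (∀ z ∈ B, z ∈ tr t ∧ 2 * (L : ℤ) ≤ dot l z ∧ dot l z ≤ 3 * (L : ℤ)) ∧
      (L : ℤ) ≤ b * ((B.card : ℤ) + 1) := by
  classical
  have b1 := hb.1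
  set n : ℕ := ((L : ℤ) / b).toNat with hn
  have hn0 : (n : ℤ) = (L : ℤ) / b := Int.toNat_of_nonneg (Int.ediv_nonneg (by omega) (by omega))
  have hn1 : b * n ≤ L := by rw [hn0]; exact Int.mul_ediv_self_le (by omega)
  have hn2 : (L : ℤ) < b * n + b := by
    rw [hn0]; exact Int.lt_mul_ediv_self_add (by omega)
  have key : ∀ i : Fin n, ∃ z, z ∈ tr t ∧ 2 * (L : ℤ) + (i : ℕ) * b ≤ dot l z ∧
      dot l z < 2 * (L : ℤ) + (i : ℕ) * b + b := fun i => by
    have hi : ((i : ℕ) : ℤ) + 1 ≤ n := by exact_mod_cast i.2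
    have hi0 : (0 : ℤ) ≤ (i : ℕ) := by positivity
    obtain ⟨c, hc, hct⟩ := exists_cr (l := l) (g := fun _ => True) (fun _ _ _ _ => trivial)
      (lam := 2 * (L : ℤ) + (i : ℕ) * b) (s := t) trivial (by have := ht.2.1; nlinarith)
    exact ⟨disp c, mem_tr.2 ⟨c, hct, rfl⟩, hc.2.1,
      lv_lt_of_pre hb (by positivity) hc.2.2⟩
  choose z hz using key
  have inj : ∀ i j, dot l (z i) = dot l (z j) → i = j := fun i j h => by
    have h1 := hz i
    have h2 := hz j
    have : ((i : ℕ) : ℤ) = (j : ℕ) := by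
      rcases lt_trichotomy ((i : ℕ) : ℤ) (j : ℕ) with h3 | h3 | h3
      · have : ((i : ℕ) : ℤ) + 1 ≤ (j : ℕ) := h3
        nlinarith [h1.2.2, h2.2.1]
      · exact h3
      · have : ((j : ℕ) : ℤ) + 1 ≤ (i : ℕ) := h3
        nlinarith [h1.2.1, h2.2.2]
    exact Fin.ext (by exact_mod_cast this)
  refine ⟨Finset.univ.image z, fun a ha a' ha' h => ?_, fun a ha => ?_, ?_⟩
  · obtain ⟨i, -, rfl⟩ := Finset.mem_image.1 ha
    obtain ⟨j, -, rfl⟩ := Finset.mem_image.1 ha'
    rw [inj i j h]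
  · obtain ⟨i, -, rfl⟩ := Finset.mem_image.1 ha
    have hi : ((i : ℕ) : ℤ) + 1 ≤ n := by exact_mod_cast i.2
    have hi0 : (0 : ℤ) ≤ (i : ℕ) := by positivity
    exact ⟨(hz i).1, by nlinarith [(hz i).2.1], by nlinarith [(hz i).2.2]⟩
  · rw [Finset.card_image_of_injective _ fun i j h => inj i j (by rw [h]), Finset.card_univ,
      Fintype.card_fin]
    linarith

theorem card_pre {b lam : ℤ} (hb : SB l b) (hlam : 0 ≤ lam) {K : ℕ} {s : List (U d)}
    (h : Pre l K lam s) : ((tr s).card : ℤ) ≤ K * (lam + b) := by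
  have h1 := lv_lt_of_pre hb hlam h.2
  exact (h.1 s (List.prefix_refl _)).trans (mul_le_mul_of_nonneg_left (by omega) (by positivity))

theorem card_stop {lam : ℤ} (hlam : 0 ≤ lam) {K n : ℕ} {s : List (U d)}
    (h : Stop (fun t => Cone l K t ∧ lv l t < lam) n s) : ((tr s).card : ℤ) ≤ K * lam + 1 := by
  classical
  rcases List.eq_nil_or_concat s with rfl | ⟨t, e, rfl⟩
  · have := card_tr_le ([] : List (U d))
    have h2 : (0 : ℤ) ≤ K * lam := by positivity
    simp only [List.length_nil] at this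
    omega
  · have h1 := h.2.1 t (by simp) (by simp)
    have h2 := h1.1 t (List.prefix_refl _)
    have h3 : (K : ℤ) * (lv l t + 1) ≤ K * lam :=
      mul_le_mul_of_nonneg_left (by have := h1.2; omega) (by positivity)
    have h4 : tr (t.concat e) ⊆ insert (disp (t.concat e)) (tr t) := by
      intro a ha
      obtain ⟨r, hr, rfl⟩ := mem_tr.1 ha
      rw [List.concat_eq_append, List.prefix_concat_iff] at hr
      rcases hr with rfl | hr
      · simp
      · exact Finset.mem_insert_of_mem (mem_tr.2 ⟨r, hr, rfl⟩)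
    have h5 := (Finset.card_le_card h4).trans (Finset.card_insert_le _ _)
    omega

end Vale.Agent.P147
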