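import Vale.Agent.P147.PFm
import Vale.Agent.P147.Env
import Vale.Agent.P147.Comb

namespace Vale.Agent.P147

open MeasureTheory Filter Finset
open scoped ENNReal

variable {d : ℕ} {l : V d} {μ : Measure (U d → ℝ)}

def Fresh_Third (t : List (U d)) : Prop := ∀ r, r <+: t → r ≠ t → disp r ≠ disp t

theorem pf_fresh_Third (k : ℕ) :
    PF (fun t : List (U d) => Fresh_Third t ∧ (tr t).card = k) := by
  intro s t hs ht h
  by_contra hne
  have h1 : tr s = tr t := Finset.eq_of_subset_of_card_le (tr_mono h) (by rw [hs.2, ht.2])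
  obtain ⟨r, hr, e⟩ := mem_tr.1 (h1 ▸ disp_mem_tr t : disp t ∈ tr s)
  refine ht.1 r (hr.trans h) ?_ e
  rintro rfl
  exact hne (h.eq_of_length (le_antisymm h.length_le hr.length_le))

theorem mass_fresh_Third [IsProbabilityMeasure μ] (h : Elliptic μ) (S : ℕ) :
    ∑' t, ind (Fresh_Third t ∧ (tr t).card ≤ S) * W μ t ≤ S := by
  calc ∑' t, ind (Fresh_Third t ∧ (tr t).card ≤ S) * W μ t
      ≤ ∑' t, ∑ k ∈ Finset.Icc 1 S, ind (Fresh_Third t ∧ (tr t).card = k) * W μ t := by
        refine ENNReal.tsum_le_tsum fun t => ?_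
        by_cases ht : Fresh_Third t ∧ (tr t).card ≤ S
        · refine le_trans ?_ (Finset.single_le_sum
            (f := fun k => ind (Fresh_Third t ∧ (tr t).card = k) * W μ t)
            (fun _ _ => zero_le) (Finset.mem_Icc.2 ⟨one_le_card_tr t, ht.2⟩))
          rw [ind_pos ht, ind_pos ⟨ht.1, rfl⟩]
        · rw [ind_neg ht, zero_mul]; exact zero_le
    _ = ∑ k ∈ Finset.Icc 1 S, mass (W μ) (fun t => Fresh_Third t ∧ (tr t).card = k) := by
        rw [Summable.tsum_finsetSum fun _ _ => ENNReal.summable]; rfl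
    _ ≤ ∑ k ∈ Finset.Icc 1 S, (1 : ℝ≥0∞) :=
        Finset.sum_le_sum fun k _ => (mass_le (cons_W h) (pf_fresh_Third k)).trans W_nil.le
    _ = S := by simp

theorem tsum_ind_eq_Third (z : V d) : ∑' y : V d, ind (y = z) = 1 := by
  rw [tsum_eq_single z fun y hy => ind_neg hy, ind_pos rfl]

theorem third [IsProbabilityMeasure μ] (h : Elliptic μ) (D : Finset (V d)) (S : ℕ) :
    ∑' y : V d, ∑' t, ind ((tr t).card ≤ S ∧ y + disp t ∈ D ∧
      ∀ r, r <+: t → r ≠ t → y + disp r ∉ D) * W μ t ≤ (D.card : ℝ≥0∞) * S := by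
  rw [ENNReal.tsum_comm]
  refine le_trans (ENNReal.tsum_le_tsum fun t => ?_)
    ((ENNReal.tsum_mul_left (a := (D.card : ℝ≥0∞))
      (f := fun t => ind (Fresh_Third t ∧ (tr t).card ≤ S) * W μ t)).le.trans
      (mul_le_mul_right (mass_fresh_Third h S) _))
  calc ∑' y : V d, ind ((tr t).card ≤ S ∧ y + disp t ∈ D ∧
        ∀ r, r <+: t → r ≠ t → y + disp r ∉ D) * W μ t
      ≤ ∑' y : V d, ∑ z ∈ D, ind (y = z - disp t) *
          (ind (Fresh_Third t ∧ (tr t).card ≤ S) * W μ t) := by
        refine ENNReal.tsum_le_tsum fun y => ?_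
        by_cases hy : (tr t).card ≤ S ∧ y + disp t ∈ D ∧ ∀ r, r <+: t → r ≠ t → y + disp r ∉ D
        · refine le_trans ?_ (Finset.single_le_sum
            (f := fun z => ind (y = z - disp t) * (ind (Fresh_Third t ∧ (tr t).card ≤ S) * W μ t))
            (fun _ _ => zero_le) hy.2.1)
          have hf : Fresh_Third t := fun r hr hne e => hy.2.2 r hr hne (e ▸ hy.2.1)
          rw [ind_pos hy, ind_pos (add_sub_cancel_right y (disp t)).symm, ind_pos ⟨hf, hy.1⟩,
            one_mul, one_mul]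
        · rw [ind_neg hy, zero_mul]; exact zero_le
    _ = ∑ z ∈ D, (ind (Fresh_Third t ∧ (tr t).card ≤ S) * W μ t) := by
        rw [Summable.tsum_finsetSum fun _ _ => ENNReal.summable]
        refine Finset.sum_congr rfl fun z _ => ?_
        rw [ENNReal.tsum_mul_right, tsum_ind_eq_Third, one_mul]
    _ = _ := by rw [Finset.sum_const, nsmul_eq_mul]

theorem phi_ne_top [IsProbabilityMeasure μ] (h : Elliptic μ) {b : ℤ} (hb : SB l b) (K L : ℕ) :
    Phi μ l K L ≠ ⊤ := by
  set S : ℕ := ((K : ℤ) * (3 * (L : ℤ) + b)).toNat with hS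
  have hc : ∀ {l' : V d}, SB l' b → ∀ s, Pre l' K (3 * (L : ℤ)) s → (tr s).card ≤ S := by
    intro l' hb' s hs
    have := card_pre hb' (by positivity) hs
    omega
  have key : Phi μ l K L ≤ (S : ℝ≥0∞) * S := by
    have e1 : Phi μ l K L = ∑' t, ∑' y, ∑' s, ind (F0 l K L y s t) * (W μ s * W μ t) := by
      unfold Phi
      rw [ENNReal.tsum_comm (f := fun t y => ∑' s, ind (F0 l K L y s t) * (W μ s * W μ t))]
      exact tsum_congr fun y => ENNReal.tsum_comm
    rw [e1]
    calc ∑' t, ∑' y, ∑' s, ind (F0 l K L y s t) * (W μ s * W μ t)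
        ≤ ∑' t, ((S : ℝ≥0∞) * S) * (ind (Cr (Cone (-l) K) (-l) (3 * (L : ℤ)) t) * W μ t) := by
          refine ENNReal.tsum_le_tsum fun t => ?_
          by_cases ht : Cr (Cone (-l) K) (-l) (3 * (L : ℤ)) t
          · rw [ind_pos ht, one_mul]
            have h1 := third h (tr t) S
            rw [← (Equiv.neg (V d)).tsum_eq] at h1
            have h2 : ((tr t).card : ℝ≥0∞) ≤ S := by
              exact_mod_cast hc hb.neg t ⟨ht.1, ht.2.2⟩
            refine le_trans ?_ (mul_le_mul_left (h1.trans (mul_le_mul_left h2 _)) (W μ t))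
            rw [← ENNReal.tsum_mul_right]
            refine ENNReal.tsum_le_tsum fun y => ?_
            rw [← ENNReal.tsum_mul_right]
            refine ENNReal.tsum_le_tsum fun s => ?_
            rw [← mul_assoc]
            refine mul_le_mul_left (mul_le_mul_left (ind_mono fun hF => ?_) _) _
            refine ⟨hc hb s hF.2.2.2.1, ?_, fun r hr hne => ?_⟩
            · simpa [neg_add_eq_sub] using hF.2.2.2.2.1
            · simpa [neg_add_eq_sub] using hF.2.2.2.2.2 r hr hne
          · refine le_of_eq_of_le ?_ zero_le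
            simp only [ENNReal.tsum_eq_zero]
            intro y s
            rw [ind_neg fun hF => ht hF.2.2.1, zero_mul]
      _ = ((S : ℝ≥0∞) * S) * mass (W μ) (Cr (Cone (-l) K) (-l) (3 * (L : ℤ))) :=
          ENNReal.tsum_mul_left
      _ ≤ ((S : ℝ≥0∞) * S) * 1 :=
          mul_le_mul_right ((mass_le (cons_W h) (pf_cr _ _ _)).trans W_nil.le) _
      _ = _ := mul_one _
  exact ne_top_of_le_ne_top (ENNReal.mul_ne_top (by simp) (by simp)) key

end Vale.Agent.P147
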