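import Vale.Agent.P147.PFm
import Vale.Agent.P147.Ind
import Vale.Agent.P147.Third

namespace Vale.Agent.P147

open MeasureTheory Filter Finset
open scoped ENNReal

variable {d : ℕ} {l : V d} {μ : Measure (U d → ℝ)}

theorem first_hit_Clump (P : List (U d) → Prop) {t : List (U d)} (h : ∃ r, r <+: t ∧ P r) :
    ∃ v, v <+: t ∧ P v ∧ ∀ r, r <+: v → r ≠ v → ¬ P r := by
  classical
  have hex : ∃ n, ∃ c : List (U d), c.length = n ∧ c <+: t ∧ P c := by
    obtain ⟨r, h1, h2⟩ := h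
    exact ⟨_, r, rfl, h1, h2⟩
  obtain ⟨c, hc, hcs, hl⟩ := Nat.find_spec hex
  refine ⟨c, hcs, hl, fun r hr hne hP => ?_⟩
  have h1 : r.length < c.length := lt_of_le_of_ne hr.length_le fun h => hne (hr.eq_of_length h)
  exact Nat.find_min hex (hc ▸ h1) ⟨r, rfl, hr.trans hcs, hP⟩

theorem amgm_Clump (Z lam : ℝ≥0∞) (h0 : lam ≠ 0) (ht : lam ≠ ⊤) :
    Z ≤ lam + lam⁻¹ * (Z * Z) := by
  rcases le_total Z lam with h | h
  · exact h.trans le_self_add
  · refine le_trans ?_ le_add_self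
    calc Z = lam⁻¹ * (lam * Z) := by
          rw [← mul_assoc, ENNReal.inv_mul_cancel h0 ht, one_mul]
      _ ≤ lam⁻¹ * (Z * Z) := by gcongr

theorem meas_Z_Clump (R : V d → List (U d) → Prop) :
    Measurable fun ω : Env d => ∑' y, ∑' t, ind (R y t) * q ω y t :=
  Measurable.tsum fun y => Measurable.tsum fun t =>
    measurable_const.fun_mul (measurable_q y t)

theorem int_Z_Clump (R : V d → List (U d) → Prop) {f : Env d → ℝ≥0∞} (hf : Measurable f) :
    ∫⁻ ω, f ω * ∑' y, ∑' t, ind (R y t) * q ω y t ∂envLaw μ =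
      ∑' y, ∑' t, ind (R y t) * ∫⁻ ω, f ω * q ω y t ∂envLaw μ := by
  have e1 : ∀ ω : Env d, f ω * ∑' y, ∑' t, ind (R y t) * q ω y t =
      ∑' y, ∑' t, ind (R y t) * (f ω * q ω y t) := by
    intro ω
    rw [← ENNReal.tsum_mul_left]
    refine tsum_congr fun y => ?_
    rw [← ENNReal.tsum_mul_left]
    refine tsum_congr fun t => ?_
    ring
  simp only [e1]
  rw [lintegral_tsum fun y => (Measurable.tsum fun t =>
    measurable_const.fun_mul (hf.fun_mul (measurable_q y t))).aemeasurable]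
  refine tsum_congr fun y => ?_
  rw [lintegral_tsum fun t => (measurable_const.fun_mul (hf.fun_mul (measurable_q y t))).aemeasurable]
  refine tsum_congr fun t => ?_
  rw [lintegral_const_mul _ (hf.fun_mul (measurable_q y t))]

theorem key_Clump [IsProbabilityMeasure μ] (h : Elliptic μ)
    (R : V d → List (U d) → Prop) (S : ℕ) (s : List (U d)) (hpf : ∀ y, PF (R y))
    (hS : ∀ y t, R y t → (tr s).card ≤ S ∧ (tr t).card ≤ S ∧
      ∃ r, r <+: t ∧ y + disp r ∈ tr s) {y : V d} {t : List (U d)} (hR : R y t) :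
    ∫⁻ ω, (q ω 0 s * q ω y t) * ∑' y', ∑' t', ind (R y' t') * q ω y' t' ∂envLaw μ ≤
      (2 * (S : ℝ≥0∞) * S) * ∫⁻ ω, q ω 0 s * q ω y t ∂envLaw μ := by
  classical
  set D : Finset (V d) := tr s ∪ (tr t).image (fun a => y + a) with hD
  have hcard : (D.card : ℝ≥0∞) ≤ 2 * S := by
    have h1 : D.card ≤ 2 * S := by
      refine (Finset.card_union_le _ _).trans ?_
      have := (hS y t hR).1
      have h2 := (hS y t hR).2.1
      have h3 : ((tr t).image (fun a => y + a)).card ≤ (tr t).card := Finset.card_image_le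
      omega
    exact_mod_cast h1
  set G : V d → List (U d) → Prop := fun y' v => (tr v).card ≤ S ∧ y' + disp v ∈ D ∧
      ∀ r, r <+: v → r ≠ v → y' + disp r ∉ D with hG
  have hm : Measurable fun ω : Env d => q ω 0 s * q ω y t :=
    (measurable_q 0 s).fun_mul (measurable_q y t)
  calc ∫⁻ ω, (q ω 0 s * q ω y t) * ∑' y', ∑' t', ind (R y' t') * q ω y' t' ∂envLaw μ
      ≤ ∫⁻ ω, (q ω 0 s * q ω y t) * ∑' y', ∑' t', ind (G y' t') * q ω y' t' ∂envLaw μ := by
        refine lintegral_mono_ae ?_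
        filter_upwards [ae_stoch h] with ω hω
        refine mul_le_mul_right (ENNReal.tsum_le_tsum fun y' => ?_) _
        refine cover_mass (cons_q hω y') (hpf y') fun t' ht' => ?_
        obtain ⟨-, h2, r, hr, hr'⟩ := hS y' t' ht'
        obtain ⟨v, hv, hv1, hv2⟩ := first_hit_Clump (fun r => y' + disp r ∈ D)
          ⟨r, hr, Finset.mem_union_left _ hr'⟩
        exact ⟨v, ⟨(Finset.card_le_card (tr_mono hv)).trans h2, hv1, hv2⟩, hv⟩
    _ = ∑' y', ∑' t', ind (G y' t') * ∫⁻ ω, (q ω 0 s * q ω y t) * q ω y' t' ∂envLaw μ :=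
        int_Z_Clump G hm
    _ = ∑' y', ∑' t', (∫⁻ ω, q ω 0 s * q ω y t ∂envLaw μ) * (ind (G y' t') * W μ t') := by
        refine tsum_congr fun y' => tsum_congr fun v => ?_
        by_cases hv : G y' v
        · rw [W_three 0 y y' s t v]
          · ring
          · intro r r' hr _ hr' hne he
            refine hv.2.2 r' hr' hne ?_
            rw [← he, zero_add]
            exact Finset.mem_union_left _ (mem_tr.2 ⟨r, hr, rfl⟩)
          · intro r r' hr _ hr' hne he
            refine hv.2.2 r' hr' hne ?_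
            rw [← he]
            exact Finset.mem_union_right _
              (Finset.mem_image.2 ⟨disp r, mem_tr.2 ⟨r, hr, rfl⟩, rfl⟩)
        · rw [ind_neg hv]; simp
    _ = (∫⁻ ω, q ω 0 s * q ω y t ∂envLaw μ) * ∑' y', ∑' t', ind (G y' t') * W μ t' := by
        rw [← ENNReal.tsum_mul_left]
        refine tsum_congr fun y' => ?_
        rw [← ENNReal.tsum_mul_left]
    _ ≤ (∫⁻ ω, q ω 0 s * q ω y t ∂envLaw μ) * (2 * (S : ℝ≥0∞) * S) := by
        refine mul_le_mul_right ((third h D S).trans ?_) _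
        gcongr
    _ = _ := mul_comm _ _
theorem clump [IsProbabilityMeasure μ] (h : Elliptic μ)
    (R : List (U d) → V d → List (U d) → Prop) (F : List (U d) → Prop) (S : ℕ)
    (bad : Env d → List (U d) → Prop) (hbad : ∀ s, MeasurableSet {ω | bad ω s})
    (hF : ∀ s y t, R s y t → F s) (hpf : ∀ s y, PF (R s y))
    (hS : ∀ s y t, R s y t → (tr s).card ≤ S ∧ (tr t).card ≤ S ∧
      ∃ r, r <+: t ∧ y + disp r ∈ tr s)
    (lam : ℝ≥0∞) (h0 : lam ≠ 0) (ht : lam ≠ ⊤) :
    ∑' s, ∑' y, ∑' t, ind (R s y t) *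
        ∫⁻ ω, q ω 0 s * q ω y t * ind (bad ω s) ∂envLaw μ ≤
      lam * ∫⁻ ω, mass (q ω 0) (fun s => F s ∧ bad ω s) ∂envLaw μ +
        lam⁻¹ * (2 * (S : ℝ≥0∞) * S) *
          ∑' s, ∑' y, ∑' t, ind (R s y t) * ∫⁻ ω, q ω 0 s * q ω y t ∂envLaw μ := by
  set Z : List (U d) → Env d → ℝ≥0∞ := fun s ω => ∑' y, ∑' t, ind (R s y t) * q ω y t with hZ
  have hZm : ∀ s, Measurable (Z s) := fun s => meas_Z_Clump (R s)
  have hbm : ∀ s, Measurable fun ω => ind (bad ω s) := fun s => measurable_ind (hbad s)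
  have hfm : ∀ s, Measurable fun ω => ind (F s ∧ bad ω s) := by
    intro s
    simp only [ind_and]
    exact measurable_const.fun_mul (hbm s)
  have h1 : ∀ s, ∑' y, ∑' t, ind (R s y t) *
      ∫⁻ ω, q ω 0 s * q ω y t * ind (bad ω s) ∂envLaw μ =
      ∫⁻ ω, (q ω 0 s * ind (bad ω s)) * Z s ω ∂envLaw μ := by
    intro s
    rw [hZ]
    beta_reduce
    rw [int_Z_Clump (R s) ((measurable_q 0 s).fun_mul (hbm s))]
    refine tsum_congr fun y => tsum_congr fun t => ?_
    congr 1
    refine lintegral_congr fun ω => ?_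
    ring
  have h2 : ∀ s ω, (q ω 0 s * ind (bad ω s)) * Z s ω ≤
      lam * (ind (F s ∧ bad ω s) * q ω 0 s) + lam⁻¹ * ((q ω 0 s * Z s ω) * Z s ω) := by
    intro s ω
    by_cases hb : bad ω s
    · by_cases hf : F s
      · rw [ind_pos hb, ind_pos ⟨hf, hb⟩]
        calc q ω 0 s * 1 * Z s ω = q ω 0 s * Z s ω := by rw [mul_one]
          _ ≤ q ω 0 s * (lam + lam⁻¹ * (Z s ω * Z s ω)) :=
            mul_le_mul_right (amgm_Clump _ _ h0 ht) _
          _ = _ := by ring
      · have hz : Z s ω = 0 := by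
          rw [hZ]
          beta_reduce
          refine ENNReal.tsum_eq_zero.2 fun y => ENNReal.tsum_eq_zero.2 fun t => ?_
          rw [ind_neg fun hr => hf (hF s y t hr), zero_mul]
        rw [hz, mul_zero]
        exact zero_le
    · rw [ind_neg hb, mul_zero, zero_mul]
      exact zero_le
  have h3 : ∀ s, ∫⁻ ω, (q ω 0 s * Z s ω) * Z s ω ∂envLaw μ ≤ (2 * (S : ℝ≥0∞) * S) *
      ∑' y, ∑' t, ind (R s y t) * ∫⁻ ω, q ω 0 s * q ω y t ∂envLaw μ := by
    intro s
    have e := int_Z_Clump (μ := μ) (R s) ((measurable_q 0 s).fun_mul (hZm s))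
    refine e.le.trans ?_
    rw [← ENNReal.tsum_mul_left]
    refine ENNReal.tsum_le_tsum fun y => ?_
    rw [← ENNReal.tsum_mul_left]
    refine ENNReal.tsum_le_tsum fun t => ?_
    by_cases hr : R s y t
    · rw [ind_pos hr, one_mul, one_mul]
      refine le_trans (le_of_eq ?_) (key_Clump h (R s) S s (hpf s) (hS s) hr)
      refine lintegral_congr fun ω => ?_
      rw [hZ]
      ring
    · rw [ind_neg hr]; simp
  have h4 : ∫⁻ ω, mass (q ω 0) (fun s => F s ∧ bad ω s) ∂envLaw μ =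
      ∑' s, ∫⁻ ω, ind (F s ∧ bad ω s) * q ω 0 s ∂envLaw μ := by
    unfold mass
    exact lintegral_tsum fun s => ((hfm s).fun_mul (measurable_q 0 s)).aemeasurable
  rw [h4, ← ENNReal.tsum_mul_left, ← ENNReal.tsum_mul_left, ← ENNReal.tsum_add]
  refine ENNReal.tsum_le_tsum fun s => ?_
  rw [h1]
  refine (lintegral_mono (h2 s)).trans ?_
  rw [lintegral_add_left (((hfm s).fun_mul (measurable_q 0 s)).const_mul _),
    lintegral_const_mul _ ((hfm s).fun_mul (measurable_q 0 s)),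
    lintegral_const_mul _ (((measurable_q 0 s).fun_mul (hZm s)).fun_mul (hZm s)), mul_assoc lam⁻¹]
  gcongr
  exact h3 s

end Vale.Agent.P147
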