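import Vale.Agent.P147.Def2

namespace Vale.Agent.P147

open MeasureTheory Filter Finset
open scoped ENNReal

variable {d : ℕ} {l : V d} {μ : Measure (U d → ℝ)}

theorem disp_replicate_PatE (n : ℕ) (e : U d) : disp (List.replicate n e) = (n : ℤ) • vec e := by
  induction n with
  | zero => simp
  | succ n ih => rw [List.replicate_succ, disp_cons, ih]; push_cast; rw [add_smul, one_smul, add_comm]

theorem exists_disp (u : V d) : ∃ s : List (U d), disp s = u := by
  have h1 : ∀ (i : Fin d) (n : ℤ), ∃ s : List (U d), disp s = Pi.single i n := by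
    intro i n
    rcases Int.eq_nat_or_neg n with ⟨k, rfl | rfl⟩
    · refine ⟨List.replicate k (i, true), ?_⟩
      rw [disp_replicate_PatE, vec, ← Pi.single_smul]
      simp
    · refine ⟨List.replicate k (i, false), ?_⟩
      rw [disp_replicate_PatE, vec, ← Pi.single_smul]
      simp
  have h2 : ∀ F : Finset (Fin d), ∃ s : List (U d), disp s = ∑ i ∈ F, Pi.single i (u i) := by
    intro F
    induction F using Finset.induction_on with
    | empty => exact ⟨[], by simp⟩
    | insert i F hi ih =>
      obtain ⟨s, hs⟩ := ih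
      obtain ⟨t, ht⟩ := h1 i (u i)
      exact ⟨t ++ s, by rw [disp_append, hs, ht, Finset.sum_insert hi]⟩
  obtain ⟨s, hs⟩ := h2 Finset.univ
  exact ⟨s, by rw [hs, Finset.univ_sum_single]⟩

theorem dot_single_PatE (l : V d) (i : Fin d) (n : ℤ) : dot l (Pi.single i n) = l i * n := by
  unfold dot
  rw [Finset.sum_eq_single i]
  · simp
  · intro j _ hj
    simp [hj]
  · simp

theorem lv_bound_PatE {b : ℤ} (hb : SB l b) (r : List (U d)) :
    lv l r ≤ r.length * b ∧ -(r.length * b) ≤ lv l r := by
  induction r with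
  | nil => simp
  | cons e r ih =>
    have h1 : lv l (e :: r) = lv l [e] + lv l r := lv_append l [e] r
    have h2 := hb.2 e
    rw [h1, List.length_cons]
    push_cast
    constructor <;> nlinarith [ih.1, ih.2, h2.1, h2.2]

theorem lv_rep_PatE {b : ℤ} {a : U d} (ha : lv l [a] = b) {N : ℕ} {t : List (U d)}
    (ht : t <+: List.replicate N a) : lv l t = t.length * b := by
  have h1 : t = List.replicate t.length a :=
    List.eq_replicate_iff.2 ⟨rfl, fun c hc => List.eq_of_mem_replicate (ht.subset hc)⟩
  have h2 : dot l (vec a) = b := by simpa [lv] using ha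
  conv_lhs => rw [h1]
  rw [lv, disp_replicate_PatE, dot_smul, h2]

theorem block_PatE {b : ℤ} (hb : SB l b) {a : U d} (ha : lv l [a] = b) {N : ℕ} {w : List (U d)}
    (hw : w.length < N) (h0 : lv l w = 0) {t : List (U d)}
    (ht : t <+: List.replicate N a ++ w ++ List.replicate N a) :
    (t ≠ [] → b ≤ lv l t) ∧
      (t ≠ List.replicate N a ++ w ++ List.replicate N a → lv l t < 2 * N * b) := by
  have hb1 := hb.1
  have hN : lv l (List.replicate N a) = N * b := by
    rw [lv_rep_PatE ha (List.prefix_refl _), List.length_replicate]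
  have hN1 : (1 : ℤ) ≤ N := by exact_mod_cast (by omega : 1 ≤ N)
  rcases pre_append ht with h | ⟨r, h1, h2, rfl⟩
  · rcases pre_append h with h | ⟨r, h1, -, rfl⟩
    · have h3 : (t.length : ℤ) ≤ N := by exact_mod_cast (by simpa using h.length_le)
      rw [lv_rep_PatE ha h]
      refine ⟨fun h4 => ?_, fun _ => by nlinarith⟩
      have h5 : (1 : ℤ) ≤ t.length := by exact_mod_cast List.length_pos_iff.2 h4
      nlinarith
    · have h3 : (r.length : ℤ) + 1 ≤ N := by
        have := h1.length_le
        exact_mod_cast (by omega : r.length + 1 ≤ N)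
      have h4 := lv_bound_PatE hb r
      rw [lv_append, hN]
      exact ⟨fun _ => by nlinarith [h4.2], fun _ => by nlinarith [h4.1]⟩
  · rw [lv_append, lv_append, hN, h0, lv_rep_PatE ha h1]
    have h5 : (0 : ℤ) ≤ r.length := by positivity
    refine ⟨fun _ => by nlinarith, fun h4 => ?_⟩
    have h6 : r.length < N := by
      have h7 : r.length ≤ N := by simpa using h1.length_le
      refine lt_of_le_of_ne h7 fun h8 => h4 ?_
      rw [h1.eq_of_length (by simpa using h8)]
    have h7 : (r.length : ℤ) + 1 ≤ N := by exact_mod_cast h6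
    nlinarith

theorem exists_pat (hd : 3 ≤ d) (hl : l ≠ 0) : Nonempty (Pat l) := by
  classical
  obtain ⟨i0, -, hi0⟩ := Finset.exists_max_image Finset.univ (fun i : Fin d => |l i|)
    ⟨⟨0, by omega⟩, Finset.mem_univ _⟩
  have hl0 : l i0 ≠ 0 := by
    intro h
    refine hl (funext fun i => ?_)
    have := hi0 i (Finset.mem_univ _)
    rw [h, abs_zero] at this
    exact abs_nonpos_iff.1 this
  have hlv : ∀ e : U d, lv l [e] = l e.1 * (if e.2 then 1 else -1) := by
    intro e
    simp [lv, vec, dot_single_PatE]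
  have hb : SB l |l i0| := by
    refine ⟨Int.one_le_abs hl0, fun e => ?_⟩
    have h1 := hi0 e.1 (Finset.mem_univ _)
    have h2 := le_abs_self (l e.1)
    have h3 := neg_abs_le (l e.1)
    rw [hlv]
    cases e.2 <;> simp <;> constructor <;> linarith
  obtain ⟨a, ha⟩ : ∃ a : U d, lv l [a] = |l i0| := by
    rcases le_total 0 (l i0) with h | h
    · exact ⟨(i0, true), by rw [hlv, abs_of_nonneg h]; simp⟩
    · exact ⟨(i0, false), by rw [hlv, abs_of_nonpos h]; simp⟩
  obtain ⟨j1, j2, hj1, hj2, hj⟩ : ∃ j1 j2 : Fin d, j1 ≠ i0 ∧ j2 ≠ i0 ∧ j1 ≠ j2 := by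
    have h1 : 1 < (Finset.univ.erase i0).card := by
      rw [Finset.card_erase_of_mem (Finset.mem_univ _), Finset.card_univ, Fintype.card_fin]
      omega
    obtain ⟨j1, h2, j2, h3, h4⟩ := Finset.one_lt_card.1 h1
    exact ⟨j1, j2, Finset.ne_of_mem_erase h2, Finset.ne_of_mem_erase h3, h4⟩
  set b := |l i0| with hbdef
  let u : Fin d → V d := fun j => Pi.single j (l i0) - Pi.single i0 (l j)
  have hu : ∀ j, dot l (u j) = 0 := by
    intro j
    simp only [u, dot_sub, dot_single_PatE]
    ring
  obtain ⟨w1, hw1⟩ := exists_disp (u j1)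
  obtain ⟨w2, hw2⟩ := exists_disp (u j2)
  set N : ℕ := w1.length + w2.length + 1 with hNdef
  have hb1 := hb.1
  have hN1 : (1 : ℤ) ≤ N := by exact_mod_cast (by omega : 1 ≤ N)
  have hN : lv l (List.replicate N a) = N * b := by
    rw [lv_rep_PatE ha (List.prefix_refl _), List.length_replicate]
  have hda : dot l (vec a) = b := by simpa [lv] using ha
  let B : List (U d) → Bool → List (U d) := fun w i =>
    List.replicate N a ++ (if i then w else []) ++ List.replicate N a
  have hB : ∀ w : List (U d), w.length < N → lv l w = 0 → ∀ i : Bool,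
      lv l (B w i) = 2 * N * b ∧ ∀ t, t <+: B w i →
        (t ≠ [] → b ≤ lv l t) ∧ (t ≠ B w i → lv l t < 2 * N * b) := by
    intro w hw h0 i
    have h1 : (if i then w else []).length < N := by
      cases i
      · simp; omega
      · simpa using hw
    have h2 : lv l (if i then w else []) = 0 := by
      cases i
      · simp
      · simpa using h0
    refine ⟨?_, fun t ht => block_PatE hb ha h1 h2 ht⟩
    simp only [B]
    rw [lv_append, lv_append, hN, h2]
    ring
  have hB1 := hB w1 (by omega) (by rw [lv, hw1, hu])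
  have hB2 := hB w2 (by omega) (by rw [lv, hw2, hu])
  refine ⟨{ b := b, H := 4 * N * b, M := 4 * N * b + b, P1 := B w1, P2 := B w2,
            h0 := (4 * N : ℤ) • vec a, u1 := u j1, u2 := u j2, sb := hb, hM := le_rfl,
            hdisp := ?_, hu1 := hu j1, hu2 := hu j2, hind := ?_, hH := ?_, hbH := ?_,
            low := ?_, up := ?_, rec1 := ?_, nn2 := ?_ }⟩
  · intro i j
    simp only [B, disp_append, disp_replicate_PatE]
    cases i <;> cases j <;>
      simp only [hw1, hw2, if_true, if_false, Bool.false_eq_true, disp_nil] <;> module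
  · intro m n h
    have h1 := congrFun h j1
    have h2 := congrFun h j2
    simp [u, hj1, hj2, hj, hj.symm, hl0] at h1 h2
    exact ⟨h1, h2⟩
  · rw [dot_smul, hda]
  · nlinarith
  · intro i j t ht h0
    rcases pre_append ht with h | ⟨r, h1, h2, rfl⟩
    · exact ((hB1 i).2 t h).1 h0
    · have := ((hB2 j).2 r h1).1 h2
      rw [lv_append, (hB1 i).1]
      nlinarith
  · intro i j t ht h0
    rcases pre_append ht with h | ⟨r, h1, h2, rfl⟩
    · by_cases h3 : t = B w1 i
      · rw [h3, (hB1 i).1]
        nlinarith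
      · have := ((hB1 i).2 t h).2 h3
        nlinarith
    · have := ((hB2 j).2 r h1).2 fun h3 => h0 (by rw [h3])
      rw [lv_append, (hB1 i).1]
      linarith
  · intro i t ht h0
    rw [(hB1 i).1]
    exact ((hB1 i).2 t ht).2 h0
  · intro j t ht
    by_cases h0 : t = []
    · simp [h0]
    · have := ((hB2 j).2 t ht).1 h0
      omega

end Vale.Agent.P147
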