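import Vale.Agent.P147.UpY

namespace Vale.Agent.P147

open MeasureTheory Filter Finset
open scoped ENNReal

variable {d : ℕ} {l : V d} {μ : Measure (U d → ℝ)}

theorem R_Up [IsProbabilityMeasure μ] (h : Elliptic μ) (l : V d) (K : ℕ) {l1 l2 l3 : ℤ}
    (h1 : l1 ≤ l2) (h2 : 2 * l3 + 1 ≤ l2) :
    ∃ R : ℝ≥0∞, (∀ F, PF F → ∫⁻ ω, mass (q ω 0) (fun s => F s ∧ Bad l K l1 l3 ω s) ∂envLaw μ ≤ R) ∧
      R + 2 * AA μ l K l2 ≤ 2 * AA μ l K l1 := by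
  have hA1 : AA μ l K l2 ≤ 1 := (mass_le (cons_W h) (pf_cr _ _ _)).trans W_nil.le
  have ht : 2 * AA μ l K l2 ≠ ⊤ :=
    ENNReal.mul_ne_top (by simp) (ne_top_of_le_ne_top ENNReal.one_ne_top hA1)
  refine ⟨2 * AA μ l K l1 - 2 * AA μ l K l2, fun F hF => ?_, ?_⟩
  · exact ENNReal.le_sub_of_add_le_right ht (bad_le h l K hF h1 h2)
  · exact (tsub_add_cancel_of_le (mul_le_mul_right
      (mass_cr_anti (cons_W h) (her_cone _ _) h1) _)).le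

theorem phi_upper [IsProbabilityMeasure μ] (h : Elliptic μ) {b : ℤ} (hb : SB l b) (K L S : ℕ)
    (hS : (K : ℤ) * (3 * L + b) + 1 ≤ S) :
    Phi μ l K L + 32 * (S : ℝ≥0∞) ^ 2 *
        (AA μ l K (6 * L + 2 * b + 1) + AA μ (-l) K (6 * L + 2 * b + 1)) ≤
      32 * (S : ℝ≥0∞) ^ 2 * (AA μ l K (L - b) + AA μ (-l) K (L - b)) := by
  have hb1 := hb.1
  have hS0 : S ≠ 0 := by
    have : (0 : ℤ) ≤ (K : ℤ) * (3 * L + b) := by positivity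
    omega
  have hSE : (S : ℝ≥0∞) ≠ 0 := by exact_mod_cast hS0
  obtain ⟨R1, hR1, hR1'⟩ := R_Up h l K (l1 := L - b) (l2 := 6 * L + 2 * b + 1) (l3 := 3 * L + b)
    (by omega) (by omega)
  obtain ⟨R2, hR2, hR2'⟩ := R_Up h (-l) K (l1 := L - b) (l2 := 6 * L + 2 * b + 1) (l3 := 3 * L + b)
    (by omega) (by omega)
  have h0 : (8 * (S : ℝ≥0∞) ^ 2) ≠ 0 := mul_ne_zero (by simp) (pow_ne_zero _ hSE)
  have ht : (8 * (S : ℝ≥0∞) ^ 2) ≠ ⊤ := ENNReal.mul_ne_top (by simp) (by simp)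
  have hX := upX h hb K L S hS R1 hR1 _ h0 ht
  have hY := upY h hb K L S hS R2 hR2 _ h0 ht
  have hsplit : ∀ (y : V d) (s t : List (U d)), ∫⁻ ω, q ω 0 s * q ω y t ∂envLaw μ ≤
      (∫⁻ ω, q ω 0 s * q ω y t * ind (hh l (3 * L + b + 1) ω (disp s) ≤ 1 / 2) ∂envLaw μ) +
      ∫⁻ ω, q ω 0 s * q ω y t * ind (hh (-l) (3 * L + b + 1) ω (disp s) ≤ 1 / 2) ∂envLaw μ := by
    intro y s t
    rw [← lintegral_add_left
      (f := fun ω => q ω 0 s * q ω y t * ind (hh l (3 * L + b + 1) ω (disp s) ≤ 1 / 2))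
      (((measurable_q _ _).mul (measurable_q _ _)).mul
      (measurable_ind (measurableSet_le (measurable_hh _ _ _) measurable_const)))]
    refine lintegral_mono_ae ((ae_stoch h).mono fun ω hω => ?_)
    rcases hh_half hω l (lam := 3 * L + b + 1) (by omega) (disp s) with h1 | h1
    · simp only [ind_pos h1, mul_one]; exact le_self_add
    · simp only [ind_pos h1, mul_one]; exact le_add_self
  have hΦ : Phi μ l K L ≤ (8 * (S : ℝ≥0∞) ^ 2 * R1 +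
      (8 * (S : ℝ≥0∞) ^ 2)⁻¹ * (2 * (S : ℝ≥0∞) * S) * Phi μ l K L) + (8 * (S : ℝ≥0∞) ^ 2 * R2 +
      (8 * (S : ℝ≥0∞) ^ 2)⁻¹ * (2 * (S : ℝ≥0∞) * S) * Phi μ l K L) := by
    refine le_trans ?_ (add_le_add hX hY)
    rw [phi_eq]
    simp only [← ENNReal.tsum_add, ← mul_add]
    exact ENNReal.tsum_le_tsum fun y => ENNReal.tsum_le_tsum fun s => ENNReal.tsum_le_tsum fun t =>
      mul_le_mul_right (hsplit y s t) _
  have hq : 4 * ((8 * (S : ℝ≥0∞) ^ 2)⁻¹ * (2 * (S : ℝ≥0∞) * S)) = 1 := by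
    rw [← ENNReal.inv_mul_cancel h0 ht]; ring
  have hΦt := phi_ne_top h hb K L
  have h2 : Phi μ l K L + Phi μ l K L ≤ 16 * (S : ℝ≥0∞) ^ 2 * (R1 + R2) + Phi μ l K L := by
    refine (add_le_add hΦ hΦ).trans (le_of_eq ?_)
    calc _ = 16 * (S : ℝ≥0∞) ^ 2 * (R1 + R2) +
          4 * ((8 * (S : ℝ≥0∞) ^ 2)⁻¹ * (2 * (S : ℝ≥0∞) * S)) * Phi μ l K L := by ring
      _ = _ := by rw [hq, one_mul]
  have h3 : Phi μ l K L ≤ 16 * (S : ℝ≥0∞) ^ 2 * (R1 + R2) :=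
    (ENNReal.add_le_add_iff_right hΦt).1 h2
  calc _ ≤ 16 * (S : ℝ≥0∞) ^ 2 * (R1 + R2) + 32 * (S : ℝ≥0∞) ^ 2 *
        (AA μ l K (6 * L + 2 * b + 1) + AA μ (-l) K (6 * L + 2 * b + 1)) := add_le_add h3 le_rfl
    _ = 16 * (S : ℝ≥0∞) ^ 2 * ((R1 + 2 * AA μ l K (6 * L + 2 * b + 1)) +
        (R2 + 2 * AA μ (-l) K (6 * L + 2 * b + 1))) := by ring
    _ ≤ 16 * (S : ℝ≥0∞) ^ 2 * (2 * AA μ l K (L - b) + 2 * AA μ (-l) K (L - b)) :=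
        mul_le_mul_right (add_le_add hR1' hR2') _
    _ = _ := by ring

end Vale.Agent.P147
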