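import Vale.Agent.P147.LowB
import Vale.Agent.P147.Up
import Vale.Agent.P147.PatE

namespace Vale.Agent.P147

open MeasureTheory Filter Finset
open scoped ENNReal

variable {d : ℕ} {l : V d} {μ : Measure (U d → ℝ)}

theorem core [IsProbabilityMeasure μ] (hd : 3 ≤ d) (h : Elliptic μ) (l : V d) (K : ℕ) {a : ℝ≥0∞}
    (ha0 : a ≠ 0) (ha : ∀ lam, a ≤ AA μ l K lam) (ha' : ∀ lam, a ≤ AA μ (-l) K lam) : False := by
  have hl : l ≠ 0 := by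
    rintro rfl
    refine ha0 (le_antisymm ((ha 1).trans (le_of_eq ?_)) zero_le)
    unfold AA mass
    rw [ENNReal.tsum_eq_zero]
    intro s
    rw [ind_neg, zero_mul]
    intro hs
    have := hs.2.1
    simp [lv, dot] at this
  obtain ⟨p⟩ := exists_pat hd hl
  obtain ⟨K', c, hc, j0, hj⟩ := phi_lower h p K ha0 ha ha'
  have hb1 := p.sb.1
  obtain ⟨bn, hbn⟩ : ∃ bn : ℕ, (bn : ℤ) = p.b := ⟨p.b.toNat, by omega⟩
  have hA1 : ∀ (l' : V d) (lam : ℤ), AA μ l' K' lam ≤ 1 := fun l' lam =>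
    (mass_le (cons_W h) (pf_cr _ _ _)).trans W_nil.le
  set f : ℕ → ℝ≥0∞ := fun j => AA μ l K' (((16 ^ j : ℕ) : ℤ) - p.b) +
    AA μ (-l) K' (((16 ^ j : ℕ) : ℤ) - p.b) with hf
  set E : ℝ≥0∞ := 32 * (4 * (K' : ℝ≥0∞) + 1) ^ 2 with hE
  have hE0 : E ≠ 0 := mul_ne_zero (by simp) (pow_ne_zero _ (by simp))
  have hEt : E ≠ ⊤ := ENNReal.mul_ne_top (by simp)
    (ENNReal.pow_ne_top (ENNReal.add_ne_top.2 ⟨ENNReal.mul_ne_top (by simp) (by simp), by simp⟩))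
  refine harm_false f (c / E) (ENNReal.div_ne_zero.2 ⟨hc, hEt⟩) (max j0 bn) (fun j => ?_)
    (fun j hjj => ?_)
  · exact ENNReal.add_ne_top.2 ⟨ne_top_of_le_ne_top ENNReal.one_ne_top (hA1 _ _),
      ne_top_of_le_ne_top ENNReal.one_ne_top (hA1 _ _)⟩
  set L : ℕ := 16 ^ j with hL
  have hjL : j ≤ L := (Nat.lt_pow_self (by norm_num)).le
  have hLb : bn ≤ L := (le_max_right _ _).trans (hjj.trans hjL)
  have hL1 : 1 ≤ L := Nat.one_le_pow _ _ (by norm_num)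
  have hL16 : 16 ^ (j + 1) = 16 * L := by rw [pow_succ, mul_comm]
  have hS : (K' : ℤ) * (3 * L + p.b) + 1 ≤ (((4 * K' + 1) * L : ℕ) : ℤ) := by
    have h3 : (K' : ℤ) * (3 * L + p.b) ≤ K' * (4 * L) :=
      mul_le_mul_of_nonneg_left (by omega) (by positivity)
    have h4 : (1 : ℤ) ≤ L := by exact_mod_cast hL1
    push_cast; linarith
  have hup := phi_upper h p.sb K' L ((4 * K' + 1) * L) hS
  have hlo := hj j ((le_max_left _ _).trans hjj)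
  have hmono : f (j + 1) ≤ AA μ l K' (6 * L + 2 * p.b + 1) + AA μ (-l) K' (6 * L + 2 * p.b + 1) := by
    have h5 : 6 * (L : ℤ) + 2 * p.b + 1 ≤ ((16 ^ (j + 1) : ℕ) : ℤ) - p.b := by
      rw [hL16]; push_cast; omega
    exact add_le_add (mass_cr_anti (cons_W h) (her_cone _ _) h5)
      (mass_cr_anti (cons_W h) (her_cone _ _) h5)
  have hS2 : 32 * ((((4 * K' + 1) * L : ℕ) : ℝ≥0∞)) ^ 2 = E * (L : ℝ≥0∞) ^ 2 := by
    rw [hE]; push_cast; ring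
  rw [hS2] at hup
  have hQ0 : E * (L : ℝ≥0∞) ^ 2 ≠ 0 := mul_ne_zero hE0 (pow_ne_zero _ (by simp; omega))
  have hQt : E * (L : ℝ≥0∞) ^ 2 ≠ ⊤ := ENNReal.mul_ne_top hEt (by simp)
  have hn0 : ((j : ℝ≥0∞) + 1) ≠ 0 := by simp
  have hnt : ((j : ℝ≥0∞) + 1) ≠ ⊤ := by simp
  have h6 : E * (L : ℝ≥0∞) ^ 2 * (c / E / ((j : ℝ≥0∞) + 1)) ≤ Phi μ l K' L := by
    have e1 : E * (L : ℝ≥0∞) ^ 2 * (c / E / ((j : ℝ≥0∞) + 1)) =
        ((j : ℝ≥0∞) + 1)⁻¹ * (c * (L : ℝ≥0∞) ^ 2) * (E * E⁻¹) := by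
      simp only [div_eq_mul_inv]; ring
    rw [e1, ENNReal.mul_inv_cancel hE0 hEt, mul_one]
    calc _ ≤ ((j : ℝ≥0∞) + 1)⁻¹ * (((j : ℝ≥0∞) + 1) * Phi μ l K' L) := mul_le_mul_right hlo _
      _ = _ := by rw [← mul_assoc, ENNReal.inv_mul_cancel hn0 hnt, one_mul]
  rw [← ENNReal.mul_le_mul_iff_right hQ0 hQt, mul_add]
  exact (add_le_add h6 (mul_le_mul_right hmono _)).trans hup

end Vale.Agent.P147
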