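import Vale.Agent.P147.PFm
import Vale.Agent.P147.Env

namespace Vale.Agent.P147

open MeasureTheory Filter Finset
open scoped ENNReal

variable {d : ℕ} {l : V d} {μ : Measure (U d → ℝ)}

/-- the cylinder of a word -/
def cyl (w : List (U d)) : Set (ℕ → V d) := {X | ∀ i ≤ w.length, X i = disp (w.take i)}

/-- the first `n` steps of a step sequence as a word -/
def wd (s : ℕ → U d) (n : ℕ) : List (U d) := List.ofFn fun i : Fin n => s i

theorem wd_succ_Cyl (s : ℕ → U d) (n : ℕ) : wd s (n + 1) = wd s n ++ [s n] := by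
  unfold wd
  rw [List.ofFn_succ']
  simp

theorem pos_succ_Cyl (s : ℕ → U d) (n : ℕ) : pos s (n + 1) = pos s n + vec (s n) := by
  simp [pos, Finset.sum_range_succ]

theorem cyl_step_Cyl {X : ℕ → V d} {w : List (U d)} (h : X ∈ cyl w) {k : ℕ} (hk : k < w.length) :
    X (k + 1) = X k + vec w[k] := by
  rw [h (k + 1) hk, h k hk.le, List.take_succ_eq_append_getElem hk, disp_append]
  simp

theorem length_wd (s : ℕ → U d) (n : ℕ) : (wd s n).length = n := by
  simp [wd]

theorem take_wd (s : ℕ → U d) {i n : ℕ} (h : i ≤ n) : (wd s n).take i = wd s i := by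
  refine List.ext_getElem (by simp [wd, h]) fun k h1 h2 => ?_
  simp [wd]

theorem disp_wd (s : ℕ → U d) (n : ℕ) : disp (wd s n) = pos s n := by
  induction n with
  | zero => simp [wd, pos]
  | succ n ih => rw [wd_succ_Cyl, disp_append, ih, pos_succ_Cyl]; simp

theorem wd_add (s : ℕ → U d) (t n : ℕ) :
    wd s (t + n) = wd s t ++ wd (fun i => s (t + i)) n := by
  induction n with
  | zero => simp [wd]
  | succ n ih => rw [← add_assoc, wd_succ_Cyl, wd_succ_Cyl, ih, List.append_assoc]

theorem tr_wd (s : ℕ → U d) (n : ℕ) : tr (wd s n) = (range (n + 1)).image (pos s) := by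
  ext a
  rw [mem_tr, Finset.mem_image]
  constructor
  · rintro ⟨t, ht, rfl⟩
    have h1 : t.length ≤ n := by simpa [length_wd] using ht.length_le
    refine ⟨t.length, Finset.mem_range.2 (by omega), ?_⟩
    rw [← disp_wd, ← take_wd s h1, ← List.prefix_iff_eq_take.1 ht]
  · rintro ⟨i, hi, rfl⟩
    have h1 : i ≤ n := by have := Finset.mem_range.1 hi; omega
    exact ⟨wd s i, take_wd s h1 ▸ List.take_prefix _ _, disp_wd s i⟩

theorem pos_mem_cyl (s : ℕ → U d) (n : ℕ) : pos s ∈ cyl (wd s n) := by
  intro i hi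
  rw [length_wd] at hi
  rw [take_wd s hi, disp_wd]

theorem vec_injective : Function.Injective (vec : U d → V d) := by
  rintro ⟨i, b⟩ ⟨j, c⟩ h
  have h1 := congrFun h i
  by_cases hij : i = j
  · subst hij
    cases b <;> cases c <;> simp [vec] at h1 ⊢
  · cases b <;> simp [vec, hij] at h1

theorem eq_wd_of_mem_cyl {s : ℕ → U d} {w : List (U d)} (h : pos s ∈ cyl w) :
    w = wd s w.length := by
  refine List.ext_getElem (by simp [wd]) fun k h1 h2 => ?_
  have h3 := cyl_step_Cyl h h1
  rw [pos_succ_Cyl, add_right_inj] at h3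
  simp only [wd, List.getElem_ofFn]
  exact (vec_injective h3).symm

theorem measurableSet_cyl (w : List (U d)) : MeasurableSet (cyl w) := by
  have h : cyl w = ⋂ i : ℕ, ⋂ _ : i ≤ w.length, (fun X : ℕ → V d => X i) ⁻¹' {disp (w.take i)} := by
    ext X
    simp [cyl]
  rw [h]
  exact MeasurableSet.iInter fun i => MeasurableSet.iInter fun _ =>
    measurable_pi_apply i (measurableSet_singleton _)

theorem prod_eq_q (ω : Env d) (s : ℕ → U d) (n : ℕ) :
    ∏ i ∈ range n, ENNReal.ofReal (ω (pos s i) (s i)) = q ω 0 (wd s n) := by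
  induction n with
  | zero => simp [wd, q]
  | succ n ih =>
    rw [Finset.prod_range_succ, ih, wd_succ_Cyl, q_append, disp_wd]
    simp [q]

theorem meas_cyl (hd : 0 < d) {P : Measure (ℕ → V d)} (hP : IsAnnealed μ P) (w : List (U d)) :
    P (cyl w) = W μ w := by
  have hw : wd (fun i => w.getD i (⟨0, hd⟩, true)) w.length = w := by
    refine List.ext_getElem (by simp [wd]) fun k h1 h2 => ?_
    simp [wd, List.getD_eq_getElem?_getD, h2]
  set s : ℕ → U d := fun i => w.getD i (⟨0, hd⟩, true) with hs
  have h1 : cyl w = {X | ∀ i ≤ w.length, X i = pos s i} := by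
    ext X
    simp only [cyl, Set.mem_setOf_eq]
    refine forall₂_congr fun i hi => ?_
    have h2 : w.take i = wd s i := by rw [← take_wd s hi, hw]
    rw [h2, disp_wd]
  rw [h1, hP.2]
  simp only [prod_eq_q, hw, W]

theorem ae_nn [IsProbabilityMeasure μ] (hd : 0 < d) (h : Elliptic μ) {P : Measure (ℕ → V d)}
    (hP : IsAnnealed μ P) : ∀ᵐ X ∂P, ∃ s : ℕ → U d, X = pos s := by
  haveI := hP.1
  have key : ∀ n : ℕ, ∀ᵐ X ∂P, ∃ w : List (U d), w.length = n ∧ X ∈ cyl w := by
    intro n
    have hm : ∀ w : List (U d), MeasurableSet {X | w.length = n ∧ X ∈ cyl w} := by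
      intro w
      by_cases hw : w.length = n
      · simpa [hw] using measurableSet_cyl w
      · simp [hw]
    have hdis : Pairwise (Function.onFun Disjoint
        fun w : List (U d) => {X | w.length = n ∧ X ∈ cyl w}) := by
      intro w w' hne
      rw [Function.onFun, Set.disjoint_left]
      rintro X ⟨h1, h2⟩ ⟨h3, h4⟩
      refine hne (List.ext_getElem (h1.trans h3.symm) fun k h5 h6 => ?_)
      have h7 := cyl_step_Cyl h2 h5
      rw [cyl_step_Cyl h4 h6, add_right_inj] at h7
      exact (vec_injective h7).symm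
    have hU : P (⋃ w : List (U d), {X | w.length = n ∧ X ∈ cyl w}) = 1 := by
      rw [measure_iUnion hdis hm]
      have h1 := stop_eq (cons_W h) (fun _ => True) n (s := []) (by simp) (by simp)
      rw [W_nil] at h1
      rw [← h1]
      refine tsum_congr fun w => ?_
      by_cases hw : w.length = n
      · rw [ind_pos ⟨⟨hw.le, fun _ _ _ => trivial, Or.inl hw⟩, List.nil_prefix⟩, one_mul,
          ← meas_cyl hd hP w]
        congr 1
        ext X
        simp [hw]
      · rw [ind_neg (fun h2 => hw (h2.1.2.2.resolve_right (by simp))), zero_mul]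
        simp [hw]
    have h2 := (mem_ae_iff_prob_eq_one (MeasurableSet.iUnion hm)).2 hU
    filter_upwards [h2] with X hX
    simpa using hX
  rw [← ae_all_iff] at key
  filter_upwards [key] with X hX
  have h0 : X 0 = 0 := by
    obtain ⟨w, -, hw⟩ := hX 0
    simpa using hw 0 (Nat.zero_le _)
  have h1 : ∀ i, ∃ e : U d, X (i + 1) = X i + vec e := by
    intro i
    obtain ⟨w, hl, hw⟩ := hX (i + 1)
    exact ⟨_, cyl_step_Cyl hw (by omega : i < w.length)⟩
  choose s hs using h1
  refine ⟨s, funext fun n => ?_⟩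
  induction n with
  | zero => simpa [pos] using h0
  | succ n ih => rw [hs, ih, pos_succ_Cyl]

end Vale.Agent.P147
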