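import Vale.Agent.P147.Defs

/-! Proof-level definitions and basic lemmas for P147. -/

namespace Vale.Agent.P147

open MeasureTheory Finset
open scoped ENNReal

variable {d : ℕ}

def disp (s : List (U d)) : V d := (s.map vec).sum
def dot (l x : V d) : ℤ := ∑ i, l i * x i
def lv (l : V d) (s : List (U d)) : ℤ := dot l (disp s)
/-- sites visited, relative to the start, both ends included -/
def tr (s : List (U d)) : Finset (V d) := (s.inits.map disp).toFinset

/-- quenched weight of a word read from the site `x` -/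
noncomputable def q (ω : Env d) : V d → List (U d) → ℝ≥0∞
  | _, [] => 1
  | x, e :: s => ENNReal.ofReal (ω x e) * q ω (x + vec e) s

/-- annealed weight of a word -/
noncomputable def W (μ : Measure (U d → ℝ)) (s : List (U d)) : ℝ≥0∞ :=
  ∫⁻ ω, q ω 0 s ∂envLaw μ

def Stoch (ω : Env d) : Prop := ∀ x, (∀ e, 0 < ω x e) ∧ ∑ e, ω x e = 1
def Cons (m : List (U d) → ℝ≥0∞) : Prop := ∀ s, ∑ e, m (s ++ [e]) = m s
def PF (F : List (U d) → Prop) : Prop := ∀ s t, F s → F t → s <+: t → s = t

open Classical in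
noncomputable def ind (p : Prop) : ℝ≥0∞ := if p then 1 else 0

noncomputable def mass (m : List (U d) → ℝ≥0∞) (F : List (U d) → Prop) : ℝ≥0∞ :=
  ∑' s, ind (F s) * m s

def Stop (p : List (U d) → Prop) (n : ℕ) (s : List (U d)) : Prop :=
  s.length ≤ n ∧ (∀ t, t <+: s → t ≠ s → p t) ∧ (s.length = n ∨ ¬ p s)

def shift (y : V d) (ω : Env d) : Env d := fun x => ω (x + y)

def NN (l : V d) (s : List (U d)) : Prop := ∀ t, t <+: s → 0 ≤ lv l t
def Rec (l : V d) (s : List (U d)) : Prop := ∀ t, t <+: s → t ≠ s → lv l t < lv l s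
def Cone (l : V d) (K : ℕ) (s : List (U d)) : Prop :=
  ∀ t, t <+: s → ((tr t).card : ℤ) ≤ K * (lv l t + 1)
/-- first crossing of the level `lam` -/
def Cr (g : List (U d) → Prop) (l : V d) (lam : ℤ) (s : List (U d)) : Prop :=
  g s ∧ lam ≤ lv l s ∧ ∀ t, t <+: s → t ≠ s → lv l t < lam
/-- initial segments of good words are good -/
def Her (g : List (U d) → Prop) : Prop := ∀ s t, t <+: s → g s → g t
def Pre (l : V d) (K : ℕ) (lam : ℤ) (s : List (U d)) : Prop :=
  Cone l K s ∧ ∀ t, t <+: s → t ≠ s → lv l t < lam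
/-- annealed mass of cone crossings -/
noncomputable def AA (μ : Measure (U d → ℝ)) (l : V d) (K : ℕ) (lam : ℤ) : ℝ≥0∞ :=
  mass (W μ) (Cr (Cone l K) l lam)
/-- step bound -/
def SB (l : V d) (b : ℤ) : Prop := 1 ≤ b ∧ ∀ e : U d, lv l [e] ≤ b ∧ -b ≤ lv l [e]
/-- at most one point on each level -/
def LInj (l : V d) (G : Set (V d)) : Prop := ∀ a ∈ G, ∀ a' ∈ G, dot l a = dot l a' → a = a'

/-- the four randomising patterns -/
structure Pat (l : V d) where
  b : ℤ
  H : ℤ
  M : ℤ
  P1 : Bool → List (U d)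
  P2 : Bool → List (U d)
  h0 : V d
  u1 : V d
  u2 : V d
  sb : SB l b
  hM : H + b ≤ M
  hdisp : ∀ i j, disp (P1 i ++ P2 j) = h0 + (if i then u1 else 0) + (if j then u2 else 0)
  hu1 : dot l u1 = 0
  hu2 : dot l u2 = 0
  hind : ∀ m n : ℤ, m • u1 + n • u2 = 0 → m = 0 ∧ n = 0
  hH : dot l h0 = H
  hbH : b ≤ H
  low : ∀ i j t, t <+: P1 i ++ P2 j → t ≠ [] → b ≤ lv l t
  up : ∀ i j t, t <+: P1 i ++ P2 j → t ≠ P1 i ++ P2 j → lv l t < H
  rec1 : ∀ i, Rec l (P1 i)
  nn2 : ∀ j, NN l (P2 j)

variable {l : V d}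

def Pat.P (p : Pat l) (e : Bool × Bool) : List (U d) := p.P1 e.1 ++ p.P2 e.2
def Pat.u (p : Pat l) (e : Bool × Bool) : V d :=
  (if e.1 then p.u1 else 0) + (if e.2 then p.u2 else 0)
def Pat.Res (p : Pat l) (z : V d) : Prop := dot l z % p.M < p.b
/-- words from `x` that end with a pattern started at a record on an admissible level -/
def Pat.SpW (p : Pat l) (x : V d) (w : List (U d)) : Prop :=
  ∃ s e, w = s ++ p.P e ∧ Rec l s ∧ p.Res (x + disp s)
def Pat.Irr (p : Pat l) (x : V d) (s : List (U d)) : Prop :=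
  NN l s ∧ Rec l s ∧ p.Res (x + disp s) ∧
    ¬ ∃ w t, s = w ++ t ∧ p.SpW x w ∧ NN l t
noncomputable def Pat.Aop (p : Pat l) (μ : Measure (U d → ℝ)) (ψ : V d → ℝ≥0∞) (z : V d) : ℝ≥0∞ :=
  ∑ e : Bool × Bool, W μ (p.P e) * ψ (z + p.u e)
noncomputable def Pat.Top (p : Pat l) (μ : Measure (U d → ℝ)) (ψ : V d → ℝ≥0∞) (x : V d) : ℝ≥0∞ :=
  ∑' s, ind (p.Irr x s) * W μ s * p.Aop μ ψ (x + disp s + p.h0)

open Classical in
/-- special points of a word on the levels from `2 L` to `3 L` -/
noncomputable def Pat.sk (p : Pat l) (L : ℕ) (s : List (U d)) : Finset (V d) :=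
  (tr s).filter fun a => 2 * (L : ℤ) ≤ dot l a ∧ dot l a ≤ 3 * (L : ℤ) ∧
    ∃ w t, s = w ++ t ∧ disp w = a ∧ p.SpW 0 w ∧ NN l t

open Classical in
noncomputable def cnt (l : V d) (A : Finset (V d)) (G : Set (V d)) : ℕ :=
  ((A ×ˢ A).filter fun z => dot l z.1 < dot l z.2 ∧ z.2 - z.1 ∈ G).card

/-- `s` from the origin first hits the trace of the downward crossing `t` started at `y` -/
def F0 (l : V d) (K L : ℕ) (y : V d) (s t : List (U d)) : Prop :=
  4 * (L : ℤ) ≤ dot l y ∧ dot l y ≤ 6 * (L : ℤ) ∧ Cr (Cone (-l) K) (-l) (3 * (L : ℤ)) t ∧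
    Pre l K (3 * (L : ℤ)) s ∧ disp s - y ∈ tr t ∧ ∀ r, r <+: s → r ≠ s → disp r - y ∉ tr t

noncomputable def Phi (μ : Measure (U d → ℝ)) (l : V d) (K L : ℕ) : ℝ≥0∞ :=
  ∑' y, ∑' s, ∑' t, ind (F0 l K L y s t) * (W μ s * W μ t)

/-- quenched probability to climb `lam` before descending `lam` -/
noncomputable def hh (l : V d) (lam : ℤ) (ω : Env d) (z : V d) : ℝ≥0∞ :=
  mass (q ω z) (Cr (fun s => ∀ t, t <+: s → -lam < lv l t) l lam)

def Bad (l : V d) (K : ℕ) (l1 l3 : ℤ) (ω : Env d) (s : List (U d)) : Prop :=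
  ∃ t, t <+: s ∧ Cone l K t ∧ l1 ≤ lv l t ∧ (∀ r, r <+: t → lv l r ≤ l3) ∧
    hh l (l3 + 1) ω (disp t) ≤ 1 / 2

/-! basic lemmas -/

@[simp] theorem disp_nil : disp ([] : List (U d)) = 0 := rfl
@[simp] theorem disp_cons (e : U d) (s : List (U d)) : disp (e :: s) = vec e + disp s := by
  simp [disp]
@[simp] theorem disp_append (s t : List (U d)) : disp (s ++ t) = disp s + disp t := by
  simp [disp]
theorem dot_add (l x y : V d) : dot l (x + y) = dot l x + dot l y := by
  simp [dot, mul_add, Finset.sum_add_distrib]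
theorem dot_sub (l x y : V d) : dot l (x - y) = dot l x - dot l y := by
  simp [dot, mul_sub, Finset.sum_sub_distrib]
@[simp] theorem dot_zero (l : V d) : dot l 0 = 0 := by simp [dot]
theorem dot_neg_left (l x : V d) : dot (-l) x = - dot l x := by simp [dot]
theorem dot_neg (l x : V d) : dot l (-x) = - dot l x := by simp [dot]
theorem dot_smul (l x : V d) (m : ℤ) : dot l (m • x) = m * dot l x := by
  simp only [dot, Pi.smul_apply, smul_eq_mul, Finset.mul_sum]
  exact Finset.sum_congr rfl fun i _ => by ring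
@[simp] theorem lv_nil (l : V d) : lv l [] = 0 := by simp [lv]
theorem lv_append (l : V d) (s t : List (U d)) : lv l (s ++ t) = lv l s + lv l t := by
  simp [lv, dot_add]
theorem lv_neg (l : V d) (s : List (U d)) : lv (-l) s = - lv l s := dot_neg_left _ _
theorem mem_tr {s : List (U d)} {a : V d} : a ∈ tr s ↔ ∃ t, t <+: s ∧ disp t = a := by
  simp [tr, List.mem_inits]
theorem tr_mono {s t : List (U d)} (h : t <+: s) : tr t ⊆ tr s := by
  intro a ha
  obtain ⟨r, hr, rfl⟩ := mem_tr.1 ha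
  exact mem_tr.2 ⟨r, hr.trans h, rfl⟩
theorem disp_mem_tr (s : List (U d)) : disp s ∈ tr s := mem_tr.2 ⟨s, List.prefix_refl _, rfl⟩
theorem one_le_card_tr (s : List (U d)) : 1 ≤ (tr s).card :=
  Finset.card_pos.2 ⟨_, disp_mem_tr s⟩
/-- an initial segment of a concatenation -/
theorem pre_append {r s t : List (U d)} (h : r <+: s ++ t) :
    r <+: s ∨ ∃ r', r' <+: t ∧ r' ≠ [] ∧ r = s ++ r' := by
  rcases List.prefix_or_prefix_of_prefix h (List.prefix_append s t) with h1 | h1
  · exact Or.inl h1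
  · obtain ⟨r', rfl⟩ := h1
    by_cases h0 : r' = []
    · subst h0; left; simp
    · exact Or.inr ⟨r', (List.prefix_append_right_inj s).1 h, h0, rfl⟩
theorem card_tr_append (s t : List (U d)) : (tr (s ++ t)).card ≤ (tr s).card + (tr t).card := by
  classical
  have h : tr (s ++ t) ⊆ tr s ∪ (tr t).image (fun a => disp s + a) := by
    intro a ha
    obtain ⟨r, hr, rfl⟩ := mem_tr.1 ha
    rcases pre_append hr with h | ⟨r', h1, -, rfl⟩
    · exact Finset.mem_union_left _ (mem_tr.2 ⟨r, h, rfl⟩)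
    · exact Finset.mem_union_right _ (Finset.mem_image.2 ⟨disp r', mem_tr.2 ⟨r', h1, rfl⟩, by simp⟩)
  exact (Finset.card_le_card h).trans ((Finset.card_union_le _ _).trans
    (Nat.add_le_add_left Finset.card_image_le _))
theorem card_tr_le (s : List (U d)) : (tr s).card ≤ s.length + 1 := by
  unfold tr
  exact (List.toFinset_card_le _).trans (by simp)
theorem q_append (ω : Env d) (x : V d) (s t : List (U d)) :
    q ω x (s ++ t) = q ω x s * q ω (x + disp s) t := by
  induction s generalizing x with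
  | nil => simp [q]
  | cons e s ih => simp [q, ih, mul_assoc, add_assoc]
theorem measurable_q (x : V d) (s : List (U d)) : Measurable fun ω : Env d => q ω x s := by
  induction s generalizing x with
  | nil => simp [q]
  | cons e s ih =>
    simp only [q]
    exact (ENNReal.measurable_ofReal.comp
      ((measurable_pi_apply e).comp (measurable_pi_apply x))).mul (ih _)
theorem q_shift (y : V d) (ω : Env d) (x : V d) (s : List (U d)) :
    q (shift y ω) x s = q ω (x + y) s := by
  induction s generalizing x with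
  | nil => simp [q]
  | cons e s ih => simp only [q, ih, shift]; rw [add_right_comm]
theorem ind_pos {p : Prop} (h : p) : ind p = 1 := by simp [ind, h]
theorem ind_neg {p : Prop} (h : ¬ p) : ind p = 0 := by simp [ind, h]
theorem ind_le_one (p : Prop) : ind p ≤ 1 := by
  by_cases h : p <;> simp [ind, h]
theorem ind_mono {p r : Prop} (h : p → r) : ind p ≤ ind r := by
  by_cases hp : p
  · rw [ind_pos hp, ind_pos (h hp)]
  · rw [ind_neg hp]; exact zero_le
theorem ind_and (p r : Prop) : ind (p ∧ r) = ind p * ind r := by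
  by_cases hp : p <;> by_cases hr : r <;> simp [ind, hp, hr]
theorem ind_congr {p r : Prop} (h : p ↔ r) : ind p = ind r := by rw [propext h]
theorem measurable_ind {α : Type*} [MeasurableSpace α] {p : α → Prop}
    (h : MeasurableSet {a | p a}) : Measurable fun a => ind (p a) := by
  classical
  unfold ind
  exact Measurable.ite h measurable_const measurable_const
theorem mass_mono (m : List (U d) → ℝ≥0∞) {F G : List (U d) → Prop} (h : ∀ s, F s → G s) :
    mass m F ≤ mass m G :=
  ENNReal.tsum_le_tsum fun s => mul_le_mul_left (ind_mono (h s)) _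
theorem Cone.nn {K : ℕ} {s : List (U d)} (h : Cone l K s) : NN l s := by
  intro t ht
  have h1 := h t ht
  have h2 : (1 : ℤ) ≤ (tr t).card := by exact_mod_cast one_le_card_tr t
  by_contra h3
  have h4 : lv l t + 1 ≤ 0 := by omega
  have h5 : (K : ℤ) * (lv l t + 1) ≤ 0 := mul_nonpos_of_nonneg_of_nonpos (by positivity) h4
  omega
theorem her_cone (l : V d) (K : ℕ) : Her (Cone l K) := fun _ _ h hs r hr => hs r (hr.trans h)
theorem her_nn (l : V d) : Her (NN l) := fun _ _ h hs r hr => hs r (hr.trans h)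
theorem Cone.mono {K K' : ℕ} {s : List (U d)} (h : Cone l K s) (hK : K ≤ K') : Cone l K' s := by
  intro t ht
  have h0 := h.nn t ht
  refine (h t ht).trans (mul_le_mul_of_nonneg_right (by exact_mod_cast hK) (by omega))
theorem NN.append {s t : List (U d)} (hs : NN l s) (ht : NN l t) : NN l (s ++ t) := by
  intro r hr
  rcases pre_append hr with h | ⟨r', h1, -, rfl⟩
  · exact hs r h
  · rw [lv_append]; exact add_nonneg (hs s (List.prefix_refl _)) (ht r' h1)
theorem pf_cr (g : List (U d) → Prop) (l : V d) (lam : ℤ) : PF (Cr g l lam) := by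
  intro s t hs ht h
  by_contra hne
  have := ht.2.2 s h hne
  have := hs.2.1
  omega
/-- every word reaching the level `lam` has a first crossing -/
theorem exists_cr {g : List (U d) → Prop} (hg : Her g) {lam : ℤ} {s : List (U d)} (hs : g s)
    (h : lam ≤ lv l s) : ∃ c, Cr g l lam c ∧ c <+: s := by
  classical
  have hex : ∃ n, ∃ c : List (U d), c.length = n ∧ c <+: s ∧ lam ≤ lv l c :=
    ⟨_, s, rfl, List.prefix_refl _, h⟩
  obtain ⟨c, hc, hcs, hl⟩ := Nat.find_spec hex
  refine ⟨c, ⟨hg _ _ hcs hs, hl, fun t ht hne => ?_⟩, hcs⟩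
  by_contra hlt
  have h1 : t.length < c.length := lt_of_le_of_ne ht.length_le fun h => hne (ht.eq_of_length h)
  exact Nat.find_min hex (hc ▸ h1) ⟨t, rfl, ht.trans hcs, by omega⟩
/-- overshoot bound -/
theorem lv_lt_of_pre {b lam : ℤ} (hb : SB l b) (hlam : 0 ≤ lam) {s : List (U d)}
    (h : ∀ t, t <+: s → t ≠ s → lv l t < lam) : lv l s < lam + b := by
  rcases List.eq_nil_or_concat s with rfl | ⟨t, e, rfl⟩
  · have := hb.1; simp; omega
  · have h1 := h t (by simp) (by simp)
    have h2 := (hb.2 e).1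
    rw [List.concat_eq_append, lv_append]; omega
theorem SB.neg {b : ℤ} (hb : SB l b) : SB (-l) b :=
  ⟨hb.1, fun e => by have := hb.2 e; rw [lv_neg]; omega⟩
theorem Pat.disp_P (p : Pat l) (e : Bool × Bool) : disp (p.P e) = p.h0 + p.u e := by
  rw [Pat.P, p.hdisp, Pat.u, add_assoc]
theorem Pat.dot_u (p : Pat l) (e : Bool × Bool) : dot l (p.u e) = 0 := by
  rcases e with ⟨i, j⟩
  cases i <;> cases j <;> simp [Pat.u, dot_add, p.hu1, p.hu2]
theorem Pat.lv_P (p : Pat l) (e : Bool × Bool) : lv l (p.P e) = p.H := by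
  rw [lv, p.disp_P, dot_add, p.hH, p.dot_u, add_zero]
theorem Pat.nn_P (p : Pat l) (e : Bool × Bool) : NN l (p.P e) := by
  intro t ht
  by_cases h : t = []
  · subst h; simp
  · have := p.low e.1 e.2 t ht h
    have := p.sb.1
    omega
theorem Pat.rec_P (p : Pat l) (e : Bool × Bool) : Rec l (p.P e) := fun t ht hne => by
  rw [p.lv_P]; exact p.up e.1 e.2 t ht hne

end Vale.Agent.P147
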