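import Mathlib

/-! Random walk in an iid random environment on the lattice: statement-level definitions. -/

namespace Vale.Agent.P147

open MeasureTheory Filter Finset

/-- sites of the lattice -/
abbrev V (d : ℕ) : Type := Fin d → ℤ

/-- the `2 d` unit steps: a coordinate and a sign -/
abbrev U (d : ℕ) : Type := Fin d × Bool

/-- the unit vector of a step -/
def vec {d : ℕ} (e : U d) : V d := Pi.single e.1 (if e.2 then 1 else -1)

/-- environments: a transition row at each site -/
abbrev Env (d : ℕ) : Type := V d → U d → ℝ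

/-- the iid environment law with one-site marginal `μ` -/
noncomputable def envLaw {d : ℕ} (μ : Measure (U d → ℝ)) : Measure (Env d) :=
  Measure.infinitePi (fun _ : V d => μ)

/-- `μ` is carried by probability vectors with strictly positive entries -/
def Elliptic {d : ℕ} (μ : Measure (U d → ℝ)) : Prop :=
  ∀ᵐ p ∂μ, (∀ e, 0 < p e) ∧ ∑ e, p e = 1

/-- position after `n` steps of the step sequence `s`, starting from the origin -/
def pos {d : ℕ} (s : ℕ → U d) (n : ℕ) : V d := ∑ i ∈ range n, vec (s i)

/-- `P` is the annealed law of the walk started at the origin: the probability of each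
nearest-neighbour cylinder is the environment average of the product of transition entries -/
def IsAnnealed {d : ℕ} (μ : Measure (U d → ℝ)) (P : Measure (ℕ → V d)) : Prop :=
  IsProbabilityMeasure P ∧ ∀ (n : ℕ) (s : ℕ → U d),
    P {X | ∀ i ≤ n, X i = pos s i} =
      ∫⁻ ω, ∏ i ∈ range n, ENNReal.ofReal (ω (pos s i) (s i)) ∂envLaw μ

/-- Euclidean inner product of a site with a real direction -/
def ip {d : ℕ} (x : V d) (l : Fin d → ℝ) : ℝ := ∑ i, (x i : ℝ) * l i

/-- escape in direction `l` -/
def Esc {d : ℕ} (l : Fin d → ℝ) : Set (ℕ → V d) :=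
  {X | Tendsto (fun n => ip (X n) l) atTop atTop}

/-- the progress in direction `l` is eventually at least a positive multiple of the number of
distinct sites visited so far -/
def Thin {d : ℕ} (l : Fin d → ℝ) : Set (ℕ → V d) :=
  {X | ∃ c : ℝ, 0 < c ∧ ∀ᶠ n in atTop, c * (((range (n + 1)).image X).card : ℝ) ≤ ip (X n) l}

/-- positive lower speed in direction `l` -/
def Ballistic {d : ℕ} (l : Fin d → ℝ) : Set (ℕ → V d) :=
  {X | ∃ c : ℝ, 0 < c ∧ ∀ᶠ n : ℕ in atTop, c * (n : ℝ) ≤ ip (X n) l}

/-- the walk has limiting velocity `v` -/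
def Vel {d : ℕ} (v : Fin d → ℝ) : Set (ℕ → V d) :=
  {X | Tendsto (fun n : ℕ => fun i => (X n i : ℝ) / (n : ℝ)) atTop (nhds v)}

end Vale.Agent.P147
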