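import Vale.Agent.P147.PFm
import Vale.Agent.P147.Ind
import Vale.Agent.P147.NO

namespace Vale.Agent.P147

open MeasureTheory Filter Finset
open scoped ENNReal

variable {d : ℕ} {l : V d} {μ : Measure (U d → ℝ)}

theorem card_le_tsum_EnA {α β : Type*} (S : Finset α) (R : β → Prop) (π : β → α)
    (h : ∀ z ∈ S, ∃ w, R w ∧ π w = z) : (S.card : ℝ≥0∞) ≤ ∑' w, ind (R w) := by
  classical
  choose φ h1 h2 using h
  refine le_trans (le_of_eq ?_) (ENNReal.sum_le_tsum (S.attach.image fun z => φ z.1 z.2))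
  rw [Finset.sum_image fun z _ z' _ e => Subtype.ext (by rw [← h2 z.1 z.2, e, h2])]
  rw [Finset.sum_congr rfl fun z _ => ind_pos (h1 z.1 z.2)]
  simp

theorem rec_mass_EnA [IsProbabilityMeasure μ] (h : Elliptic μ) (L : ℕ) :
    ∑' w, ind (Rec l w ∧ 2 * (L : ℤ) ≤ lv l w ∧ lv l w ≤ 3 * (L : ℤ)) * W μ w ≤
      (L : ℝ≥0∞) + 1 := by
  calc _ ≤ ∑' w, ∑ k ∈ Finset.range (L + 1),
        ind (Rec l w ∧ lv l w = 2 * (L : ℤ) + k) * W μ w := by
        refine ENNReal.tsum_le_tsum fun w => ?_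
        by_cases hw : Rec l w ∧ 2 * (L : ℤ) ≤ lv l w ∧ lv l w ≤ 3 * (L : ℤ)
        · refine le_trans ?_ (Finset.single_le_sum
            (f := fun k : ℕ => ind (Rec l w ∧ lv l w = 2 * (L : ℤ) + k) * W μ w)
            (fun _ _ => zero_le) (a := (lv l w - 2 * L).toNat)
            (Finset.mem_range.2 (by omega)))
          exact mul_le_mul_left (ind_mono fun _ => ⟨hw.1, by omega⟩) _
        · rw [ind_neg hw, zero_mul]; exact zero_le
    _ = ∑ k ∈ Finset.range (L + 1),
        mass (W μ) fun w => Rec l w ∧ lv l w = 2 * (L : ℤ) + k :=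
        Summable.tsum_finsetSum fun _ _ => ENNReal.summable
    _ ≤ ∑ _k ∈ Finset.range (L + 1), (1 : ℝ≥0∞) := by
        refine Finset.sum_le_sum fun k _ => ?_
        refine (mass_le (cons_W h) fun s t hs ht hst => ?_).trans (le_of_eq W_nil)
        by_contra hne
        have := ht.1 s hst hne
        omega
    _ = _ := by simp

theorem Pat.energy [IsProbabilityMeasure μ] (p : Pat l) (h : Elliptic μ)
    {F : List (U d) → Prop} (hF : PF F) (L : ℕ) (G : Set (V d)) (c : ℝ≥0∞)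
    (hc : ∀ x, ∑' w, ind (p.SpW x w ∧ NN l w ∧ lv l w ≤ L) * W μ w * ind (disp w ∈ G) ≤ c) :
    ∑' s, ind (F s) * W μ s * (cnt l (p.sk L s) G : ℝ≥0∞) ≤ ((L : ℝ≥0∞) + 1) * c := by
  classical
  let R1 : List (U d) → Prop := fun w => Rec l w ∧ 2 * (L : ℤ) ≤ lv l w ∧ lv l w ≤ 3 * (L : ℤ)
  let R2 : List (U d) → List (U d) → Prop := fun w v =>
    (p.SpW (disp w) v ∧ NN l v ∧ lv l v ≤ L) ∧ disp v ∈ G
  have h1 : ∀ s, (cnt l (p.sk L s) G : ℝ≥0∞) ≤ ∑' w : List (U d) × List (U d),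
      ind ((R1 w.1 ∧ R2 w.1 w.2) ∧ w.1 ++ w.2 <+: s) := fun s => by
    refine card_le_tsum_EnA _ _ (fun w => (disp w.1, disp w.1 + disp w.2)) fun z hz => ?_
    simp only [Finset.mem_filter, Finset.mem_product, Pat.sk] at hz
    obtain ⟨⟨⟨-, a1, a2, w, t, e, dw, sw, nt⟩, -, b1, b2, w', t', e', dw', sw', -⟩, hlt, hG⟩ := hz
    have lw : lv l w = dot l z.1 := by rw [lv, dw]
    have lw' : lv l w' = dot l z.2 := by rw [lv, dw']
    have hww : w <+: w' := by
      refine (List.prefix_or_prefix_of_prefix (l₃ := s) ⟨t, e.symm⟩ ⟨t', e'.symm⟩).resolve_right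
        fun hh => ?_
      by_cases e2 : w' = w
      · rw [e2] at lw'; omega
      · have := p.rec_spw sw w' hh e2
        omega
    obtain ⟨v, rfl⟩ := hww
    rw [lv_append] at lw'
    have v0 : v ≠ [] := by
      rintro rfl
      rw [lv_nil] at lw'
      omega
    have hv : disp v = z.2 - z.1 := by rw [← dw, ← dw', disp_append]; abel
    have vt : v <+: t := ⟨t', by
      rw [e, List.append_assoc] at e'
      exact (List.append_cancel_left e').symm⟩
    refine ⟨(w, v), ⟨⟨⟨p.rec_spw sw, lw ▸ a1, lw ▸ a2⟩, ⟨?_, her_nn l _ _ vt nt, ?_⟩, ?_⟩,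
      ⟨t', e'.symm⟩⟩, ?_⟩
    · simpa using p.split sw sw' v0
    · show lv l v ≤ L
      omega
    · show disp v ∈ G
      rw [hv]; exact hG
    · refine Prod.ext dw ?_
      show disp w + disp v = z.2
      rw [← dw', disp_append]
  calc _ ≤ ∑' s, ∑' w : List (U d) × List (U d),
        ind (R1 w.1 ∧ R2 w.1 w.2) * (ind (F s ∧ w.1 ++ w.2 <+: s) * W μ s) := by
        refine ENNReal.tsum_le_tsum fun s => (mul_le_mul_right (h1 s) _).trans (le_of_eq ?_)
        rw [← ENNReal.tsum_mul_left]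
        refine tsum_congr fun w => ?_
        rw [ind_and _ (w.1 ++ w.2 <+: s), ind_and (F s)]
        ring
    _ ≤ ∑' w : List (U d) × List (U d), ind (R1 w.1) * W μ w.1 *
        (ind (p.SpW (disp w.1) w.2 ∧ NN l w.2 ∧ lv l w.2 ≤ L) * W μ w.2 * ind (disp w.2 ∈ G)) := by
        rw [ENNReal.tsum_comm]
        refine ENNReal.tsum_le_tsum fun w => ?_
        rw [ENNReal.tsum_mul_left]
        by_cases hw : R1 w.1 ∧ R2 w.1 w.2
        · rw [ind_pos hw, ind_pos hw.1, ind_pos hw.2.1, ind_pos hw.2.2, one_mul, one_mul, one_mul,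
            mul_one, ← W_regen hw.1.1 hw.2.1.2.1]
          exact ext_le (cons_W h) hF _
        · rw [ind_neg hw, zero_mul]; exact zero_le
    _ ≤ ∑' w, ind (R1 w) * W μ w * c := by
        rw [ENNReal.tsum_prod']
        refine ENNReal.tsum_le_tsum fun w => ?_
        simp only []
        rw [ENNReal.tsum_mul_left]
        exact mul_le_mul_right (hc _) _
    _ ≤ _ := by
        rw [ENNReal.tsum_mul_right]
        exact mul_le_mul_left (rec_mass_EnA h L) _

end Vale.Agent.P147
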