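import Vale.Agent.P147.Env
import Vale.Agent.P147.Cyl

namespace Vale.Agent.P147

open MeasureTheory Filter Finset
open scoped ENNReal

variable {d : ℕ} {l : V d} {μ : Measure (U d → ℝ)}

/-- law of the next step after the word `w` -/
noncomputable def nx_Ex (μ : Measure (U d → ℝ)) (w : List (U d)) : Measure (U d) :=
  ∑ e : U d, (W μ (w ++ [e]) / W μ w) • Measure.dirac e

theorem nx_single_Ex (w : List (U d)) (e : U d) :
    nx_Ex μ w {e} = W μ (w ++ [e]) / W μ w := by
  classical
  rw [nx_Ex, Measure.coe_finset_sum, Finset.sum_apply, Finset.sum_eq_single e]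
  · simp
  · intro b _ hb
    simp [hb]
  · simp

theorem nx_prob_Ex [IsProbabilityMeasure μ] (h : Elliptic μ) (w : List (U d)) :
    IsProbabilityMeasure (nx_Ex μ w) := by
  constructor
  rw [nx_Ex, Measure.coe_finset_sum, Finset.sum_apply]
  simp only [Measure.smul_apply, measure_univ, smul_eq_mul, mul_one]
  simp only [div_eq_mul_inv]
  rw [← Finset.sum_mul, cons_W h w]
  exact ENNReal.mul_inv_cancel (W_ne_zero h w)
    (ne_top_of_le_ne_top ENNReal.one_ne_top (W_le_one h w))

/-- the word read from a finite history, the entry at time zero being a dummy -/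
def wI_Ex (a : ℕ) (y : Π _ : Iic a, U d) : List (U d) :=
  List.ofFn fun i : Fin a => y ⟨i.1 + 1, Finset.mem_Iic.2 i.2⟩

noncomputable def ker_Ex (μ : Measure (U d → ℝ)) (a : ℕ) :
    ProbabilityTheory.Kernel (Π _ : Iic a, U d) (U d) :=
  ProbabilityTheory.Kernel.ofFunOfCountable fun y => nx_Ex μ (wI_Ex a y)

theorem wd_succ_Ex (s : ℕ → U d) (n : ℕ) : wd s (n + 1) = wd s n ++ [s n] := by
  rw [wd_add]
  simp [wd]

theorem exists_annealed [IsProbabilityMeasure μ] (h : Elliptic μ) :
    ∃ P : Measure (ℕ → V d), IsAnnealed μ P := by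
  have hne : Nonempty (U d) := by
    by_contra hn
    rw [not_nonempty_iff] at hn
    have h1 := cons_W h []
    rw [W_nil] at h1
    simp at h1
  obtain ⟨e0⟩ := hne
  haveI : ∀ a, ProbabilityTheory.IsMarkovKernel (ker_Ex μ a) := fun a =>
    ⟨fun y => nx_prob_Ex h _⟩
  set Q : Measure (ℕ → U d) :=
    ProbabilityTheory.Kernel.trajMeasure (X := fun _ => U d) (Measure.dirac e0) (ker_Ex μ) with hQ
  haveI : IsProbabilityMeasure Q := by rw [hQ]; infer_instance
  have key : ∀ (s : ℕ → U d) (a : ℕ), Q {x | ∀ i < a, x (i + 1) = s i} = W μ (wd s a) := by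
    intro s a
    induction a with
    | zero =>
      have : wd s 0 = [] := by simp [wd]
      rw [this, W_nil]
      simp
    | succ a ih =>
      set A : Set (Π _ : Iic a, U d) :=
        {y | ∀ i : Fin a, y ⟨i.1 + 1, Finset.mem_Iic.2 i.2⟩ = s i} with hA
      have mA : MeasurableSet A := MeasurableSet.of_discrete
      have e := ProbabilityTheory.Kernel.map_frestrictLe_trajMeasure_compProd_eq_map_trajMeasure
        (X := fun _ => U d) (μ₀ := Measure.dirac e0) (κ := ker_Ex μ) (a := a)
      rw [← hQ] at e
      have e1 := congrArg (fun ν => ν (A ×ˢ ({s a} : Set (U d)))) e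
      rw [Measure.compProd_apply_prod mA (measurableSet_singleton _),
        Measure.map_apply (by fun_prop) (mA.prod (measurableSet_singleton _))] at e1
      have e2 : {x : ℕ → U d | ∀ i < a + 1, x (i + 1) = s i} =
          (fun x : ℕ → U d => (Preorder.frestrictLe a x, x (a + 1))) ⁻¹' (A ×ˢ ({s a} : Set (U d))) := by
        ext x
        simp only [Set.mem_setOf_eq, Set.mem_preimage, Set.mem_prod, hA, Set.mem_singleton_iff,
          Preorder.frestrictLe_apply]
        constructor
        · intro hx
          exact ⟨fun i => hx i.1 (by omega), hx a (by omega)⟩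
        · rintro ⟨h1, h2⟩ i hi
          rcases Nat.lt_succ_iff_lt_or_eq.1 hi with h3 | rfl
          · exact h1 ⟨i, h3⟩
          · exact h2
      have e3 : ∫⁻ y in A, ker_Ex μ a y {s a} ∂(Q.map (Preorder.frestrictLe a)) =
          ∫⁻ _ in A, W μ (wd s a ++ [s a]) / W μ (wd s a) ∂(Q.map (Preorder.frestrictLe a)) := by
        refine setLIntegral_congr_fun mA fun y hy => ?_
        have : wI_Ex a y = wd s a := by
          simp only [wI_Ex, wd]
          congr 1
          funext i
          exact hy i
        show nx_Ex μ (wI_Ex a y) {s a} = _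
        rw [this, nx_single_Ex]
      have e4 : (Q.map (Preorder.frestrictLe a)) A = W μ (wd s a) := by
        rw [Measure.map_apply (by fun_prop) mA, ← ih]
        congr 1
        ext x
        simp only [Set.mem_setOf_eq, Set.mem_preimage, hA, Preorder.frestrictLe_apply]
        exact ⟨fun hx i hi => hx ⟨i, hi⟩, fun hx i => hx i.1 i.2⟩
      rw [e2, ← e1, e3, setLIntegral_const, e4, wd_succ_Ex]
      exact ENNReal.div_mul_cancel (W_ne_zero h _)
        (ne_top_of_le_ne_top ENNReal.one_ne_top (W_le_one h _))
  have mf : Measurable fun x : ℕ → U d => pos (fun i => x (i + 1)) := by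
    refine measurable_pi_lambda _ fun n => ?_
    simp only [pos]
    refine Finset.measurable_sum _ fun i _ => ?_
    exact (measurable_of_countable (vec : U d → V d)).comp (measurable_pi_apply (i + 1))
  refine ⟨Q.map fun x : ℕ → U d => pos (fun i => x (i + 1)),
    Measure.isProbabilityMeasure_map mf.aemeasurable, fun n s => ?_⟩
  have mC : MeasurableSet {X : ℕ → V d | ∀ i ≤ n, X i = pos s i} := by
    have : {X : ℕ → V d | ∀ i ≤ n, X i = pos s i} =
        ⋂ i ∈ Set.Iic n, (fun X : ℕ → V d => X i) ⁻¹' {pos s i} := by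
      ext X; simp
    rw [this]
    exact MeasurableSet.biInter (Set.to_countable _) fun i _ =>
      measurable_pi_apply (X := fun _ : ℕ => V d) i (measurableSet_singleton _)
  rw [Measure.map_apply mf mC]
  simp only [prod_eq_q]
  rw [← W, ← key s n]
  congr 1
  ext x
  simp only [Set.mem_preimage, Set.mem_setOf_eq]
  constructor
  · intro hx i hi
    have h1 := hx i hi.le
    have h2 := hx (i + 1) hi
    simp only [pos, Finset.sum_range_succ] at h1 h2
    rw [h1] at h2
    exact vec_injective (add_left_cancel h2)
  · intro hx i hi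
    simp only [pos]
    refine Finset.sum_congr rfl fun j hj => ?_
    rw [hx j (lt_of_lt_of_le (Finset.mem_range.1 hj) hi)]

end Vale.Agent.P147
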