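import Vale.Agent.P147.PFm
import Vale.Agent.P147.Env

namespace Vale.Agent.P147

open MeasureTheory Filter Finset
open scoped ENNReal

variable {d : ℕ} {l : V d} {μ : Measure (U d → ℝ)}

theorem card_eq_Low (D : Finset (V d)) : (D.card : ℝ≥0∞) = ∑' y, ind (y ∈ D) := by
  rw [tsum_eq_sum (s := D) (fun y hy => ind_neg hy), Finset.sum_congr rfl fun y hy => ind_pos hy]
  simp

theorem first_Low (p : List (U d) → Prop) {s r : List (U d)} (hr : r <+: s) (hp : p r) :
    ∃ c, c <+: s ∧ p c ∧ ∀ r', r' <+: c → r' ≠ c → ¬ p r' := by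
  classical
  have hex : ∃ n, ∃ c : List (U d), c.length = n ∧ c <+: s ∧ p c := ⟨_, r, rfl, hr, hp⟩
  obtain ⟨c, hc, hcs, hl⟩ := Nat.find_spec hex
  refine ⟨c, hcs, hl, fun t ht hne hpt => ?_⟩
  have h1 : t.length < c.length := lt_of_le_of_ne ht.length_le fun h => hne (ht.eq_of_length h)
  exact Nat.find_min hex (hc ▸ h1) ⟨t, rfl, ht.trans hcs, hpt⟩

theorem low [IsProbabilityMeasure μ] (h : Elliptic μ) (l : V d) (K L : ℕ)
    (A B : List (U d) → Finset (V d))
    (hA : ∀ s, Cr (Cone l K) l (3 * (L : ℤ)) s → ∀ a ∈ A s,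
      a ∈ tr s ∧ 2 * (L : ℤ) ≤ dot l a ∧ dot l a ≤ 3 * (L : ℤ))
    (hB : ∀ t, Cr (Cone (-l) K) (-l) (3 * (L : ℤ)) t → ∀ z ∈ B t,
      z ∈ tr t ∧ 2 * (L : ℤ) ≤ dot (-l) z ∧ dot (-l) z ≤ 3 * (L : ℤ)) :
    ∑' s, ∑' t, ind (Cr (Cone l K) l (3 * (L : ℤ)) s) * W μ s *
        (ind (Cr (Cone (-l) K) (-l) (3 * (L : ℤ)) t) * W μ t) *
        ((Finset.image₂ (fun a b => a - b) (A s) (B t)).card : ℝ≥0∞) ≤ Phi μ l K L := by
  classical
  have key : ∀ (y : V d) (t : List (U d)),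
      ∑' s, ind (Cr (Cone l K) l (3 * (L : ℤ)) s) * W μ s *
        (ind (Cr (Cone (-l) K) (-l) (3 * (L : ℤ)) t) * W μ t *
          ind (y ∈ Finset.image₂ (fun a b => a - b) (A s) (B t))) ≤
      ∑' c, ind (F0 l K L y c t) * W μ c * W μ t := by
    intro y t
    refine cover_le (cons_W h) (pf_cr _ _ _) _ (fun _ => W μ t) ?_
    intro s hs hne
    have ht : Cr (Cone (-l) K) (-l) (3 * (L : ℤ)) t := by
      by_contra hn
      exact hne (by rw [ind_neg hn]; simp)
    have hy : y ∈ Finset.image₂ (fun a b => a - b) (A s) (B t) := by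
      by_contra hn
      exact hne (by rw [ind_neg hn]; simp)
    obtain ⟨a, ha, b, hb, hab⟩ := Finset.mem_image₂.1 hy
    obtain ⟨a1, a2, a3⟩ := hA s hs a ha
    obtain ⟨b1, b2, b3⟩ := hB t ht b hb
    obtain ⟨r, hr, hra⟩ := mem_tr.1 a1
    have hp : disp r - y ∈ tr t := by
      rw [hra, ← hab]; simpa using b1
    obtain ⟨c, hcs, hc1, hc2⟩ := first_Low (fun r => disp r - y ∈ tr t) hr hp
    have hdot : dot l y = dot l a + dot (-l) b := by
      rw [← hab, dot_sub, dot_neg_left]; ring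
    refine ⟨c, ⟨by omega, by omega, ht, ⟨her_cone l K _ _ hcs hs.1, fun r' h1 h2 => ?_⟩,
      hc1, hc2⟩, hcs, ?_⟩
    · refine hs.2.2 r' (h1.trans hcs) fun e => h2 ?_
      subst e
      exact h1.eq_of_length (le_antisymm h1.length_le hcs.length_le)
    · rw [ind_pos ht, ind_pos hy]; simp
  calc _ = ∑' s, ∑' t, ∑' y : V d, ind (Cr (Cone l K) l (3 * (L : ℤ)) s) * W μ s *
        (ind (Cr (Cone (-l) K) (-l) (3 * (L : ℤ)) t) * W μ t *
          ind (y ∈ Finset.image₂ (fun a b => a - b) (A s) (B t))) := by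
        refine tsum_congr fun s => tsum_congr fun t => ?_
        rw [card_eq_Low, ENNReal.tsum_mul_left, ENNReal.tsum_mul_left, mul_assoc]
    _ = ∑' y : V d, ∑' t, ∑' s, ind (Cr (Cone l K) l (3 * (L : ℤ)) s) * W μ s *
        (ind (Cr (Cone (-l) K) (-l) (3 * (L : ℤ)) t) * W μ t *
          ind (y ∈ Finset.image₂ (fun a b => a - b) (A s) (B t))) := by
        rw [ENNReal.tsum_comm]
        refine (tsum_congr fun t => ENNReal.tsum_comm).trans ?_
        rw [ENNReal.tsum_comm]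
    _ ≤ ∑' y : V d, ∑' t, ∑' c, ind (F0 l K L y c t) * W μ c * W μ t :=
        ENNReal.tsum_le_tsum fun y => ENNReal.tsum_le_tsum fun t => key y t
    _ = Phi μ l K L := by
        refine tsum_congr fun y => ?_
        rw [ENNReal.tsum_comm]
        exact tsum_congr fun s => tsum_congr fun t => mul_assoc _ _ _

end Vale.Agent.P147
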