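import Vale.Agent.P147.PFm
import Vale.Agent.P147.Ind
import Vale.Agent.P147.NO

namespace Vale.Agent.P147

open MeasureTheory Filter Finset
open scoped ENNReal

variable {d : ℕ} {l : V d} {μ : Measure (U d → ℝ)}

theorem tsum_inj_Mass {α β : Type*} (C : α → Prop) (φ : α → β) (F : α → ℝ≥0∞) (g : β → ℝ≥0∞)
    (hinj : ∀ a a', C a → C a' → φ a = φ a' → a = a') (hF : ∀ a, C a → F a ≤ g (φ a)) :
    ∑' a, ind (C a) * F a ≤ ∑' b, g b := by
  classical
  have h1 : ∑' a, ind (C a) * F a = ∑' a : {a | C a}, F a := by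
    rw [_root_.tsum_subtype]
    refine tsum_congr fun a => ?_
    by_cases h : C a
    · rw [ind_pos h, one_mul, Set.indicator_of_mem (by exact h)]
    · rw [ind_neg h, zero_mul, Set.indicator_of_notMem (by exact h)]
  rw [h1]
  calc ∑' a : {a | C a}, F a ≤ ∑' a : {a | C a}, g (φ a) :=
        ENNReal.tsum_le_tsum fun a => hF a a.2
    _ ≤ ∑' b, g b :=
        ENNReal.tsum_comp_le_tsum_of_injective (f := fun a : {a | C a} => φ a)
          (fun a a' h => Subtype.ext (hinj a a' a.2 a'.2 h)) g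

theorem Pat.step_Mass [IsProbabilityMeasure μ] (p : Pat l) (x : V d) {n : ℝ≥0∞}
    (hn : ∀ lam : ℤ, n ≤ mass (W μ) (Cr (NN l) l lam)) {lam0 lam : ℤ} (hl : lam0 < lam) :
    (∑ e, W μ (p.P e)) * mass (W μ) (fun s => p.Irr x s ∧ lv l s + p.H ≤ lam0) * n ≤
      mass (W μ) (Cr (NN l) l lam) := by
  have key := tsum_inj_Mass
    (fun z : List (U d) × (Bool × Bool) × List (U d) =>
      (p.Irr x z.1 ∧ lv l z.1 + p.H ≤ lam0) ∧ Cr (NN l) l (lam - lv l z.1 - p.H) z.2.2)
    (fun z => z.1 ++ p.P z.2.1 ++ z.2.2)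
    (fun z => W μ z.1 * W μ (p.P z.2.1) * W μ z.2.2)
    (fun w => ind (Cr (NN l) l lam w) * W μ w) ?_ ?_
  · refine le_trans ?_ key
    rw [ENNReal.tsum_prod']
    unfold mass
    rw [← ENNReal.tsum_mul_left, ← ENNReal.tsum_mul_right]
    refine ENNReal.tsum_le_tsum fun s => ?_
    rw [ENNReal.tsum_prod', tsum_fintype, Finset.sum_mul, Finset.sum_mul]
    refine Finset.sum_le_sum fun e _ => ?_
    calc W μ (p.P e) * (ind (p.Irr x s ∧ lv l s + p.H ≤ lam0) * W μ s) * n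
        ≤ W μ (p.P e) * (ind (p.Irr x s ∧ lv l s + p.H ≤ lam0) * W μ s) *
            mass (W μ) (Cr (NN l) l (lam - lv l s - p.H)) := mul_le_mul_right (hn _) _
      _ = _ := by
          unfold mass
          rw [← ENNReal.tsum_mul_left]
          refine tsum_congr fun t => ?_
          simp only
          rw [ind_and (p.Irr x s ∧ lv l s + p.H ≤ lam0)]
          ring
  · rintro ⟨s, e, t⟩ ⟨s', e', t'⟩ ⟨⟨hs, -⟩, ht⟩ ⟨⟨hs', -⟩, ht'⟩ h
    simp only at hs ht hs' ht' h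
    obtain ⟨h1, h2⟩ := p.irr_unique hs hs' ht.1 ht'.1 h
    subst h1 h2
    rw [List.append_cancel_left h]
  · rintro ⟨s, e, t⟩ ⟨⟨hs, hlam⟩, ht⟩
    simp only at hs ht hlam ⊢
    have hsp : p.SpW x (s ++ p.P e) := ⟨s, e, rfl, hs.2.1, hs.2.2.1⟩
    have hrec := p.rec_spw hsp
    have hlv : lv l (s ++ p.P e) = lv l s + p.H := by rw [lv_append, p.lv_P]
    have hcr : Cr (NN l) l lam (s ++ p.P e ++ t) := by
      refine ⟨(hs.1.append (p.nn_P e)).append ht.1, ?_, fun r hr hne => ?_⟩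
      · have := ht.2.1
        rw [lv_append, hlv]
        omega
      · rcases pre_append hr with h | ⟨r', h1, -, rfl⟩
        · by_cases h2 : r = s ++ p.P e
          · rw [h2, hlv]
            omega
          · have := hrec r h h2
            omega
        · have h3 : r' ≠ t := fun h => hne (by rw [h])
          have := ht.2.2 r' h1 h3
          rw [lv_append, hlv]
          omega
    rw [ind_pos hcr, one_mul, W_regen hrec ht.1, W_regen hs.2.1 (p.nn_P e)]

theorem Pat.mass_irr [IsProbabilityMeasure μ] (p : Pat l) (h : Elliptic μ) {a : ℝ≥0∞}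
    (ha : a ≠ 0) (hN : ∀ lam : ℤ, a ≤ mass (W μ) (Cr (NN l) l lam)) (x : V d) :
    (∑ e, W μ (p.P e)) * mass (W μ) (p.Irr x) ≤ 1 := by
  set n : ℝ≥0∞ := ⨅ lam : ℤ, mass (W μ) (Cr (NN l) l lam) with hndef
  have hn : ∀ lam : ℤ, n ≤ mass (W μ) (Cr (NN l) l lam) := fun lam => iInf_le _ lam
  have hn0 : n ≠ 0 := fun h0 => ha (le_antisymm (h0 ▸ le_iInf hN) zero_le)
  have hn1 : n ≠ ⊤ := by
    have h1 : n ≤ 1 := (hn 0).trans ((mass_le (cons_W h) (pf_cr _ _ _)).trans W_nil.le)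
    exact ne_top_of_le_ne_top ENNReal.one_ne_top h1
  have hX : ∀ lam0 : ℤ,
      (∑ e, W μ (p.P e)) * mass (W μ) (fun s => p.Irr x s ∧ lv l s + p.H ≤ lam0) ≤ 1 := by
    intro lam0
    have h2 : (∑ e, W μ (p.P e)) * mass (W μ) (fun s => p.Irr x s ∧ lv l s + p.H ≤ lam0) * n
        ≤ 1 * n := by
      rw [one_mul]
      refine le_iInf fun lam => ?_
      have h3 : lam0 < max lam (lam0 + 1) := lt_of_lt_of_le (by omega) (le_max_right _ _)
      exact (p.step_Mass x hn h3).trans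
        (mass_cr_anti (cons_W h) (her_nn l) (le_max_left _ _))
    exact (ENNReal.mul_le_mul_iff_left hn0 hn1).1 h2
  unfold mass
  rw [ENNReal.tsum_eq_iSup_sum, ENNReal.mul_iSup]
  refine iSup_le fun F => ?_
  obtain ⟨lam0, hlam0⟩ := (F.image fun s => lv l s + p.H).bddAbove
  refine le_trans (mul_le_mul_right ?_ _) (hX lam0)
  unfold mass
  refine le_trans (Finset.sum_le_sum fun s hs => ?_) (ENNReal.sum_le_tsum F)
  refine mul_le_mul_left (ind_mono fun h1 => ⟨h1, ?_⟩) _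
  exact hlam0 (Finset.mem_coe.2 (Finset.mem_image_of_mem _ hs))

end Vale.Agent.P147
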