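import Vale.Agent.P147.Ind
import Vale.Agent.P147.NO

namespace Vale.Agent.P147

open MeasureTheory Filter Finset
open scoped ENNReal

variable {d : ℕ} {l : V d} {μ : Measure (U d → ℝ)}

theorem tsum_cover_Ren {α β : Type*} (f : α → ℝ≥0∞) (g : β → ℝ≥0∞) (φ : β → α)
    (h : ∀ a, f a ≠ 0 → ∃ b, φ b = a ∧ f a ≤ g b) : ∑' a, f a ≤ ∑' b, g b := by
  classical
  calc ∑' a, f a ≤ ∑' a, ∑' b, (if a = φ b then g b else 0) := by
        refine ENNReal.tsum_le_tsum fun a => ?_
        by_cases h0 : f a = 0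
        · rw [h0]; exact zero_le
        · obtain ⟨b, hb, hle⟩ := h a h0
          refine le_trans ?_ (ENNReal.le_tsum b)
          rw [if_pos hb.symm]; exact hle
    _ = ∑' b, ∑' a, (if a = φ b then g b else 0) := ENNReal.tsum_comm
    _ = ∑' b, g b := tsum_congr fun b => tsum_ite_eq _ _

theorem W_nil_Ren [IsProbabilityMeasure μ] : W μ [] = 1 := by
  haveI : IsProbabilityMeasure (envLaw μ) := by unfold envLaw; infer_instance
  simp [W, q]

theorem sum_Icc_Ren (f : ℕ → ℝ≥0∞) (m : ℕ) :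
    ∑ k ∈ Icc 1 m, f k = ∑ k ∈ range m, f (k + 1) := by
  induction m with
  | zero => simp
  | succ m ih => rw [Finset.sum_Icc_succ_top (by omega), ih, Finset.sum_range_succ]

theorem Pat.top_sum_Ren (p : Pat l) (S : Finset ℕ) (f : ℕ → V d → ℝ≥0∞) (x : V d) :
    p.Top μ (fun z => ∑ k ∈ S, f k z) x = ∑ k ∈ S, p.Top μ (f k) x := by
  unfold Pat.Top Pat.Aop
  rw [← Summable.tsum_finsetSum (fun _ _ => ENNReal.summable)]
  refine tsum_congr fun s => ?_
  rw [← Finset.mul_sum, Finset.sum_comm]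
  simp only [Finset.mul_sum]

theorem Pat.top_mono_Ren (p : Pat l) {f g : V d → ℝ≥0∞} (h : ∀ z, f z ≤ g z) (x : V d) :
    p.Top μ f x ≤ p.Top μ g x := by
  unfold Pat.Top Pat.Aop
  exact ENNReal.tsum_le_tsum fun s => mul_le_mul_right
    (Finset.sum_le_sum fun e _ => mul_le_mul_right (h _) _) _

theorem Pat.step_Ren [IsProbabilityMeasure μ] (p : Pat l) (ψ : V d → ℝ≥0∞) (m : ℕ) (x : V d) :
    ∑' w, ind (p.SpW x w ∧ NN l w ∧ lv l w ≤ (m + 1 : ℕ)) * W μ w * ψ (x + disp w) ≤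
      p.Top μ (fun y => ψ y +
        ∑' w, ind (p.SpW y w ∧ NN l w ∧ lv l w ≤ m) * W μ w * ψ (y + disp w)) x := by
  classical
  let g : List (U d) × (Bool × Bool) × List (U d) → ℝ≥0∞ := fun z =>
    ind (p.Irr x z.1) * W μ z.1 * (W μ (p.P z.2.1) *
      ((if z.2.2 = [] then ψ (x + disp z.1 + p.h0 + p.u z.2.1) else 0) +
        ind (p.SpW (x + disp z.1 + p.h0 + p.u z.2.1) z.2.2 ∧ NN l z.2.2 ∧ lv l z.2.2 ≤ m) *
          W μ z.2.2 * ψ (x + disp z.1 + p.h0 + p.u z.2.1 + disp z.2.2)))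
  refine (tsum_cover_Ren _ g (fun z => z.1 ++ p.P z.2.1 ++ z.2.2) ?_).trans (le_of_eq ?_)
  · intro w hw
    have hP : p.SpW x w ∧ NN l w ∧ lv l w ≤ (m + 1 : ℕ) := by
      by_contra hn
      rw [ind_neg hn] at hw
      simp at hw
    obtain ⟨h1, h2, h3⟩ := hP
    obtain ⟨s, e, t, rfl, hs, ht⟩ := p.first ⟨w, [], by simp, h1, fun t ht => by
      rw [List.prefix_nil.1 ht]; simp⟩ h2
    refine ⟨(s, e, t), rfl, ?_⟩
    have hsp : p.SpW x (s ++ p.P e) := ⟨s, e, rfl, hs.2.1, hs.2.2.1⟩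
    have hW : W μ (s ++ p.P e ++ t) = W μ s * W μ (p.P e) * W μ t := by
      rw [W_regen (p.rec_spw hsp) ht, W_regen hs.2.1 (p.nn_P e)]
    have hd : x + disp (s ++ p.P e) = x + disp s + p.h0 + p.u e := by
      rw [disp_append, p.disp_P]; abel
    have hd2 : x + disp (s ++ p.P e ++ t) = x + disp s + p.h0 + p.u e + disp t := by
      rw [disp_append, ← add_assoc, hd]
    simp only [g]
    rw [ind_pos ⟨h1, h2, h3⟩, ind_pos hs, hW, hd2]
    by_cases h0 : t = []
    · subst h0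
      rw [if_pos rfl, W_nil_Ren, disp_nil, add_zero]
      calc 1 * (W μ s * W μ (p.P e) * 1) * ψ (x + disp s + p.h0 + p.u e)
          = 1 * W μ s * (W μ (p.P e) * ψ (x + disp s + p.h0 + p.u e)) := by ring
        _ ≤ _ := mul_le_mul_right (mul_le_mul_right le_self_add _) _
    · have h4 := p.split hsp h1 h0
      rw [hd] at h4
      have h5 : lv l t ≤ m := by
        rw [lv_append, lv_append, p.lv_P] at h3
        have := hs.1 s (List.prefix_refl _)
        have := p.sb.1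
        have := p.hbH
        push_cast at h3
        omega
      rw [if_neg h0, ind_pos ⟨h4, ht, h5⟩]
      apply le_of_eq; ring
  · rw [ENNReal.tsum_prod']
    unfold Pat.Top Pat.Aop
    refine tsum_congr fun s => ?_
    simp only [g]
    rw [ENNReal.tsum_mul_left, ENNReal.tsum_prod', tsum_fintype]
    congr 1
    refine Finset.sum_congr rfl fun e _ => ?_
    simp only []
    rw [ENNReal.tsum_mul_left, ENNReal.tsum_add, tsum_ite_eq]

theorem Pat.renewal [IsProbabilityMeasure μ] (p : Pat l) (ψ : V d → ℝ≥0∞) (m : ℕ) (x : V d) :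
    ∑' w, ind (p.SpW x w ∧ NN l w ∧ lv l w ≤ m) * W μ w * ψ (x + disp w) ≤
      ∑ k ∈ Icc 1 m, (p.Top μ)^[k] ψ x := by
  induction m generalizing x with
  | zero =>
    refine le_of_eq_of_le ?_ zero_le
    refine ENNReal.tsum_eq_zero.2 fun w => ?_
    rw [ind_neg, zero_mul, zero_mul]
    rintro ⟨h1, h2, h3⟩
    have := p.one_le_lv_spw h1 h2
    push_cast at h3
    omega
  | succ m ih =>
    refine (p.step_Ren ψ m x).trans ?_
    have h1 : ∀ y, ψ y + ∑' w, ind (p.SpW y w ∧ NN l w ∧ lv l w ≤ m) * W μ w * ψ (y + disp w) ≤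
        ∑ k ∈ range (m + 1), (p.Top μ)^[k] ψ y := by
      intro y
      rw [Finset.sum_range_succ', add_comm]
      refine add_le_add ((ih y).trans (le_of_eq ?_)) le_rfl
      exact sum_Icc_Ren (fun k => (p.Top μ)^[k] ψ y) m
    refine (p.top_mono_Ren h1 x).trans (le_of_eq ?_)
    rw [p.top_sum_Ren, sum_Icc_Ren (fun k => (p.Top μ)^[k] ψ x)]
    refine Finset.sum_congr rfl fun k _ => ?_
    rw [Function.iterate_succ_apply']

end Vale.Agent.P147
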