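import Vale.Agent.P147.NO

namespace Vale.Agent.P147

open MeasureTheory Filter Finset
open scoped ENNReal

variable {d : ℕ} {l : V d} {μ : Measure (U d → ℝ)}

noncomputable def Pat.T0_TA (p : Pat l) (μ : Measure (U d → ℝ)) (φ : V d → ℝ≥0∞) (x : V d) :
    ℝ≥0∞ :=
  ∑' s, ind (p.Irr x s) * W μ s * φ (x + disp s + p.h0)

theorem Pat.comm_TA (p : Pat l) : Function.Commute (p.T0_TA μ) (p.Aop μ) := by
  intro φ
  funext z
  unfold Pat.T0_TA Pat.Aop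
  simp only [p.irr_lat (p.dot_u _)]
  simp only [← ENNReal.tsum_mul_left]
  rw [← Summable.tsum_finsetSum (fun _ _ => ENNReal.summable)]
  refine tsum_congr fun s => ?_
  rw [Finset.mul_sum]
  refine Finset.sum_congr rfl fun e _ => ?_
  rw [show z + p.u e + disp s + p.h0 = z + disp s + p.h0 + p.u e by abel]
  ring

theorem Pat.iter_TA (p : Pat l)
    (hm : ∀ x, (∑ e, W μ (p.P e)) * mass (W μ) (p.Irr x) ≤ 1) (c : ℝ≥0∞) (k : ℕ) :
    ∀ φ : V d → ℝ≥0∞, (∀ z, φ z ≤ (∑ e, W μ (p.P e)) ^ k * c) → ∀ x,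
      (p.T0_TA μ)^[k] φ x ≤ c := by
  induction k with
  | zero => intro φ h x; simpa using h x
  | succ k ih =>
    intro φ h x
    rw [Function.iterate_succ_apply]
    refine ih _ (fun z => ?_) x
    calc p.T0_TA μ φ z ≤ ∑' s, ind (p.Irr z s) * W μ s * ((∑ e, W μ (p.P e)) ^ (k + 1) * c) :=
          ENNReal.tsum_le_tsum fun s => mul_le_mul_right (h _) _
      _ = ((∑ e, W μ (p.P e)) * mass (W μ) (p.Irr z)) * ((∑ e, W μ (p.P e)) ^ k * c) := by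
          rw [ENNReal.tsum_mul_right, mass]; ring
      _ ≤ 1 * ((∑ e, W μ (p.P e)) ^ k * c) := mul_le_mul_left (hm z) _
      _ = _ := one_mul _

theorem Pat.top_iter (p : Pat l)
    (hm : ∀ x, (∑ e, W μ (p.P e)) * mass (W μ) (p.Irr x) ≤ 1)
    (ψ : V d → ℝ≥0∞) (k : ℕ) (c : ℝ≥0∞)
    (hc : ∀ z, (p.Aop μ)^[k] ψ z ≤ (∑ e, W μ (p.P e)) ^ k * c) (x : V d) :
    (p.Top μ)^[k] ψ x ≤ c := by
  have h1 : p.Top μ = p.T0_TA μ ∘ p.Aop μ := rfl
  rw [h1, (p.comm_TA (μ := μ)).comp_iterate]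
  exact p.iter_TA hm c k _ hc x

end Vale.Agent.P147
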