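import Vale.Agent.P147.Anti
import Vale.Agent.P147.Mass
import Vale.Agent.P147.TA
import Vale.Agent.P147.Ren
import Vale.Agent.P147.EnA
import Vale.Agent.P147.Alpha
import Vale.Agent.P147.Comb
import Vale.Agent.P147.Low

namespace Vale.Agent.P147

open MeasureTheory Filter Finset
open scoped ENNReal NNReal

variable {d : ℕ} {l : V d} {μ : Measure (U d → ℝ)}

theorem absorb_LowB {c D n Q Φ : ℝ≥0∞} (hc0 : c ≠ 0) (hc : c ≠ ⊤) (hD : D ≠ ⊤) (hn0 : n ≠ 0)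
    (hn : n ≠ ⊤) (hQ : Q ≠ ⊤)
    (h : ∀ θ : ℝ≥0∞, θ ≠ 0 → θ ≠ ⊤ → c * Q ≤ θ * Φ + θ⁻¹ * (D * n * Q)) :
    c ^ 2 / (4 * (D + 1)) * Q ≤ n * Φ := by
  by_cases hΦ : Φ = ⊤
  · rw [hΦ, ENNReal.mul_top hn0]; exact le_top
  lift c to ℝ≥0 using hc
  lift D to ℝ≥0 using hD
  lift n to ℝ≥0 using hn
  lift Q to ℝ≥0 using hQ
  lift Φ to ℝ≥0 using hΦ
  have hc1 : 0 < c := pos_iff_ne_zero.2 (by simpa using hc0)
  have hn1 : 0 < n := pos_iff_ne_zero.2 (by simpa using hn0)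
  set θ : ℝ≥0 := 2 * (D + 1) * n / c with hθ
  have hθ0 : 0 < θ := by positivity
  have h1 := h θ (by exact_mod_cast hθ0.ne') ENNReal.coe_ne_top
  rw [← ENNReal.coe_inv hθ0.ne'] at h1
  have h2 : c * Q ≤ θ * Φ + θ⁻¹ * (D * n * Q) := by exact_mod_cast h1
  have h4 : (4 * (D + 1) : ℝ≥0) ≠ 0 := by positivity
  have e : ((c : ℝ≥0∞) ^ 2 / (4 * (D + 1)) * Q) = ((c ^ 2 / (4 * (D + 1)) * Q : ℝ≥0) : ℝ≥0∞) := by
    rw [ENNReal.coe_mul, ENNReal.coe_div h4]; push_cast; rfl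
  rw [e, ← ENNReal.coe_mul, ENNReal.coe_le_coe]
  have h3 : ((c : ℝ) * Q) ≤ θ * Φ + (θ : ℝ)⁻¹ * (D * n * Q) := by exact_mod_cast h2
  have hcR : (0 : ℝ) < c := hc1
  have hnR : (0 : ℝ) < n := hn1
  have hDR : (0 : ℝ) ≤ D := D.2
  have hQR : (0 : ℝ) ≤ Q := Q.2
  have hθR : (θ : ℝ) = 2 * (D + 1) * n / c := by rw [hθ]; push_cast; rfl
  have h5 : (θ : ℝ)⁻¹ * (D * n * Q) ≤ c * Q / 2 := by
    rw [hθR, inv_div, div_mul_eq_mul_div, div_le_div_iff₀ (by positivity) (by norm_num)]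
    have : (0 : ℝ) ≤ c * n * Q := by positivity
    nlinarith
  have h6 : (c : ℝ) * Q / 2 ≤ θ * Φ := by linarith
  rw [← NNReal.coe_le_coe]
  push_cast
  rw [hθR] at h6
  rw [div_mul_eq_mul_div, div_le_iff₀ (by positivity)]
  rw [div_mul_eq_mul_div, div_le_div_iff₀ (by norm_num) hcR] at h6
  nlinarith

theorem green_LowB [IsProbabilityMeasure μ] (h : Elliptic μ) (p : Pat l) {a : ℝ≥0∞} (ha0 : a ≠ 0)
    (hN : ∀ lam : ℤ, a ≤ mass (W μ) (Cr (NN l) l lam)) :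
    ∃ C : ℝ≥0∞, C ≠ ⊤ ∧ ∀ G : Set (V d), LInj l G → ∀ (j : ℕ) (x : V d),
      ∑' w, ind (p.SpW x w ∧ NN l w ∧ lv l w ≤ ((16 ^ j : ℕ) : ℤ)) * W μ w * ind (disp w ∈ G) ≤
        C * (4 * ((j : ℝ≥0∞) + 1)) := by
  obtain ⟨C, hC, hA⟩ := p.anti h
  refine ⟨C, hC, fun G hG j x => ?_⟩
  have hG' : LInj l {z | z - x ∈ G} := by
    intro z hz z' hz' he
    have := hG _ hz _ hz' (by rw [dot_sub, dot_sub, he])
    simpa using this
  have h1 := p.renewal (μ := μ) (fun z => ind (z ∈ {z | z - x ∈ G})) (16 ^ j) x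
  simp only [Set.mem_setOf_eq, add_sub_cancel_left] at h1
  refine h1.trans (le_trans (Finset.sum_le_sum fun k hk => ?_) (harm_le C j))
  exact p.top_iter (fun x => p.mass_irr h ha0 hN x) _ k _
    (hA _ hG' k (Finset.mem_Icc.1 hk).1) x

theorem phi_lower [IsProbabilityMeasure μ] (h : Elliptic μ) (p : Pat l) (K : ℕ) {a : ℝ≥0∞}
    (ha0 : a ≠ 0) (ha : ∀ lam, a ≤ AA μ l K lam) (ha' : ∀ lam, a ≤ AA μ (-l) K lam) :
    ∃ K' : ℕ, ∃ c : ℝ≥0∞, c ≠ 0 ∧ ∃ j0 : ℕ, ∀ j : ℕ, j0 ≤ j →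
      c * ((16 ^ j : ℕ) : ℝ≥0∞) ^ 2 ≤ ((j : ℝ≥0∞) + 1) * Phi μ l K' (16 ^ j) := by
  classical
  obtain ⟨K', hK, c1, hc1, L0, hα⟩ := p.alpha h K ha0 ha
  obtain ⟨C, hC, hG⟩ := green_LowB h p ha0
    (fun lam => (ha lam).trans (mass_mono _ fun s hs => ⟨hs.1.nn, hs.2⟩))
  have hb1 := p.sb.1
  obtain ⟨bn, hbn⟩ : ∃ bn : ℕ, (bn : ℤ) = p.b := ⟨p.b.toNat, by omega⟩
  have hbn0 : bn ≠ 0 := by omega
  set c2 : ℝ≥0∞ := min 1 c1 * (min 1 a * (2 * (bn : ℝ≥0∞))⁻¹) with hc2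
  have hm0 : ∀ x : ℝ≥0∞, x ≠ 0 → min 1 x ≠ 0 := fun x hx => by
    rcases min_choice 1 x with h | h <;> rw [h]
    · exact one_ne_zero
    · exact hx
  have hmt : ∀ x : ℝ≥0∞, min 1 x ≠ ⊤ := fun x => ne_top_of_le_ne_top ENNReal.one_ne_top (min_le_left _ _)
  have h2b0 : (2 * (bn : ℝ≥0∞)) ≠ 0 := by simp [hbn0]
  have h2bt : (2 * (bn : ℝ≥0∞)) ≠ ⊤ := ENNReal.mul_ne_top (by simp) (by simp)
  have hc20 : c2 ≠ 0 := mul_ne_zero (hm0 _ hc1) (mul_ne_zero (hm0 _ ha0) (ENNReal.inv_ne_zero.2 h2bt))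
  have hc2t : c2 ≠ ⊤ := ENNReal.mul_ne_top (hmt _) (ENNReal.mul_ne_top (hmt _) (ENNReal.inv_ne_top.2 h2b0))
  set D : ℝ≥0∞ := 16 * (K' : ℝ≥0∞) ^ 2 + 64 * K' * C with hD
  have hDt : D ≠ ⊤ := by
    refine ENNReal.add_ne_top.2 ⟨ENNReal.mul_ne_top (by simp) (by simp), ?_⟩
    exact ENNReal.mul_ne_top (ENNReal.mul_ne_top (by simp) (by simp)) hC
  refine ⟨K', c2 ^ 2 / (4 * (D + 1)), ?_, max L0 (2 * bn), fun j hj => ?_⟩
  · refine ENNReal.div_ne_zero.2 ⟨pow_ne_zero _ hc20, ?_⟩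
    exact ENNReal.mul_ne_top (by simp) (ENNReal.add_ne_top.2 ⟨hDt, by simp⟩)
  set L : ℕ := 16 ^ j with hL
  have hjL : j ≤ L := (Nat.lt_pow_self (by norm_num)).le
  have hL0 : L0 ≤ L := (le_max_left _ _).trans (hj.trans hjL)
  have hLb : 2 * bn ≤ L := (le_max_right _ _).trans (hj.trans hjL)
  have hL1 : 1 ≤ L := Nat.one_le_pow _ _ (by norm_num)
  refine absorb_LowB hc20 hc2t hDt (by simp) (by simp) (by simp) fun θ hθ0 hθt => ?_
  have hBex : ∀ t : List (U d), ∃ B : Finset (V d), Cr (Cone (-l) K') (-l) (3 * (L : ℤ)) t →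
      (LInj (-l) (B : Set (V d)) ∧
      (∀ z ∈ B, z ∈ tr t ∧ 2 * (L : ℤ) ≤ dot (-l) z ∧ dot (-l) z ≤ 3 * (L : ℤ)) ∧
      (L : ℤ) ≤ p.b * ((B.card : ℤ) + 1)) := by
    intro t
    by_cases ht : Cr (Cone (-l) K') (-l) (3 * (L : ℤ)) t
    · obtain ⟨B, hB⟩ := exists_bsk p.sb.neg L ht
      exact ⟨B, fun _ => hB⟩
    · exact ⟨∅, fun h => absurd h ht⟩
  choose B hB using hBex
  set X : List (U d) → ℝ≥0∞ := fun s => ind (Cr (Cone l K') l (3 * (L : ℤ)) s) * W μ s with hX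
  set Y : List (U d) → ℝ≥0∞ := fun t => ind (Cr (Cone (-l) K') (-l) (3 * (L : ℤ)) t) * W μ t with hY
  have hX1 : ∑' s, X s ≤ 1 := (mass_le (cons_W h) (pf_cr _ _ _)).trans W_nil.le
  have hY1 : ∑' t, Y t ≤ 1 := (mass_le (cons_W h) (pf_cr _ _ _)).trans W_nil.le
  have hYa : a ≤ ∑' t, Y t := (ha' (3 * (L : ℤ))).trans (mass_mono _ fun s hs => ⟨hs.1.mono hK, hs.2⟩)
  have hsz : ∀ (l' : V d), SB l' p.b → ∀ s, Cr (Cone l' K') l' (3 * (L : ℤ)) s →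
      ((tr s).card : ℝ≥0∞) ≤ 4 * K' * L := by
    intro l' hl' s hs
    have h1 := card_pre hl' (by positivity) (K := K') (s := s) ⟨hs.1, hs.2.2⟩
    have h2 : (tr s).card ≤ 4 * K' * L := by
      have h3 : (K' : ℤ) * (3 * L + p.b) ≤ K' * (4 * L) :=
        mul_le_mul_of_nonneg_left (by omega) (by positivity)
      have h4 : ((tr s).card : ℤ) ≤ ((4 * K' * L : ℕ) : ℤ) := by push_cast; linarith
      exact_mod_cast h4
    exact_mod_cast h2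
  -- lower bound on the product
  have hβ : min 1 a * (2 * (bn : ℝ≥0∞))⁻¹ * L ≤ ∑' t, Y t * ((B t).card : ℝ≥0∞) := by
    have h1 : ∀ t, Y t * ((2 * (bn : ℝ≥0∞))⁻¹ * L) ≤ Y t * ((B t).card : ℝ≥0∞) := by
      intro t
      by_cases ht : Cr (Cone (-l) K') (-l) (3 * (L : ℤ)) t
      · refine mul_le_mul_right ?_ _
        have h2 := (hB t ht).2.2
        have h3 : L ≤ 2 * bn * (B t).card := by
          rw [← hbn] at h2
          have h4 : L ≤ bn * ((B t).card + 1) := by exact_mod_cast h2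
          rcases Nat.eq_zero_or_pos (B t).card with h0 | h0
          · rw [h0] at h4; omega
          · nlinarith
        have h5 : (L : ℝ≥0∞) ≤ 2 * bn * (B t).card := by exact_mod_cast h3
        calc (2 * (bn : ℝ≥0∞))⁻¹ * L ≤ (2 * (bn : ℝ≥0∞))⁻¹ * (2 * bn * (B t).card) :=
              mul_le_mul_right h5 _
          _ = (B t).card := by rw [← mul_assoc, ENNReal.inv_mul_cancel h2b0 h2bt, one_mul]
      · simp [hY, ind_neg ht]
    calc min 1 a * (2 * (bn : ℝ≥0∞))⁻¹ * L ≤ (∑' t, Y t) * ((2 * (bn : ℝ≥0∞))⁻¹ * L) := by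
          rw [mul_assoc]; exact mul_le_mul_left ((min_le_right _ _).trans hYa) _
      _ = ∑' t, Y t * ((2 * (bn : ℝ≥0∞))⁻¹ * L) := ENNReal.tsum_mul_right.symm
      _ ≤ _ := ENNReal.tsum_le_tsum h1
  have hprod : c2 * (L : ℝ≥0∞) ^ 2 ≤
      ∑' s, ∑' t, X s * Y t * (((p.sk L s).card : ℝ≥0∞) * (B t).card) := by
    calc c2 * (L : ℝ≥0∞) ^ 2 = (min 1 c1 * L) * (min 1 a * (2 * (bn : ℝ≥0∞))⁻¹ * L) := by
          rw [hc2]; ring
      _ ≤ (∑' s, X s * ((p.sk L s).card : ℝ≥0∞)) * ∑' t, Y t * ((B t).card : ℝ≥0∞) :=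
          mul_le_mul' ((mul_le_mul_left (min_le_right _ _) _).trans (hα L hL0)) hβ
      _ = _ := by
          rw [← ENNReal.tsum_mul_right]
          refine tsum_congr fun s => ?_
          rw [← ENNReal.tsum_mul_left]
          exact tsum_congr fun t => by ring
  have hlow : ∑' s, ∑' t, X s * Y t *
      ((Finset.image₂ (fun a b => a - b) (p.sk L s) (B t)).card : ℝ≥0∞) ≤ Phi μ l K' L :=
    low h l K' L (p.sk L) B (fun s _ a ha => by
      have := Finset.mem_filter.1 ha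
      exact ⟨this.1, this.2.1, this.2.2.1⟩) (fun t ht => (hB t ht).2.1)
  have hBl : ∀ t, Cr (Cone (-l) K') (-l) (3 * (L : ℤ)) t → LInj l (B t : Set (V d)) := by
    intro t ht z hz z' hz' he
    exact (hB t ht).1 z hz z' hz' (by rw [dot_neg_left, dot_neg_left, he])
  have hBc : ∀ t, Cr (Cone (-l) K') (-l) (3 * (L : ℤ)) t → ((B t).card : ℝ≥0∞) ≤ 4 * K' * L := by
    intro t ht
    refine le_trans ?_ (hsz _ p.sb.neg t ht)
    exact_mod_cast Finset.card_le_card fun z hz => ((hB t ht).2.1 z hz).1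
  have hAc : ∀ s, Cr (Cone l K') l (3 * (L : ℤ)) s → ((p.sk L s).card : ℝ≥0∞) ≤ 4 * K' * L := by
    intro s hs
    refine le_trans ?_ (hsz _ p.sb s hs)
    exact_mod_cast Finset.card_le_card (Finset.filter_subset _ _)
  have hdiag : ∑' s, ∑' t, X s * Y t * (((p.sk L s).card : ℝ≥0∞) * (B t).card) ≤
      16 * (K' : ℝ≥0∞) ^ 2 * L ^ 2 := by
    have h1 : ∀ s t, X s * Y t * (((p.sk L s).card : ℝ≥0∞) * (B t).card) ≤
        X s * (Y t * (16 * (K' : ℝ≥0∞) ^ 2 * L ^ 2)) := by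
      intro s t
      by_cases hs : Cr (Cone l K') l (3 * (L : ℤ)) s
      · by_cases ht : Cr (Cone (-l) K') (-l) (3 * (L : ℤ)) t
        · rw [mul_assoc]
          refine mul_le_mul_right (mul_le_mul_right ?_ _) _
          calc _ ≤ (4 * (K' : ℝ≥0∞) * L) * (4 * K' * L) := mul_le_mul' (hAc s hs) (hBc t ht)
            _ = _ := by ring
        · simp [hY, ind_neg ht]
      · simp [hX, ind_neg hs]
    calc _ ≤ ∑' s, ∑' t, X s * (Y t * (16 * (K' : ℝ≥0∞) ^ 2 * L ^ 2)) :=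
          ENNReal.tsum_le_tsum fun s => ENNReal.tsum_le_tsum (h1 s)
      _ = (∑' s, X s) * ((∑' t, Y t) * (16 * (K' : ℝ≥0∞) ^ 2 * L ^ 2)) := by
          simp only [ENNReal.tsum_mul_left, ENNReal.tsum_mul_right]
      _ ≤ 1 * (1 * (16 * (K' : ℝ≥0∞) ^ 2 * L ^ 2)) := mul_le_mul' hX1 (mul_le_mul_left hY1 _)
      _ = _ := by ring
  have hoff : ∑' s, ∑' t, X s * Y t *
      (2 * ∑ b ∈ B t, (cnt l (p.sk L s) {z | z + b ∈ B t} : ℝ≥0∞)) ≤
      64 * K' * C * ((j : ℝ≥0∞) + 1) * L ^ 2 := by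
    rw [ENNReal.tsum_comm]
    have h1 : ∀ t, ∑' s, X s * Y t *
        (2 * ∑ b ∈ B t, (cnt l (p.sk L s) {z | z + b ∈ B t} : ℝ≥0∞)) ≤
        Y t * (64 * K' * C * ((j : ℝ≥0∞) + 1) * L ^ 2) := by
      intro t
      by_cases ht : Cr (Cone (-l) K') (-l) (3 * (L : ℤ)) t
      · have h2 : ∀ b ∈ B t, ∑' s, X s * (cnt l (p.sk L s) {z | z + b ∈ B t} : ℝ≥0∞) ≤
            ((L : ℝ≥0∞) + 1) * (C * (4 * ((j : ℝ≥0∞) + 1))) := by
          intro b _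
          refine p.energy h (pf_cr _ _ _) L _ _ (fun x => hG _ ?_ j x)
          intro z hz z' hz' he
          have := hBl t ht _ hz _ hz' (by rw [dot_add, dot_add, he])
          simpa using this
        have h3 : (L : ℝ≥0∞) + 1 ≤ 2 * L := by
          have : L + 1 ≤ 2 * L := by omega
          exact_mod_cast this
        calc _ = Y t * (2 * ∑ b ∈ B t, ∑' s, X s * (cnt l (p.sk L s) {z | z + b ∈ B t} : ℝ≥0∞)) := by
              rw [← Summable.tsum_finsetSum (fun _ _ => ENNReal.summable), ← ENNReal.tsum_mul_left,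
                ← ENNReal.tsum_mul_left]
              refine tsum_congr fun s => ?_
              rw [← Finset.mul_sum]; ring
          _ ≤ Y t * (2 * ((B t).card * (((L : ℝ≥0∞) + 1) * (C * (4 * ((j : ℝ≥0∞) + 1)))))) := by
              refine mul_le_mul_right (mul_le_mul_right ?_ _) _
              exact (Finset.sum_le_card_nsmul _ _ _ h2).trans (by rw [nsmul_eq_mul])
          _ ≤ Y t * (2 * ((4 * K' * L) * ((2 * L) * (C * (4 * ((j : ℝ≥0∞) + 1)))))) :=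
              mul_le_mul_right (mul_le_mul_right (mul_le_mul' (hBc t ht) (mul_le_mul_left h3 _)) _) _
          _ = _ := by ring
      · simp [hY, ind_neg ht]
    calc _ ≤ ∑' t, Y t * (64 * K' * C * ((j : ℝ≥0∞) + 1) * L ^ 2) := ENNReal.tsum_le_tsum h1
      _ = (∑' t, Y t) * (64 * K' * C * ((j : ℝ≥0∞) + 1) * L ^ 2) := ENNReal.tsum_mul_right
      _ ≤ 1 * (64 * K' * C * ((j : ℝ≥0∞) + 1) * L ^ 2) := mul_le_mul_left hY1 _
      _ = _ := one_mul _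
  have hpt : ∀ s t, X s * Y t * (((p.sk L s).card : ℝ≥0∞) * (B t).card) ≤
      θ * (X s * Y t * ((Finset.image₂ (fun a b => a - b) (p.sk L s) (B t)).card : ℝ≥0∞)) +
      θ⁻¹ * (X s * Y t * (((p.sk L s).card : ℝ≥0∞) * (B t).card) +
        X s * Y t * (2 * ∑ b ∈ B t, (cnt l (p.sk L s) {z | z + b ∈ B t} : ℝ≥0∞))) := by
    intro s t
    by_cases ht : Cr (Cone (-l) K') (-l) (3 * (L : ℤ)) t
    · refine (mul_le_mul_right (comb l (p.sk L s) (B t) (hBl t ht) θ hθ0 hθt) _).trans (le_of_eq ?_)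
      ring
    · simp [hY, ind_neg ht]
  refine hprod.trans ((ENNReal.tsum_le_tsum fun s => ENNReal.tsum_le_tsum (hpt s)).trans ?_)
  simp only [ENNReal.tsum_add, ENNReal.tsum_mul_left (a := θ), ENNReal.tsum_mul_left (a := θ⁻¹)]
  refine add_le_add (mul_le_mul_right hlow _) (mul_le_mul_right ?_ _)
  refine (add_le_add hdiag hoff).trans ?_
  rw [hD, add_mul, add_mul]
  refine add_le_add (mul_le_mul_left ?_ _) le_rfl
  exact le_mul_of_one_le_right zero_le le_add_self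

end Vale.Agent.P147
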