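import Vale.Agent.P147.Def2

namespace Vale.Agent.P147

open MeasureTheory Filter Finset
open scoped ENNReal

variable {d : ℕ} {l : V d} {μ : Measure (U d → ℝ)}

theorem tsum_ext (f : List (U d) → ℝ≥0∞) (s : List (U d)) :
    ∑' t, ind (s <+: t) * f t = ∑' v, f (s ++ v) := by
  have hinj : Function.Injective (fun v : List (U d) => s ++ v) :=
    fun a b h => List.append_cancel_left h
  rw [← hinj.tsum_eq (f := fun t => ind (s <+: t) * f t)]
  · refine tsum_congr fun v => ?_
    rw [ind_pos (List.prefix_append s v), one_mul]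
  · intro t ht
    by_contra hn
    apply ht
    have : ¬ s <+: t := by
      rintro ⟨v, rfl⟩
      exact hn ⟨v, rfl⟩
    simp only [ind_neg this, zero_mul]

theorem Cons.shift {m : List (U d) → ℝ≥0∞} (hm : Cons m) (s : List (U d)) :
    Cons (fun v => m (s ++ v)) := by
  intro v
  simp only [← List.append_assoc]
  exact hm (s ++ v)

theorem tsum_list_PFm (f : List (U d) → ℝ≥0∞) :
    ∑' s, f s = f [] + ∑ e : U d, ∑' v, f (e :: v) := by
  have hinj : Function.Injective (fun p : U d × List (U d) => p.1 :: p.2) := by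
    rintro ⟨a, b⟩ ⟨a', b'⟩ h
    simp only [List.cons.injEq] at h
    exact Prod.ext h.1 h.2
  have h1 : ∀ s, f s = ind (s = []) * f s + ind (s ≠ []) * f s := by
    intro s
    by_cases h : s = []
    · rw [ind_pos h, ind_neg (not_not.2 h)]; simp
    · rw [ind_neg h, ind_pos h]; simp
  rw [tsum_congr h1, ENNReal.tsum_add]
  congr 1
  · rw [tsum_eq_single []]
    · rw [ind_pos rfl, one_mul]
    · intro s hs; rw [ind_neg hs, zero_mul]
  · rw [← hinj.tsum_eq (f := fun x => ind (x ≠ []) * f x)]
    · rw [ENNReal.tsum_prod', tsum_fintype]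
      refine Finset.sum_congr rfl fun e _ => tsum_congr fun v => ?_
      rw [ind_pos (List.cons_ne_nil _ _), one_mul]
    · intro t ht
      cases t with
      | nil => exact absurd (by simp [ind]) ht
      | cons a b => exact ⟨(a, b), rfl⟩

theorem len_sup_PFm (f : List (U d) → ℝ≥0∞) :
    ∑' s, f s = ⨆ n : ℕ, ∑' s, ind (s.length ≤ n) * f s := by
  apply le_antisymm
  · rw [ENNReal.tsum_eq_iSup_sum]
    refine iSup_le fun T => le_iSup_of_le (T.sup List.length) ?_
    refine le_trans (le_of_eq ?_) (ENNReal.sum_le_tsum T)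
    refine Finset.sum_congr rfl fun s hs => ?_
    rw [ind_pos (Finset.le_sup (f := List.length) hs), one_mul]
  · refine iSup_le fun n => ENNReal.tsum_le_tsum fun s => ?_
    exact mul_le_of_le_one_left' (ind_le_one _)

theorem mass_aux_PFm (n : ℕ) : ∀ (m : List (U d) → ℝ≥0∞) (F : List (U d) → Prop), Cons m → PF F →
    ∑' s, ind (s.length ≤ n) * (ind (F s) * m s) ≤ m [] := by
  have key : ∀ (k : ℕ) (m : List (U d) → ℝ≥0∞) (F : List (U d) → Prop), PF F → F [] →
      ∑' s, ind (s.length ≤ k) * (ind (F s) * m s) ≤ m [] := by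
    intro k m F hF h0
    rw [tsum_eq_single []]
    · exact (mul_le_of_le_one_left' (ind_le_one _)).trans (mul_le_of_le_one_left' (ind_le_one _))
    · intro s hs
      have : ¬ F s := fun h => hs (hF [] s h0 h (List.nil_prefix)).symm
      rw [ind_neg this, zero_mul, mul_zero]
  induction n with
  | zero =>
    intro m F _ hF
    by_cases h0 : F []
    · exact key 0 m F hF h0
    · rw [tsum_list_PFm, ind_neg h0]
      have : ∀ (e : U d) (v : List (U d)), ind ((e :: v).length ≤ 0) = 0 :=
        fun e v => ind_neg (by simp)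
      simp only [this, zero_mul, mul_zero, tsum_zero, Finset.sum_const_zero, add_zero]
      exact zero_le
  | succ n ih =>
    intro m F hm hF
    by_cases h0 : F []
    · exact key _ m F hF h0
    · rw [tsum_list_PFm, ind_neg h0, zero_mul, mul_zero, zero_add, ← hm []]
      refine Finset.sum_le_sum fun e _ => ?_
      have h1 := ih (fun v => m ([e] ++ v)) (fun v => F (e :: v)) (hm.shift [e]) (by
        intro a b ha hb hab
        have := hF _ _ ha hb ((List.prefix_cons_inj e).2 hab)
        simpa using this)
      refine le_trans (le_of_eq ?_) h1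
      refine tsum_congr fun v => ?_
      rw [ind_congr (show (e :: v).length ≤ n + 1 ↔ v.length ≤ n by simp)]
      rfl

theorem mass_le {m : List (U d) → ℝ≥0∞} (hm : Cons m) {F : List (U d) → Prop} (hF : PF F) :
    mass m F ≤ m [] := by
  unfold mass
  rw [len_sup_PFm]
  exact iSup_le fun n => mass_aux_PFm n m F hm hF

theorem ext_le {m : List (U d) → ℝ≥0∞} (hm : Cons m) {F : List (U d) → Prop} (hF : PF F)
    (s : List (U d)) : ∑' t, ind (F t ∧ s <+: t) * m t ≤ m s := by
  have h1 : ∀ t, ind (F t ∧ s <+: t) * m t = ind (s <+: t) * (ind (F t) * m t) := by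
    intro t; rw [ind_and]; ring
  simp only [h1]
  rw [tsum_ext (fun t => ind (F t) * m t) s]
  have h2 := mass_le (hm.shift s) (F := fun v => F (s ++ v)) (by
    intro a b ha hb hab
    exact List.append_cancel_left (hF _ _ ha hb ((List.prefix_append_right_inj s).2 hab)))
  simpa [mass] using h2

theorem cover_le {m : List (U d) → ℝ≥0∞} (hm : Cons m) {F G : List (U d) → Prop} (hF : PF F)
    (f g : List (U d) → ℝ≥0∞)
    (h : ∀ t, F t → f t ≠ 0 → ∃ c, G c ∧ c <+: t ∧ f t ≤ g c) :
    ∑' t, ind (F t) * m t * f t ≤ ∑' c, ind (G c) * m c * g c := by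
  calc ∑' t, ind (F t) * m t * f t
      ≤ ∑' t, ∑' c, ind (G c) * g c * (ind (F t ∧ c <+: t) * m t) := by
        refine ENNReal.tsum_le_tsum fun t => ?_
        by_cases hFt : F t
        · by_cases hf : f t = 0
          · rw [hf, mul_zero]; exact zero_le
          · obtain ⟨c, hc, hct, hle⟩ := h t hFt hf
            refine le_trans ?_ (ENNReal.le_tsum c)
            rw [ind_pos hFt, ind_pos hc, ind_pos (show F t ∧ c <+: t from ⟨hFt, hct⟩)]
            simp only [one_mul]
            rw [mul_comm]
            exact mul_le_mul_left hle _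
        · rw [ind_neg hFt, zero_mul, zero_mul]; exact zero_le
    _ = ∑' c, ind (G c) * g c * ∑' t, ind (F t ∧ c <+: t) * m t := by
        rw [ENNReal.tsum_comm]
        exact tsum_congr fun c => ENNReal.tsum_mul_left
    _ ≤ ∑' c, ind (G c) * m c * g c := by
        refine ENNReal.tsum_le_tsum fun c => ?_
        calc ind (G c) * g c * ∑' t, ind (F t ∧ c <+: t) * m t ≤ ind (G c) * g c * m c :=
              mul_le_mul_right (ext_le hm hF c) _
          _ = ind (G c) * m c * g c := by ring

theorem cover_mass {m : List (U d) → ℝ≥0∞} (hm : Cons m) {F G : List (U d) → Prop} (hF : PF F)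
    (h : ∀ t, F t → ∃ c, G c ∧ c <+: t) : mass m F ≤ mass m G := by
  have := cover_le hm hF (G := G) (fun _ => 1) (fun _ => 1) (fun t ht _ => by
    obtain ⟨c, hc, hct⟩ := h t ht
    exact ⟨c, hc, hct, le_rfl⟩)
  simpa [mass] using this

theorem pf_stop (p : List (U d) → Prop) (n : ℕ) : PF (Stop p n) := by
  intro s t hs ht hst
  by_contra hne
  have h1 := ht.2.1 s hst hne
  have h2 : s.length < t.length := lt_of_le_of_ne hst.length_le fun h => hne (hst.eq_of_length h)
  have h3 := ht.1
  rcases hs.2.2 with h | h
  · omega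
  · exact h h1

theorem stop_eq {m : List (U d) → ℝ≥0∞} (hm : Cons m) (p : List (U d) → Prop) (n : ℕ)
    {s : List (U d)} (hs : s.length ≤ n) (hp : ∀ t, t <+: s → t ≠ s → p t) :
    ∑' t, ind (Stop p n t ∧ s <+: t) * m t = m s := by
  obtain ⟨k, hk⟩ : ∃ k, n - s.length = k := ⟨_, rfl⟩
  have base : ∀ s : List (U d), Stop p n s →
      ∑' t, ind (Stop p n t ∧ s <+: t) * m t = m s := by
    intro s hst
    rw [tsum_eq_single s]
    · rw [ind_pos (show Stop p n s ∧ s <+: s from ⟨hst, List.prefix_refl _⟩), one_mul]
    · intro t ht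
      rw [ind_neg (fun h => ht (pf_stop p n s t hst h.1 h.2).symm), zero_mul]
  induction k generalizing s with
  | zero => exact base s ⟨hs, hp, Or.inl (by omega)⟩
  | succ k ih =>
    by_cases hps : p s
    swap
    · exact base s ⟨hs, hp, Or.inr hps⟩
    have hns : ¬ Stop p n s := by
      rintro ⟨-, -, h | h⟩
      · omega
      · exact h hps
    have h1 : ∀ t, ind (Stop p n t ∧ s <+: t) * m t =
        ∑ e : U d, ind (Stop p n t ∧ s ++ [e] <+: t) * m t := by
      intro t
      rw [← Finset.sum_mul]
      congr 1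
      by_cases ht : Stop p n t ∧ s <+: t
      · obtain ⟨ht1, v, rfl⟩ := ht
        cases v with
        | nil => exact absurd (by simpa using ht1) hns
        | cons e0 v =>
          rw [ind_pos (show Stop p n (s ++ e0 :: v) ∧ s <+: s ++ e0 :: v from
            ⟨ht1, List.prefix_append _ _⟩), Finset.sum_eq_single e0]
          · rw [ind_pos]
            exact ⟨ht1, v, by simp⟩
          · intro e _ hne
            refine ind_neg ?_
            rintro ⟨-, w, hw⟩
            rw [List.append_assoc] at hw
            have := List.append_cancel_left hw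
            simp only [List.cons_append, List.nil_append, List.cons.injEq] at this
            exact hne this.1
          · intro h; exact absurd (Finset.mem_univ _) h
      · rw [ind_neg ht]
        refine (Finset.sum_eq_zero fun e _ => ind_neg ?_).symm
        rintro ⟨h1, h2⟩
        exact ht ⟨h1, (List.prefix_append _ _).trans h2⟩
    simp only [h1]
    rw [Summable.tsum_finsetSum (fun _ _ => ENNReal.summable), ← hm s]
    refine Finset.sum_congr rfl fun e _ => ?_
    refine ih (s := s ++ [e]) (by simp; omega) ?_ (by simp; omega)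
    intro t ht hne
    rcases List.prefix_concat_iff.1 (by simpa using ht : t <+: s ++ [e]) with h | h
    · exact absurd h hne
    · by_cases hts : t = s
      · rw [hts]; exact hps
      · exact hp t h hts

theorem mass_cr_anti {m : List (U d) → ℝ≥0∞} (hm : Cons m) {g : List (U d) → Prop} (hg : Her g)
    {l1 l2 : ℤ} (h : l1 ≤ l2) : mass m (Cr g l l2) ≤ mass m (Cr g l l1) := by
  refine cover_mass hm (pf_cr g l l2) fun t ht => ?_
  exact exists_cr hg ht.1 (h.trans ht.2.1)

theorem tsum_eq_iSup_len (f : List (U d) → ℝ≥0∞) :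
    ∑' s, f s = ⨆ n : ℕ, ∑' s, ind (s.length ≤ n) * f s := by
  exact len_sup_PFm f

end Vale.Agent.P147
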