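import Vale.Agent.P147.Cyl

namespace Vale.Agent.P147

open MeasureTheory Filter Finset
open scoped ENNReal

variable {d : ℕ} {l : V d} {μ : Measure (U d → ℝ)}

theorem card_tr_right_Red (s t : List (U d)) : (tr t).card ≤ (tr (s ++ t)).card := by
  refine Finset.card_le_card_of_injOn (fun a => disp s + a) (fun a ha => ?_)
    (fun a _ b _ e => add_left_cancel e)
  obtain ⟨r, hr, rfl⟩ := mem_tr.1 (Finset.mem_coe.1 ha)
  exact Finset.mem_coe.2 (mem_tr.2 ⟨s ++ r, (List.prefix_append_right_inj s).2 hr, by simp⟩)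

theorem pre_wd_Red {s : ℕ → U d} {n : ℕ} {c : List (U d)} (h : c <+: wd s n) :
    c = wd s c.length := by
  have h1 : c.length ≤ n := by simpa [length_wd] using h.length_le
  rw [← take_wd s h1]
  exact List.prefix_iff_eq_take.1 h

def Ev_Red (l : V d) (w : List (U d)) (K : ℕ) : Set (ℕ → V d) :=
  {X | ∃ s : ℕ → U d, X = pos s ∧ w = wd s w.length ∧
    (∀ n, Cone l K (wd (fun i => s (w.length + i)) n)) ∧
    ∀ lam : ℤ, ∃ n, lam ≤ lv l (wd (fun i => s (w.length + i)) n)}

theorem mem_ev_Red (l : V d) (s : ℕ → U d)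
    (h1 : Tendsto (fun n => dot l (pos s n)) atTop atTop)
    (h2 : ∀ᶠ n in atTop, (((range (n + 1)).image (pos s)).card : ℤ) ≤ dot l (pos s n)) :
    ∃ w K, pos s ∈ Ev_Red l w K := by
  obtain ⟨t, ht⟩ : ∃ t, ∀ n, dot l (pos s t) ≤ dot l (pos s n) := by
    have := (Nat.cofinite_eq_atTop ▸ h1 : Tendsto (fun n => dot l (pos s n)) cofinite atTop)
    exact this.exists_forall_le
  obtain ⟨n0, hn0⟩ := eventually_atTop.1 h2
  have h0 : dot l (pos s t) ≤ 0 := by simpa [pos] using ht 0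
  have hlv : ∀ n, lv l (wd (fun i => s (t + i)) n) = dot l (pos s (t + n)) - dot l (pos s t) := by
    intro n
    rw [← disp_wd s (t + n), wd_add, disp_append, dot_add, disp_wd s t, lv]
    ring
  refine ⟨wd s t, n0 + 1, s, rfl, by rw [length_wd], ?_, ?_⟩
  · intro n c hc
    rw [length_wd] at hc
    rw [pre_wd_Red hc]
    generalize c.length = m
    have h3 := hlv m
    have h4 := ht (t + m)
    have h5 : (0 : ℤ) ≤ n0 := by positivity
    by_cases hm : n0 ≤ m
    · have h6 := hn0 (t + m) (by omega)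
      rw [← tr_wd, wd_add] at h6
      have h7 : ((tr (wd (fun i => s (t + i)) m)).card : ℤ) ≤
          (tr (wd s t ++ wd (fun i => s (t + i)) m)).card := by
        exact_mod_cast card_tr_right_Red _ _
      push_cast
      nlinarith
    · have h6 := card_tr_le (wd (fun i => s (t + i)) m)
      rw [length_wd] at h6
      have h7 : ((tr (wd (fun i => s (t + i)) m)).card : ℤ) ≤ n0 := by omega
      push_cast
      nlinarith
  · intro lam
    obtain ⟨n, hn⟩ := eventually_atTop.1 (tendsto_atTop.1 h1 lam)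
    refine ⟨n, ?_⟩
    rw [length_wd, hlv]
    have := hn (t + n) (by omega)
    omega

theorem red [IsProbabilityMeasure μ] (hd : 0 < d) (h : Elliptic μ) {P : Measure (ℕ → V d)}
    (hP : IsAnnealed μ P) (l : V d)
    (hpos : P {X | Tendsto (fun n => dot l (X n)) atTop atTop ∧
      ∀ᶠ n in atTop, (((range (n + 1)).image X).card : ℤ) ≤ dot l (X n)} ≠ 0) :
    ∃ K : ℕ, ∃ a : ℝ≥0∞, a ≠ 0 ∧ ∀ lam, a ≤ AA μ l K lam := by
  obtain ⟨w, K, hw⟩ : ∃ w K, P (Ev_Red l w K) ≠ 0 := by
    by_contra hc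
    push Not at hc
    apply hpos
    have h1 : ∀ᵐ X ∂P, ∀ w K, X ∉ Ev_Red l w K :=
      ae_all_iff.2 fun w => ae_all_iff.2 fun K => measure_eq_zero_iff_ae_notMem.1 (hc w K)
    refine measure_eq_zero_iff_ae_notMem.2 ?_
    filter_upwards [h1, ae_nn hd h hP] with X hX hs hm
    obtain ⟨s, rfl⟩ := hs
    obtain ⟨w, K, hw⟩ := mem_ev_Red l s hm.1 hm.2
    exact hX w K hw
  refine ⟨K, _, hw, fun lam => ?_⟩
  have hsub : Ev_Red l w K ⊆ ⋃ c, {X | Cr (Cone l K) l lam c ∧ X ∈ cyl (w ++ c)} := by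
    rintro X ⟨s, rfl, hw, hc, hl⟩
    obtain ⟨n, hn⟩ := hl lam
    obtain ⟨c, hcr, hcp⟩ := exists_cr (her_cone l K) (hc n) hn
    refine Set.mem_iUnion.2 ⟨c, hcr, ?_⟩
    have e : w ++ c = wd s (w.length + c.length) := by
      rw [wd_add, ← hw, ← pre_wd_Red hcp]
    rw [e]
    exact pos_mem_cyl _ _
  refine (measure_mono hsub).trans ((measure_iUnion_le _).trans (ENNReal.tsum_le_tsum fun c => ?_))
  by_cases hc : Cr (Cone l K) l lam c
  · rw [ind_pos hc, one_mul]
    refine (measure_mono (fun X hX => hX.2)).trans ?_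
    rw [meas_cyl hd hP]
    exact W_append_le h w c
  · simp [hc]

end Vale.Agent.P147
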