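import Vale.Agent.P147.Cyl

namespace Vale.Agent.P147

open MeasureTheory Filter Finset
open scoped ENNReal

variable {d : ℕ} {l : V d} {μ : Measure (U d → ℝ)}

theorem sum_abs_vec_Red2 (e : U d) : ∑ i, |vec e i| = 1 := by
  classical
  rw [Finset.sum_eq_single e.1]
  · rcases e with ⟨i, b⟩
    cases b <;> simp [vec]
  · intro j _ hj
    simp [vec, Pi.single_eq_of_ne hj]
  · simp

theorem ivt_Red2 (g : ℕ → ℤ) (h0 : g 0 = 0) (hs : ∀ n, g (n + 1) ≤ g n + 1) (n : ℕ) :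
    ∀ m : ℤ, 0 ≤ m → m ≤ g n → ∃ k ≤ n, g k = m := by
  induction n with
  | zero => intro m h1 h2; exact ⟨0, le_rfl, by omega⟩
  | succ n ih =>
    intro m h1 h2
    by_cases hm : m ≤ g n
    · obtain ⟨k, hk, e⟩ := ih m h1 hm
      exact ⟨k, by omega, e⟩
    · have := hs n
      exact ⟨n + 1, le_rfl, by omega⟩

theorem l1_le_card (s : ℕ → U d) (n : ℕ) :
    ∑ i, |pos s n i| ≤ (((range (n + 1)).image (pos s)).card : ℤ) := by
  classical
  have h0 : (fun k => ∑ i, |pos s k i|) 0 = 0 := by simp [pos]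
  have hs : ∀ k, (fun k => ∑ i, |pos s k i|) (k + 1) ≤ (fun k => ∑ i, |pos s k i|) k + 1 := by
    intro k
    have e : pos s (k + 1) = pos s k + vec (s k) := by simp [pos, Finset.sum_range_succ]
    simp only [e, Pi.add_apply]
    rw [← sum_abs_vec_Red2 (s k), ← Finset.sum_add_distrib]
    exact Finset.sum_le_sum fun i _ => abs_add_le _ _
  have hsub : Finset.Icc (0 : ℤ) (∑ i, |pos s n i|) ⊆
      ((range (n + 1)).image (pos s)).image (fun x : V d => ∑ i, |x i|) := by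
    intro m hm
    rw [Finset.mem_Icc] at hm
    obtain ⟨k, hk, e⟩ := ivt_Red2 _ h0 hs n m hm.1 hm.2
    exact Finset.mem_image.2 ⟨pos s k, Finset.mem_image.2 ⟨k, by simp; omega, rfl⟩, e⟩
  have h1 := (Finset.card_le_card hsub).trans Finset.card_image_le
  rw [Int.card_Icc] at h1
  omega

theorem key_Red2 (v : Fin d → ℝ) (l : V d) (k : ℕ)
    (hl : ∀ i, |(l i : ℝ) - 2 * ((k : ℝ) + 1) * v i| ≤ 1 / 2) (s : ℕ → U d)
    (h1 : pos s ∈ Esc v)
    (h2 : ∀ᶠ n in atTop, (1 / ((k : ℝ) + 1)) *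
      (((range (n + 1)).image (pos s)).card : ℝ) ≤ ip (pos s n) v) :
    Tendsto (fun n => dot l (pos s n)) atTop atTop ∧
      ∀ᶠ n in atTop, (((range (n + 1)).image (pos s)).card : ℤ) ≤ dot l (pos s n) := by
  have hk : (0 : ℝ) < (k : ℝ) + 1 := by positivity
  have hk0 : (0 : ℝ) ≤ (k : ℝ) := by positivity
  have main : ∀ᶠ n in atTop, ip (pos s n) v ≤ (dot l (pos s n) : ℝ) ∧
      (((range (n + 1)).image (pos s)).card : ℝ) ≤ (dot l (pos s n) : ℝ) := by
    filter_upwards [h2] with n hn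
    have a1 : ((∑ i, |pos s n i| : ℤ) : ℝ) ≤
        ((((range (n + 1)).image (pos s)).card : ℤ) : ℝ) := by
      exact_mod_cast l1_le_card s n
    push_cast at a1
    have a2 : 2 * ((k : ℝ) + 1) * ip (pos s n) v - (1 / 2) * ∑ i, |((pos s n i : ℤ) : ℝ)| ≤
        (dot l (pos s n) : ℝ) := by
      simp only [dot, ip, Finset.mul_sum]
      push_cast
      rw [← Finset.sum_sub_distrib]
      refine Finset.sum_le_sum fun i _ => ?_
      have b1 : |((l i : ℝ) - 2 * ((k : ℝ) + 1) * v i) * (pos s n i : ℝ)| ≤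
          1 / 2 * |((pos s n i : ℤ) : ℝ)| := by
        rw [abs_mul]
        exact mul_le_mul_of_nonneg_right (hl i) (abs_nonneg _)
      have b2 := neg_abs_le (((l i : ℝ) - 2 * ((k : ℝ) + 1) * v i) * (pos s n i : ℝ))
      nlinarith
    have a3 : (((range (n + 1)).image (pos s)).card : ℝ) ≤ ((k : ℝ) + 1) * ip (pos s n) v := by
      rw [one_div, inv_mul_le_iff₀ hk] at hn
      exact hn
    have a4 : (0 : ℝ) ≤ (((range (n + 1)).image (pos s)).card : ℝ) := by positivity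
    have a5 : 0 ≤ ip (pos s n) v := by
      by_contra hneg
      push Not at hneg
      nlinarith
    constructor
    · nlinarith
    · nlinarith
  constructor
  · have : Tendsto (fun n => ((dot l (pos s n) : ℤ) : ℝ)) atTop atTop :=
      tendsto_atTop_mono' atTop (main.mono fun n hn => hn.1) h1
    exact tendsto_intCast_atTop_iff.1 this
  · filter_upwards [main] with n hn
    exact_mod_cast hn.2

theorem thin_Red2 {P : Measure (ℕ → V d)} (v : Fin d → ℝ) (h1 : P (Esc v ∩ Thin v) ≠ 0) :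
    ∃ k : ℕ, ∀ k' : ℕ, k ≤ k' → P (Esc v ∩ {X | ∀ᶠ n in atTop, (1 / ((k' : ℝ) + 1)) *
      (((range (n + 1)).image X).card : ℝ) ≤ ip (X n) v}) ≠ 0 := by
  have mono : ∀ (c c' : ℝ), c' ≤ c → ∀ X : ℕ → V d, (∀ᶠ n in atTop, c *
      (((range (n + 1)).image X).card : ℝ) ≤ ip (X n) v) → ∀ᶠ n in atTop, c' *
      (((range (n + 1)).image X).card : ℝ) ≤ ip (X n) v := by
    intro c c' hc X hX
    filter_upwards [hX] with n hn
    exact (mul_le_mul_of_nonneg_right hc (by positivity)).trans hn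
  have hex : ∃ k : ℕ, P (Esc v ∩ {X | ∀ᶠ n in atTop, (1 / ((k : ℝ) + 1)) *
      (((range (n + 1)).image X).card : ℝ) ≤ ip (X n) v}) ≠ 0 := by
    by_contra hno
    push Not at hno
    apply h1
    refine measure_mono_null ?_ (measure_iUnion_null hno)
    rintro X ⟨hX, c, hc, hT⟩
    obtain ⟨k, hk⟩ := exists_nat_one_div_lt hc
    exact Set.mem_iUnion.2 ⟨k, hX, mono c _ hk.le X hT⟩
  obtain ⟨k, hk⟩ := hex
  refine ⟨k, fun k' hk' h0 => hk (measure_mono_null ?_ h0)⟩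
  rintro X ⟨hX, hT⟩
  refine ⟨hX, mono _ _ ?_ X hT⟩
  have : (k : ℝ) ≤ k' := by exact_mod_cast hk'
  exact one_div_le_one_div_of_le (by positivity) (by linarith)

theorem red2 [IsProbabilityMeasure μ] (hd : 0 < d) (h : Elliptic μ) {P : Measure (ℕ → V d)}
    (hP : IsAnnealed μ P) (v : Fin d → ℝ) (h1 : P (Esc v ∩ Thin v) ≠ 0)
    (h2 : P (Esc (-v) ∩ Thin (-v)) ≠ 0) :
    ∃ l : V d, P {X | Tendsto (fun n => dot l (X n)) atTop atTop ∧
        ∀ᶠ n in atTop, (((range (n + 1)).image X).card : ℤ) ≤ dot l (X n)} ≠ 0 ∧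
      P {X | Tendsto (fun n => dot (-l) (X n)) atTop atTop ∧
        ∀ᶠ n in atTop, (((range (n + 1)).image X).card : ℤ) ≤ dot (-l) (X n)} ≠ 0 := by
  obtain ⟨k1, hk1⟩ := thin_Red2 v h1
  obtain ⟨k2, hk2⟩ := thin_Red2 (-v) h2
  have gen : ∀ (u : Fin d → ℝ) (l : V d) (k : ℕ),
      (∀ i, |(l i : ℝ) - 2 * ((k : ℝ) + 1) * u i| ≤ 1 / 2) →
      P (Esc u ∩ {X | ∀ᶠ n in atTop, (1 / ((k : ℝ) + 1)) *
        (((range (n + 1)).image X).card : ℝ) ≤ ip (X n) u}) ≠ 0 →
      P {X | Tendsto (fun n => dot l (X n)) atTop atTop ∧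
        ∀ᶠ n in atTop, (((range (n + 1)).image X).card : ℤ) ≤ dot l (X n)} ≠ 0 := by
    intro u l k hl hne h0
    apply hne
    refine le_antisymm (le_trans (measure_mono_ae ?_) h0.le) zero_le
    filter_upwards [ae_nn hd h hP] with X hX
    obtain ⟨s, rfl⟩ := hX
    intro hs
    exact key_Red2 u l k hl s hs.1 hs.2
  have hr : ∀ i, |((round (2 * (((max k1 k2 : ℕ) : ℝ) + 1) * v i) : ℤ) : ℝ) -
      2 * (((max k1 k2 : ℕ) : ℝ) + 1) * v i| ≤ 1 / 2 := fun i => by
    rw [abs_sub_comm]; exact abs_sub_round _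
  refine ⟨fun i => round (2 * (((max k1 k2 : ℕ) : ℝ) + 1) * v i),
    gen v _ (max k1 k2) hr (hk1 _ (le_max_left _ _)),
    gen (-v) _ (max k1 k2) (fun i => ?_) (hk2 _ (le_max_right _ _))⟩
  have := hr i
  rw [← abs_neg] at this
  refine le_trans (le_of_eq ?_) this
  simp only [Pi.neg_apply]
  push_cast
  congr 1
  ring

theorem ballistic_subset (v : Fin d → ℝ) : Ballistic v ⊆ Esc v ∩ Thin v := by
  rintro X ⟨c, hc, hX⟩
  constructor
  · exact tendsto_atTop_mono' atTop hX (tendsto_natCast_atTop_atTop.const_mul_atTop hc)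
  · refine ⟨c / 2, by positivity, ?_⟩
    filter_upwards [hX, eventually_ge_atTop 1] with n hn h1
    have a1 : ((range (n + 1)).image X).card ≤ n + 1 :=
      Finset.card_image_le.trans (by simp)
    have a2 : (((range (n + 1)).image X).card : ℝ) ≤ (n : ℝ) + 1 := by exact_mod_cast a1
    have a3 : (1 : ℝ) ≤ n := by exact_mod_cast h1
    nlinarith

end Vale.Agent.P147
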