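import Vale.Agent.P147.Cyl
import Vale.Agent.P147.Ind

namespace Vale.Agent.P147

open MeasureTheory Filter Finset
open scoped ENNReal

variable {d : ℕ} {l : V d} {μ : Measure (U d → ℝ)}

/-- the path seen from time `k` -/
def th_Tail (k : ℕ) (X : ℕ → V d) : ℕ → V d := fun n => X (k + n) - X k

/-- the event depends on the coordinates up to time `n` only -/
def Dep_Tail (n : ℕ) (B : Set (ℕ → V d)) : Prop :=
  ∀ X Y : ℕ → V d, (∀ i ≤ n, X i = Y i) → X ∈ B → Y ∈ B

theorem measurable_th_Tail (k : ℕ) : Measurable (th_Tail k : (ℕ → V d) → ℕ → V d) := by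
  refine measurable_pi_lambda _ fun n => ?_
  exact (measurable_pi_apply (k + n)).sub (measurable_pi_apply k)

theorem th_pos_Tail (s : ℕ → U d) (k : ℕ) : th_Tail k (pos s) = pos (fun i => s (k + i)) := by
  funext n
  simp only [th_Tail, pos]
  rw [Finset.sum_range_add]
  simp

theorem Dep_Tail.mono {n m : ℕ} {B : Set (ℕ → V d)} (h : Dep_Tail n B) (hnm : n ≤ m) :
    Dep_Tail m B := fun X Y hXY hX => h X Y (fun i hi => hXY i (hi.trans hnm)) hX

theorem cyl_sub_Tail {n : ℕ} {B : Set (ℕ → V d)} (hB : Dep_Tail n B) {t : List (U d)}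
    (ht : n ≤ t.length) {X : ℕ → V d} (hX : X ∈ cyl t) (hXB : X ∈ B) : cyl t ⊆ B := by
  intro Y hY
  refine hB X Y (fun i hi => ?_) hXB
  rw [hX i (hi.trans ht), hY i (hi.trans ht)]

theorem mem_cyl_append_Tail {w t : List (U d)} {X : ℕ → V d} (h : X ∈ cyl (w ++ t)) :
    X ∈ cyl w ∧ th_Tail w.length X ∈ cyl t := by
  constructor
  · intro i hi
    rw [h i (by simp; omega), List.take_append_of_le_length hi]
  · intro i hi
    simp only [th_Tail]
    rw [h (w.length + i) (by simp; omega), h w.length (by simp)]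
    rw [List.take_length_add_append, List.take_left']
    · simp
    · rfl

theorem aedisj_Tail [IsProbabilityMeasure μ] (hd : 0 < d) (h : Elliptic μ)
    {P : Measure (ℕ → V d)} (hP : IsAnnealed μ P) {a b : List (U d)}
    (hab : ¬ a <+: b) (hba : ¬ b <+: a) : AEDisjoint P (cyl a) (cyl b) := by
  have hae := ae_nn hd h hP
  rw [ae_iff] at hae
  refine measure_mono_null ?_ hae
  rintro X ⟨ha, hb⟩ ⟨s, rfl⟩
  have h1 := eq_wd_of_mem_cyl ha
  have h2 := eq_wd_of_mem_cyl hb
  rcases le_total a.length b.length with hl | hl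
  · apply hab
    rw [h1, h2, ← take_wd s hl]
    exact List.take_prefix _ _
  · apply hba
    rw [h1, h2, ← take_wd s hl]
    exact List.take_prefix _ _

theorem dep_sum_Tail [IsProbabilityMeasure μ] (hd : 0 < d) (h : Elliptic μ)
    {P : Measure (ℕ → V d)} (hP : IsAnnealed μ P) (w : List (U d)) {n : ℕ}
    {D : Set (ℕ → V d)} (hD : Dep_Tail n D) :
    P (cyl w ∩ th_Tail w.length ⁻¹' D) =
      ∑' t : {t : List (U d) | t.length = n ∧ cyl t ⊆ D}, W μ (w ++ t.1) := by
  have h1 : P (cyl w ∩ th_Tail w.length ⁻¹' D) =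
      P (⋃ t ∈ {t : List (U d) | t.length = n ∧ cyl t ⊆ D}, cyl (w ++ t)) := by
    apply measure_congr
    filter_upwards [ae_nn hd h hP] with X hX
    obtain ⟨s, rfl⟩ := hX
    apply propext
    constructor
    · rintro ⟨hw, hθ⟩
      have h1 := eq_wd_of_mem_cyl hw
      rw [Set.mem_preimage, th_pos_Tail] at hθ
      refine Set.mem_biUnion (x := wd (fun i => s (w.length + i)) n) ⟨length_wd _ _, ?_⟩ ?_
      · exact cyl_sub_Tail hD (by rw [length_wd]) (pos_mem_cyl _ _) hθ
      · have h2 := pos_mem_cyl s (w.length + n)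
        rw [wd_add, ← h1] at h2
        exact h2
    · intro hX
      obtain ⟨t, ht, hXt⟩ := Set.mem_iUnion₂.1 hX
      have := mem_cyl_append_Tail hXt
      exact ⟨this.1, ht.2 this.2⟩
  rw [h1, measure_biUnion₀ (Set.to_countable _)]
  · exact tsum_congr fun t => meas_cyl hd hP _
  · intro a ha b hb hab
    refine aedisj_Tail hd h hP ?_ ?_
    · intro hp
      exact hab (((List.prefix_append_right_inj w).1 hp).eq_of_length (ha.1.trans hb.1.symm))
    · intro hp
      exact hab (((List.prefix_append_right_inj w).1 hp).eq_of_length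
        (hb.1.trans ha.1.symm)).symm
  · intro b _
    exact (measurableSet_cyl _).nullMeasurableSet

theorem dep_sum0_Tail [IsProbabilityMeasure μ] (hd : 0 < d) (h : Elliptic μ)
    {P : Measure (ℕ → V d)} (hP : IsAnnealed μ P) {n : ℕ}
    {D : Set (ℕ → V d)} (hD : Dep_Tail n D) :
    P D = ∑' t : {t : List (U d) | t.length = n ∧ cyl t ⊆ D}, W μ t.1 := by
  have h1 := dep_sum_Tail hd h hP [] hD
  simp only [List.nil_append] at h1
  rw [← h1]
  apply measure_congr
  filter_upwards [ae_nn hd h hP] with X hX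
  obtain ⟨s, rfl⟩ := hX
  apply propext
  have h2 : th_Tail ([] : List (U d)).length (pos s) = pos s := by
    rw [th_pos_Tail]; simp
  constructor
  · intro hX
    refine ⟨?_, ?_⟩
    · have := pos_mem_cyl s 0
      simpa [wd] using this
    · show th_Tail ([] : List (U d)).length (pos s) ∈ D
      rw [h2]; exact hX
  · rintro ⟨-, hX⟩
    have h3 : th_Tail ([] : List (U d)).length (pos s) ∈ D := hX
    rw [h2] at h3; exact h3

theorem approx_Tail (ν : Measure (ℕ → V d)) [IsFiniteMeasure ν] {E : Set (ℕ → V d)}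
    (hE : MeasurableSet E) {ε : ℝ≥0∞} (hε : 0 < ε) :
    ∃ (m : ℕ) (B : Set (ℕ → V d)), Dep_Tail m B ∧ MeasurableSet B ∧ ν (symmDiff B E) < ε := by
  obtain ⟨B, hB, hlt⟩ := exists_measure_symmDiff_lt_of_generateFrom_isSetRing (μ := ν)
    (C := measurableCylinders fun _ : ℕ => V d) isSetRing_measurableCylinders
    ⟨{Set.univ}, Set.countable_singleton _, by
      simpa using univ_mem_measurableCylinders (fun _ : ℕ => V d), by simp⟩
    generateFrom_measurableCylinders.symm hE hε
  refine ⟨(measurableCylinders.finset hB).sup id, B, ?_, .of_mem_measurableCylinders hB, hlt⟩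
  intro X Y hXY hX
  rw [measurableCylinders.eq_cylinder hB, mem_cylinder] at hX ⊢
  have : (measurableCylinders.finset hB).restrict Y = (measurableCylinders.finset hB).restrict X := by
    funext i
    exact (hXY i.1 (Finset.le_sup (f := id) i.2)).symm
  rw [this]; exact hX

theorem le_of_dep_Tail (ν1 ν2 : Measure (ℕ → V d)) [IsFiniteMeasure ν1] [IsFiniteMeasure ν2]
    (hle : ∀ (m : ℕ) (B : Set (ℕ → V d)), Dep_Tail m B → MeasurableSet B → ν1 B ≤ ν2 B)
    {E : Set (ℕ → V d)} (hE : MeasurableSet E) : ν1 E ≤ ν2 E := by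
  refine ENNReal.le_of_forall_pos_le_add fun ε hε _ => ?_
  obtain ⟨m, B, hB, mB, hlt⟩ := approx_Tail (ν1 + ν2) hE (ε := ε) (by exact_mod_cast hε)
  rw [Measure.add_apply] at hlt
  have h1 : ν1 E ≤ ν1 B + ν1 (symmDiff B E) := by
    refine (measure_mono ?_).trans (measure_union_le _ _)
    intro X hX
    by_cases hb : X ∈ B
    · exact Or.inl hb
    · exact Or.inr (Or.inr ⟨hX, hb⟩)
  have h2 : ν2 B ≤ ν2 E + ν2 (symmDiff B E) := by
    refine (measure_mono ?_).trans (measure_union_le _ _)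
    intro X hX
    by_cases hb : X ∈ E
    · exact Or.inl hb
    · exact Or.inr (Or.inl ⟨hX, hb⟩)
  calc ν1 E ≤ ν1 B + ν1 (symmDiff B E) := h1
    _ ≤ (ν2 E + ν2 (symmDiff B E)) + ν1 (symmDiff B E) :=
        add_le_add_left ((hle m B hB mB).trans h2) _
    _ = ν2 E + (ν1 (symmDiff B E) + ν2 (symmDiff B E)) := by ring
    _ ≤ ν2 E + ε := add_le_add_right hlt.le _

theorem measurableSet_nnk_Tail (l : V d) (i : ℕ) :
    MeasurableSet {Y : ℕ → V d | 0 ≤ dot l (Y i)} := by
  have h : MeasurableSet {y : V d | 0 ≤ dot l y} := MeasurableSet.of_discrete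
  exact measurable_pi_apply (X := fun _ : ℕ => V d) i h

theorem measurableSet_nn_Tail (l : V d) :
    MeasurableSet {Y : ℕ → V d | ∀ n, 0 ≤ dot l (Y n)} := by
  rw [Set.setOf_forall]
  exact MeasurableSet.iInter fun i => measurableSet_nnk_Tail l i

theorem lim_Tail (ν : Measure (ℕ → V d)) [IsFiniteMeasure ν] (l : V d) {B : Set (ℕ → V d)}
    (mB : MeasurableSet B) (m : ℕ) :
    ν (B ∩ {Y | ∀ n, 0 ≤ dot l (Y n)}) =
      ⨅ k : ℕ, ν (B ∩ {Y | ∀ n ≤ m + k, 0 ≤ dot l (Y n)}) := by
  have h1 : B ∩ {Y | ∀ n, 0 ≤ dot l (Y n)} =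
      ⋂ k : ℕ, (B ∩ {Y | ∀ n ≤ m + k, 0 ≤ dot l (Y n)}) := by
    ext Y
    simp only [Set.mem_inter_iff, Set.mem_setOf_eq, Set.mem_iInter]
    constructor
    · rintro ⟨h1, h2⟩ k
      exact ⟨h1, fun n _ => h2 n⟩
    · intro h
      exact ⟨(h 0).1, fun n => (h n).2 n (by omega)⟩
  rw [h1]
  refine Antitone.measure_iInter ?_ (fun k => ?_) ⟨0, measure_ne_top _ _⟩
  · intro a b hab Y hY
    exact ⟨hY.1, fun n hn => hY.2 n (by omega)⟩
  · refine (mB.inter ?_).nullMeasurableSet
    have : {Y : ℕ → V d | ∀ n ≤ m + k, 0 ≤ dot l (Y n)} =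
        ⋂ n ∈ Set.Iic (m + k), {Y : ℕ → V d | 0 ≤ dot l (Y n)} := by
      ext Y; simp
    rw [this]
    exact MeasurableSet.biInter (Set.to_countable _) fun i _ => measurableSet_nnk_Tail l i

theorem nn_of_sub_Tail (hd : 0 < d) {t : List (U d)} {n : ℕ} (hn : t.length ≤ n)
    (h : cyl t ⊆ {Y | ∀ i ≤ n, 0 ≤ dot l (Y i)}) : NN l t := by
  intro r hr
  have hX : (fun i => disp (t.take i)) ∈ cyl t := fun i _ => rfl
  have h1 := h hX r.length (hr.length_le.trans hn)
  rw [List.prefix_iff_eq_take] at hr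
  rw [lv, hr]
  exact h1

/-- regeneration at a record for an arbitrary measurable future event -/
theorem regen_event [IsProbabilityMeasure μ] (hd : 0 < d) (h : Elliptic μ)
    {P : Measure (ℕ → V d)} (hP : IsAnnealed μ P) {w : List (U d)} (hw : Rec l w)
    {E : Set (ℕ → V d)} (hE : MeasurableSet E) :
    P (cyl w ∩ {X | (fun n => X (w.length + n) - X w.length) ∈
        E ∩ {Y | ∀ n, 0 ≤ dot l (Y n)}}) =
      W μ w * P (E ∩ {Y | ∀ n, 0 ≤ dot l (Y n)}) := by
  haveI := hP.1
  have hWt : W μ w ≠ ⊤ := ne_top_of_le_ne_top ENNReal.one_ne_top (W_le_one h w)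
  set N : Set (ℕ → V d) := {Y | ∀ n, 0 ≤ dot l (Y n)} with hN
  have mN : MeasurableSet N := measurableSet_nn_Tail l
  set ν0 : Measure (ℕ → V d) := (P.restrict (cyl w)).map (th_Tail w.length) with hν0
  have e0 : ∀ B : Set (ℕ → V d), MeasurableSet B →
      ν0 B = P (cyl w ∩ th_Tail w.length ⁻¹' B) := by
    intro B mB
    rw [hν0, Measure.map_apply (measurable_th_Tail _) mB,
      Measure.restrict_apply (measurable_th_Tail _ mB), Set.inter_comm]
  haveI : IsFiniteMeasure (W μ w • P.restrict N) := by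
    constructor
    rw [Measure.smul_apply, smul_eq_mul]
    exact ENNReal.mul_lt_top hWt.lt_top (measure_lt_top _ _)
  have key : ∀ (m : ℕ) (B : Set (ℕ → V d)), Dep_Tail m B → MeasurableSet B →
      ν0.restrict N B = (W μ w • P.restrict N) B := by
    intro m B hB mB
    rw [Measure.smul_apply, smul_eq_mul, Measure.restrict_apply mB, Measure.restrict_apply mB,
      hN, lim_Tail ν0 l mB m, lim_Tail P l mB m,
      ENNReal.mul_iInf (fun h => absurd h hWt)]
    refine iInf_congr fun k => ?_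
    have hD : Dep_Tail (m + k) (B ∩ {Y | ∀ n ≤ m + k, 0 ≤ dot l (Y n)}) := by
      intro X Y hXY hX
      refine ⟨hB X Y (fun i hi => hXY i (by omega)) hX.1, fun n hn => ?_⟩
      rw [← hXY n hn]; exact hX.2 n hn
    have mD : MeasurableSet (B ∩ {Y : ℕ → V d | ∀ n ≤ m + k, 0 ≤ dot l (Y n)}) := by
      refine mB.inter ?_
      have : {Y : ℕ → V d | ∀ n ≤ m + k, 0 ≤ dot l (Y n)} =
          ⋂ n ∈ Set.Iic (m + k), {Y : ℕ → V d | 0 ≤ dot l (Y n)} := by
        ext Y; simp
      rw [this]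
      exact MeasurableSet.biInter (Set.to_countable _) fun i _ => measurableSet_nnk_Tail l i
    rw [e0 _ mD, dep_sum_Tail hd h hP w hD, dep_sum0_Tail hd h hP hD, ← ENNReal.tsum_mul_left]
    refine tsum_congr fun t => W_regen hw ?_
    exact nn_of_sub_Tail hd t.2.1.le (t.2.2.trans Set.inter_subset_right)
  have h1 := le_of_dep_Tail (ν0.restrict N) (W μ w • P.restrict N)
    (fun m B hB mB => (key m B hB mB).le) hE
  have h2 := le_of_dep_Tail (W μ w • P.restrict N) (ν0.restrict N)
    (fun m B hB mB => (key m B hB mB).ge) hE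
  have h3 := le_antisymm h1 h2
  rw [Measure.smul_apply, smul_eq_mul, Measure.restrict_apply hE, Measure.restrict_apply hE,
    e0 _ (hE.inter mN)] at h3
  exact h3

/-- domination of the future after a fixed initial word -/
theorem dom_event [IsProbabilityMeasure μ] (hd : 0 < d) (h : Elliptic μ)
    {P : Measure (ℕ → V d)} (hP : IsAnnealed μ P) (w : List (U d))
    {E : Set (ℕ → V d)} (hE : MeasurableSet E) :
    P (cyl w ∩ {X | (fun n => X (w.length + n) - X w.length) ∈ E}) ≤ P E := by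
  haveI := hP.1
  set ν0 : Measure (ℕ → V d) := (P.restrict (cyl w)).map (th_Tail w.length) with hν0
  have e0 : ∀ B : Set (ℕ → V d), MeasurableSet B →
      ν0 B = P (cyl w ∩ th_Tail w.length ⁻¹' B) := by
    intro B mB
    rw [hν0, Measure.map_apply (measurable_th_Tail _) mB,
      Measure.restrict_apply (measurable_th_Tail _ mB), Set.inter_comm]
  have h1 := le_of_dep_Tail ν0 P (fun m B hB mB => by
    rw [e0 _ mB, dep_sum_Tail hd h hP w hB, dep_sum0_Tail hd h hP hB]
    exact ENNReal.tsum_le_tsum fun t => W_append_le h _ _) hE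
  rw [e0 _ hE] at h1
  exact h1

end Vale.Agent.P147
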