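import Vale.Agent.P147.Tail

namespace Vale.Agent.P147

open MeasureTheory Filter Finset
open scoped ENNReal

variable {d : ℕ} {l : V d} {μ : Measure (U d → ℝ)}

theorem exists_min_Tail2 {f : ℕ → ℤ} (hf : Tendsto f atTop atTop) : ∃ t, ∀ n, f t ≤ f n := by
  obtain ⟨N, hN⟩ := (tendsto_atTop_atTop.1 hf) (f 0)
  obtain ⟨t, ht, hmin⟩ := Finset.exists_min_image (range (N + 1)) f ⟨0, by simp⟩
  refine ⟨t, fun n => ?_⟩
  by_cases hn : n < N + 1
  · exact hmin n (Finset.mem_range.2 hn)
  · exact (hmin 0 (by simp)).trans (hN n (by omega))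

theorem exists_rec_Tail2 {f : ℕ → ℤ} (hf : Tendsto f atTop atTop) (m : ℕ) :
    ∃ n, m ≤ n ∧ ∀ i < n, f i < f n := by
  classical
  obtain ⟨t, ht, hmax⟩ := Finset.exists_max_image (range (m + 1)) f ⟨0, by simp⟩
  have hex : ∃ n, f t < f n := by
    obtain ⟨N, hN⟩ := (tendsto_atTop_atTop.1 hf) (f t + 1)
    exact ⟨N, by have := hN N le_rfl; omega⟩
  refine ⟨Nat.find hex, ?_, fun i hi => ?_⟩
  · by_contra hlt
    have h1 := Nat.find_spec hex
    have h2 := hmax (Nat.find hex) (Finset.mem_range.2 (by omega))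
    omega
  · have h1 := Nat.find_spec hex
    have h2 := Nat.find_min hex hi
    omega

theorem pre_wd_Tail2 {s : ℕ → U d} {n : ℕ} {r : List (U d)} (hr : r <+: wd s n) :
    r.length ≤ n ∧ r = wd s r.length := by
  have h1 : r.length ≤ n := by simpa [length_wd] using hr.length_le
  refine ⟨h1, ?_⟩
  rw [← take_wd s h1]
  exact List.prefix_iff_eq_take.1 hr

theorem rec_wd_Tail2 {s : ℕ → U d} {n : ℕ} (h : ∀ i < n, dot l (pos s i) < dot l (pos s n)) :
    Rec l (wd s n) := by
  intro r hr hne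
  obtain ⟨h1, h2⟩ := pre_wd_Tail2 hr
  have h3 : r.length < n := by
    refine lt_of_le_of_ne h1 fun he => hne ?_
    rw [h2, he]
  rw [lv, lv, disp_wd, h2, disp_wd]
  exact h _ h3

theorem tail [IsProbabilityMeasure μ] (hd : 0 < d) (h : Elliptic μ)
    {P : Measure (ℕ → V d)} (hP : IsAnnealed μ P) (l : V d) {E E' : Set (ℕ → V d)}
    (mE : MeasurableSet E) (mE' : MeasurableSet E') (hdis : Disjoint E E')
    (hE : ∀ X ∈ E, Tendsto (fun n => dot l (X n)) atTop atTop)
    (hE' : ∀ X ∈ E', Tendsto (fun n => dot l (X n)) atTop atTop)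
    (inv : ∀ (X : ℕ → V d) (t : ℕ), X ∈ E' ↔ (fun n => X (t + n) - X t) ∈ E') :
    P E = 0 ∨ P E' = 0 := by
  classical
  haveI := hP.1
  set N : Set (ℕ → V d) := {Y | ∀ n, 0 ≤ dot l (Y n)} with hN
  have mN : MeasurableSet N := measurableSet_nn_Tail l
  by_cases ha : P (E' ∩ N) = 0
  · right
    have hsub : E' ≤ᵐ[P] (⋃ w : List (U d),
        cyl w ∩ {X | (fun n => X (w.length + n) - X w.length) ∈ E' ∩ N} : Set (ℕ → V d)) := by
      filter_upwards [ae_nn hd h hP] with X hX hXE
      obtain ⟨s, rfl⟩ := hX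
      obtain ⟨t, ht⟩ := exists_min_Tail2 (hE' _ hXE)
      refine Set.mem_iUnion.2 ⟨wd s t, pos_mem_cyl s t, ?_⟩
      rw [Set.mem_setOf_eq, length_wd]
      refine ⟨(inv _ t).1 hXE, fun n => ?_⟩
      rw [dot_sub]
      have := ht (t + n)
      omega
    refine le_antisymm ((measure_mono_ae hsub).trans ?_) zero_le
    refine (measure_iUnion_le _).trans (le_of_eq ?_)
    refine ENNReal.tsum_eq_zero.2 fun w => ?_
    exact le_antisymm ((dom_event hd h hP w (mE'.inter mN)).trans ha.le) zero_le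
  · left
    have key : ∀ ε : ℝ≥0∞, 0 < ε → P (E' ∩ N) * P E ≤ ε + ε := by
      intro ε hε
      obtain ⟨m, B, hB, mB, hlt⟩ := approx_Tail P mE hε
      set G : Set (List (U d)) := {w | (Rec l w ∧ m ≤ w.length) ∧
        (∀ r, r <+: w → r ≠ w → ¬ (Rec l r ∧ m ≤ r.length)) ∧ cyl w ⊆ B} with hG
      have hdj : ∀ a ∈ G, ∀ b ∈ G, a ≠ b → AEDisjoint P (cyl a) (cyl b) := by
        intro a ha b hb hab
        exact aedisj_Tail hd h hP (fun hp => hb.2.1 a hp hab ha.1)
          (fun hp => ha.2.1 b hp hab.symm hb.1)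
      have h1 : P (E ∩ B) ≤ ∑' w : G, W μ w.1 := by
        have hsub : (E ∩ B : Set (ℕ → V d)) ≤ᵐ[P] (⋃ w : G, cyl w.1 : Set (ℕ → V d)) := by
          filter_upwards [ae_nn hd h hP] with X hX hXE
          obtain ⟨s, rfl⟩ := hX
          have hex : ∃ n, Rec l (wd s n) ∧ m ≤ n := by
            obtain ⟨n, hn, hr⟩ := exists_rec_Tail2 (hE _ hXE.1) m
            exact ⟨n, rec_wd_Tail2 hr, hn⟩
          have hs := Nat.find_spec hex
          refine Set.mem_iUnion.2 ⟨⟨wd s (Nat.find hex), ⟨hs.1, by rw [length_wd]; exact hs.2⟩,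
            ?_, ?_⟩, pos_mem_cyl s _⟩
          · intro r hr hne hrr
            obtain ⟨h1, h2⟩ := pre_wd_Tail2 hr
            have h3 : r.length < Nat.find hex := by
              refine lt_of_le_of_ne h1 fun he => hne ?_
              rw [h2, he]
            refine Nat.find_min hex h3 ⟨?_, hrr.2⟩
            rw [← h2]; exact hrr.1
          · exact cyl_sub_Tail hB (by rw [length_wd]; exact hs.2) (pos_mem_cyl s _) hXE.2
        refine (measure_mono_ae hsub).trans ((measure_iUnion_le _).trans (le_of_eq ?_))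
        exact tsum_congr fun w => meas_cyl hd hP _
      have h2 : (∑' w : G, W μ w.1) * P (E' ∩ N) ≤ ε := by
        rw [← ENNReal.tsum_mul_right]
        have e1 : ∑' w : G, W μ w.1 * P (E' ∩ N) = P (⋃ w ∈ G,
            cyl w ∩ {X | (fun n => X (w.length + n) - X w.length) ∈ E' ∩ N}) := by
          rw [measure_biUnion₀ (Set.to_countable _)]
          · exact tsum_congr fun w => (regen_event hd h hP w.2.1.1 mE').symm
          · intro a ha b hb hab
            exact (hdj a ha b hb hab).mono Set.inter_subset_left Set.inter_subset_left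
          · intro b _
            exact ((measurableSet_cyl b).inter
              (measurable_th_Tail b.length (mE'.inter mN))).nullMeasurableSet
        rw [e1]
        refine (measure_mono ?_).trans hlt.le
        intro X hX
        obtain ⟨w, hw, hXw⟩ := Set.mem_iUnion₂.1 hX
        refine Or.inl ⟨hw.2.2 hXw.1, fun hXE => ?_⟩
        exact Set.disjoint_left.1 hdis hXE ((inv X w.length).2 hXw.2.1)
      have h3 : P E ≤ P (E ∩ B) + ε := by
        refine le_trans ?_ (add_le_add_right hlt.le _)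
        refine (measure_mono ?_).trans (measure_union_le _ _)
        intro X hX
        by_cases hb : X ∈ B
        · exact Or.inl ⟨hX, hb⟩
        · exact Or.inr (Or.inr ⟨hX, hb⟩)
      calc P (E' ∩ N) * P E ≤ P (E' ∩ N) * (∑' w : G, W μ w.1 + ε) :=
            mul_le_mul_right (h3.trans (add_le_add_left h1 _)) _
        _ = (∑' w : G, W μ w.1) * P (E' ∩ N) + P (E' ∩ N) * ε := by ring
        _ ≤ ε + 1 * ε := add_le_add h2 (mul_le_mul_left prob_le_one _)
        _ = ε + ε := by rw [one_mul]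
    have h0 : P (E' ∩ N) * P E = 0 := by
      refine le_antisymm (ENNReal.le_of_forall_pos_le_add fun ε hε _ => ?_) zero_le
      have := key (ε / 2) (ENNReal.half_pos (by exact_mod_cast hε.ne'))
      rw [ENNReal.add_halves] at this
      rw [zero_add]; exact this
    exact (mul_eq_zero.1 h0).resolve_left ha

end Vale.Agent.P147
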