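import Vale.Agent.P147.Clump
import Vale.Agent.P147.BadL
import Vale.Agent.P147.Comb

namespace Vale.Agent.P147

open MeasureTheory Filter Finset
open scoped ENNReal

variable {d : ℕ} {l : V d} {μ : Measure (U d → ℝ)}

theorem phi_eq [IsProbabilityMeasure μ] (l : V d) (K L : ℕ) :
    Phi μ l K L = ∑' y, ∑' s, ∑' t, ind (F0 l K L y s t) *
      ∫⁻ ω, q ω 0 s * q ω y t ∂envLaw μ := by
  unfold Phi
  refine tsum_congr fun y => tsum_congr fun s => tsum_congr fun t => ?_
  by_cases hf : F0 l K L y s t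
  · rw [W_two 0 y s t]
    intro r r' hr hne hr' _ he
    refine hf.2.2.2.2.2 r hr hne (mem_tr.2 ⟨r', hr', ?_⟩)
    rw [zero_add] at he
    rw [he, add_sub_cancel_left]
  · rw [ind_neg hf, zero_mul, zero_mul]

theorem cons_int_UpX [IsProbabilityMeasure μ] (h : Elliptic μ) {f : Env d → ℝ≥0∞}
    (hf : Measurable f) : Cons (fun s => ∫⁻ ω, q ω 0 s * f ω ∂envLaw μ) := by
  intro s
  beta_reduce
  rw [← lintegral_finsetSum _ fun e _ => (measurable_q 0 (s ++ [e])).fun_mul hf]
  refine lintegral_congr_ae ?_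
  filter_upwards [ae_stoch h] with ω hω
  rw [← Finset.sum_mul, cons_q hω 0 s]

theorem f0_unique_UpX {K L : ℕ} {y : V d} {s s' t sh : List (U d)} (h : F0 l K L y s t)
    (h' : F0 l K L y s' t) (hs : s <+: sh) (hs' : s' <+: sh) : s = s' := by
  by_contra hne
  rcases List.prefix_or_prefix_of_prefix hs hs' with h1 | h1
  · exact h'.2.2.2.2.2 s h1 hne h.2.2.2.2.1
  · exact h.2.2.2.2.2 s' h1 (Ne.symm hne) h'.2.2.2.2.1

theorem bad_UpX {b : ℤ} (hb : SB l b) {K L : ℕ} {y : V d} {s t sh : List (U d)} {ω : Env d}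
    (h : F0 l K L y s t) (hs : s <+: sh) (hh' : hh l (3 * L + b + 1) ω (disp s) ≤ 1 / 2) :
    Bad l K (L - b) (3 * L + b) ω sh := by
  obtain ⟨h1, -, h3, h4, h5, -⟩ := h
  have hL : (0 : ℤ) ≤ 3 * (L : ℤ) := by positivity
  have hb1 := hb.1
  refine ⟨s, hs, h4.1, ?_, ?_, hh'⟩
  · obtain ⟨r, hr, he⟩ := mem_tr.1 h5
    have a1 : lv (-l) r < 3 * (L : ℤ) + b := by
      by_cases hrt : r = t
      · subst hrt
        exact lv_lt_of_pre hb.neg hL h3.2.2
      · have := h3.2.2 r hr hrt
        omega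
    rw [lv_neg, lv, he, dot_sub] at a1
    unfold lv
    omega
  · intro r hr
    by_cases hrs : r = s
    · subst hrs
      exact (lv_lt_of_pre hb hL h4.2).le
    · have := h4.2 r hr hrs
      omega
theorem upX [IsProbabilityMeasure μ] (h : Elliptic μ) {b : ℤ} (hb : SB l b) (K L S : ℕ)
    (hS : (K : ℤ) * (3 * L + b) + 1 ≤ S) (R : ℝ≥0∞)
    (hR : ∀ F, PF F → ∫⁻ ω, mass (q ω 0)
      (fun s => F s ∧ Bad l K (L - b) (3 * L + b) ω s) ∂envLaw μ ≤ R)
    (lam : ℝ≥0∞) (h0 : lam ≠ 0) (ht : lam ≠ ⊤) :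
    ∑' y, ∑' s, ∑' t, ind (F0 l K L y s t) * ∫⁻ ω, q ω 0 s * q ω y t *
        ind (hh l (3 * L + b + 1) ω (disp s) ≤ 1 / 2) ∂envLaw μ ≤
      lam * R + lam⁻¹ * (2 * (S : ℝ≥0∞) * S) * Phi μ l K L := by
  have hL : (0 : ℤ) ≤ 3 * (L : ℤ) := by positivity
  have hb1 := hb.1
  have hm : ∀ s : List (U d), Measurable fun ω : Env d =>
      ind (hh l (3 * L + b + 1) ω (disp s) ≤ 1 / 2) := fun s =>
    measurable_ind (measurableSet_le (measurable_hh _ _ _) measurable_const)
  rw [ENNReal.tsum_comm, tsum_eq_iSup_len]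
  refine iSup_le fun n => ?_
  set p : List (U d) → Prop := fun t => Cone l K t ∧ lv l t < 3 * (L : ℤ) with hp
  set RR : List (U d) → V d → List (U d) → Prop :=
    fun sh y t => Stop p n sh ∧ ∃ s, s <+: sh ∧ F0 l K L y s t with hRR
  have hcl := clump h RR (Stop p n) S (fun ω sh => Bad l K (L - b) (3 * L + b) ω sh)
    (fun s => measurableSet_bad _ _ _ _ s) (fun s y t hr => hr.1)
    (fun sh y t t' ht ht' htt => by
      obtain ⟨s, -, hs⟩ := ht.2
      obtain ⟨s', -, hs'⟩ := ht'.2
      exact pf_cr _ _ _ t t' hs.2.2.1 hs'.2.2.1 htt)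
    (fun sh y t hr => by
      obtain ⟨s, hs, hf⟩ := hr.2
      have hK : (0 : ℤ) ≤ (K : ℤ) * b := by positivity
      refine ⟨?_, ?_, ?_⟩
      · have a1 := card_stop hL hr.1
        have a2 : (K : ℤ) * (3 * L + b) = K * (3 * L) + K * b := by ring
        omega
      · have a1 := card_pre hb.neg hL (K := K) (s := t) ⟨hf.2.2.1.1, hf.2.2.1.2.2⟩
        omega
      · obtain ⟨r, hr', he⟩ := mem_tr.1 hf.2.2.2.2.1
        refine ⟨r, hr', mem_tr.2 ⟨s, hs, ?_⟩⟩
        rw [he, add_sub_cancel]) lam h0 ht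
  refine le_trans ?_ (hcl.trans ?_)
  · calc ∑' s : List (U d), ind (s.length ≤ n) * ∑' y, ∑' t, ind (F0 l K L y s t) *
          ∫⁻ ω, q ω 0 s * q ω y t * ind (hh l (3 * L + b + 1) ω (disp s) ≤ 1 / 2) ∂envLaw μ
        = ∑' s : List (U d), ∑' y, ∑' t, ind (s.length ≤ n) * (ind (F0 l K L y s t) *
          ∫⁻ ω, q ω 0 s * q ω y t *
            ind (hh l (3 * L + b + 1) ω (disp s) ≤ 1 / 2) ∂envLaw μ) := by
          refine tsum_congr fun s => ?_
          rw [← ENNReal.tsum_mul_left]
          refine tsum_congr fun y => ?_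
          rw [← ENNReal.tsum_mul_left]
      _ ≤ ∑' s : List (U d), ∑' y, ∑' t, ∑' sh, ind (F0 l K L y s t ∧ Stop p n sh ∧ s <+: sh) *
          ∫⁻ ω, q ω 0 sh * q ω y t * ind (Bad l K (L - b) (3 * L + b) ω sh) ∂envLaw μ := by
          refine ENNReal.tsum_le_tsum fun s => ENNReal.tsum_le_tsum fun y =>
            ENNReal.tsum_le_tsum fun t => ?_
          by_cases hn : s.length ≤ n
          · by_cases hf : F0 l K L y s t
            · rw [ind_pos hn, ind_pos hf, one_mul, one_mul]
              have hc := cons_int_UpX h ((measurable_q y t).fun_mul (hm s))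
              have e := stop_eq hc p n hn (fun r hr hne =>
                ⟨her_cone l K _ _ hr hf.2.2.2.1.1, hf.2.2.2.1.2 r hr hne⟩)
              simp only [mul_assoc]
              refine e.symm.le.trans (ENNReal.tsum_le_tsum fun sh => ?_)
              by_cases hsh : Stop p n sh ∧ s <+: sh
              · rw [ind_pos hsh, ind_pos ⟨hf, hsh⟩]
                refine mul_le_mul_right (lintegral_mono fun ω => ?_) _
                exact mul_le_mul_right (mul_le_mul_right
                  (ind_mono fun h' => bad_UpX hb hf hsh.2 h') _) _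
              · rw [ind_neg hsh, zero_mul]
                exact zero_le
            · rw [ind_neg hf, zero_mul, mul_zero]
              exact zero_le
          · rw [ind_neg hn, zero_mul]
            exact zero_le
      _ = ∑' sh : List (U d), ∑' y, ∑' t, ∑' s, ind (F0 l K L y s t ∧ Stop p n sh ∧ s <+: sh) *
          ∫⁻ ω, q ω 0 sh * q ω y t * ind (Bad l K (L - b) (3 * L + b) ω sh) ∂envLaw μ := by
          have sw : ∀ g : List (U d) → V d → List (U d) → List (U d) → ℝ≥0∞,
              ∑' s, ∑' y, ∑' t, ∑' sh, g s y t sh = ∑' y, ∑' t, ∑' s, ∑' sh, g s y t sh := by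
            intro g
            rw [ENNReal.tsum_comm]
            exact tsum_congr fun y => ENNReal.tsum_comm
          rw [sw, sw]
          exact tsum_congr fun y => tsum_congr fun t => ENNReal.tsum_comm
      _ ≤ _ := by
          refine ENNReal.tsum_le_tsum fun sh => ENNReal.tsum_le_tsum fun y =>
            ENNReal.tsum_le_tsum fun t => ?_
          rw [ENNReal.tsum_mul_right]
          refine mul_le_mul_left ?_ _
          by_cases hr : RR sh y t
          · obtain ⟨s, hs, hf⟩ := hr.2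
            rw [ind_pos hr, tsum_eq_single s]
            · exact ind_le_one _
            · intro s' hne
              exact ind_neg fun h' => hne (f0_unique_UpX h'.1 hf h'.2.2 hs)
          · refine le_of_eq ?_
            rw [ind_neg hr]
            exact ENNReal.tsum_eq_zero.2 fun s => ind_neg fun h' => hr ⟨h'.2.1, s, h'.2.2, h'.1⟩
  · refine add_le_add (mul_le_mul_right (hR _ (pf_stop p n)) _) (mul_le_mul_right ?_ _)
    rw [phi_eq, ENNReal.tsum_comm]
    refine ENNReal.tsum_le_tsum fun y => ?_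
    rw [ENNReal.tsum_comm, ENNReal.tsum_comm (f := fun s t => ind (F0 l K L y s t) *
      ∫⁻ ω, q ω 0 s * q ω y t ∂envLaw μ)]
    refine ENNReal.tsum_le_tsum fun t => ?_
    exact cover_mass (cons_int_UpX h (measurable_q y t)) (F := fun sh => RR sh y t)
      (G := fun s => F0 l K L y s t)
      (fun a a' ha ha' haa => pf_stop p n a a' ha.1 ha'.1 haa)
      (fun sh hsh => by
        obtain ⟨s, hs, hf⟩ := hsh.2
        exact ⟨s, hf, hs⟩)

end Vale.Agent.P147
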