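import Vale.Agent.P147.UpX

namespace Vale.Agent.P147

open MeasureTheory Filter Finset
open scoped ENNReal

variable {d : ℕ} {l : V d} {μ : Measure (U d → ℝ)}

theorem swap_UpY (f : V d → List (U d) → List (U d) → ℝ≥0∞) :
    ∑' y, ∑' s, ∑' t, f y s t = ∑' t, ∑' y, ∑' s, f (-y) s t := by
  rw [← (Equiv.neg (V d)).tsum_eq]
  simp only [Equiv.neg_apply]
  rw [ENNReal.tsum_comm (f := fun t y => ∑' s, f (-y) s t)]
  exact tsum_congr fun y => ENNReal.tsum_comm

theorem upY [IsProbabilityMeasure μ] (h : Elliptic μ) {b : ℤ} (hb : SB l b) (K L S : ℕ)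
    (hS : (K : ℤ) * (3 * L + b) + 1 ≤ S) (R : ℝ≥0∞)
    (hR : ∀ F, PF F → ∫⁻ ω, mass (q ω 0)
      (fun s => F s ∧ Bad (-l) K (L - b) (3 * L + b) ω s) ∂envLaw μ ≤ R)
    (lam : ℝ≥0∞) (h0 : lam ≠ 0) (ht : lam ≠ ⊤) :
    ∑' y, ∑' s, ∑' t, ind (F0 l K L y s t) * ∫⁻ ω, q ω 0 s * q ω y t *
        ind (hh (-l) (3 * L + b + 1) ω (disp s) ≤ 1 / 2) ∂envLaw μ ≤
      lam * R + lam⁻¹ * (2 * (S : ℝ≥0∞) * S) * Phi μ l K L := by
  have hL0 : (0 : ℤ) ≤ 3 * (L : ℤ) := by positivity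
  have hb1 := hb.1
  have hc := clump h (fun t y s => F0 l K L (-y) s t) (Cr (Cone (-l) K) (-l) (3 * (L : ℤ))) S
    (Bad (-l) K (L - b) (3 * L + b)) (measurableSet_bad _ _ _ _) (fun t y s hF => hF.2.2.1)
    (fun t y s s' hs hs' hss => by
      by_contra hne
      exact hs'.2.2.2.2.2 s hss hne hs.2.2.2.2.1)
    (fun t y s hF => by
      have h1 := card_pre hb.neg hL0 (K := K) (s := t) ⟨hF.2.2.1.1, hF.2.2.1.2.2⟩
      have h2 := card_pre hb hL0 hF.2.2.2.1
      refine ⟨by omega, by omega, s, List.prefix_refl _, ?_⟩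
      have := hF.2.2.2.2.1
      rwa [sub_neg_eq_add, add_comm] at this) lam h0 ht
  have e1 : ∀ (y : V d) (s t : List (U d)), ∫⁻ ω, q ω 0 s * q ω (-y) t ∂envLaw μ =
      ∫⁻ ω, q ω 0 t * q ω y s ∂envLaw μ := by
    intro y s t
    rw [← lintegral_shift (-y) (f := fun ω => q ω 0 t * q ω y s)
      ((measurable_q 0 t).mul (measurable_q y s))]
    refine lintegral_congr fun ω => ?_
    simp only [q_shift, zero_add, add_neg_cancel, mul_comm]
  have hΦ : ∑' t, ∑' y, ∑' s, ind (F0 l K L (-y) s t) *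
      ∫⁻ ω, q ω 0 t * q ω y s ∂envLaw μ = Phi μ l K L := by
    rw [phi_eq, swap_UpY]
    simp only [e1]
  rw [hΦ] at hc
  refine le_trans ?_ (hc.trans (add_le_add (mul_le_mul_right (hR _ (pf_cr _ _ _)) _) le_rfl))
  rw [swap_UpY]
  refine ENNReal.tsum_le_tsum fun t => ENNReal.tsum_le_tsum fun y => ENNReal.tsum_le_tsum fun s => ?_
  by_cases hF : F0 l K L (-y) s t
  · refine mul_le_mul_right ?_ _
    rw [← lintegral_shift (-y)
      (f := fun ω => q ω 0 t * q ω y s * ind (Bad (-l) K (L - b) (3 * L + b) ω t))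
      (((measurable_q 0 t).mul (measurable_q y s)).mul
      (measurable_ind (measurableSet_bad (-l) K (L - b) (3 * L + b) t)))]
    refine lintegral_mono fun ω => ?_
    simp only [q_shift, zero_add, add_neg_cancel]
    rw [mul_comm (q ω (-y) t)]
    refine mul_le_mul_right (ind_mono fun hω => ?_) _
    obtain ⟨r, hr, hrd⟩ := mem_tr.1 hF.2.2.2.2.1
    have hlt := lv_lt_of_pre hb.neg hL0 hF.2.2.1.2.2
    have hls := lv_lt_of_pre hb hL0 hF.2.2.2.1.2
    refine ⟨r, hr, her_cone _ _ _ _ hr hF.2.2.1.1, ?_, fun r' hr' => ?_, ?_⟩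
    · have h4 := hF.1
      rw [lv, hrd, dot_neg_left, dot_sub]
      rw [lv] at hls
      omega
    · by_cases he : r' = t
      · rw [he]; omega
      · have := hF.2.2.1.2.2 r' (hr'.trans hr) he
        omega
    · rw [hh_shift, hrd, sub_add_cancel]
      exact hω
  · simp [ind_neg hF]

end Vale.Agent.P147
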