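import Vale.Agent.P147.Tail2
import Vale.Agent.P147.Red2

namespace Vale.Agent.P147

open MeasureTheory Filter Finset
open scoped ENNReal

variable {d : ℕ} {l : V d} {μ : Measure (U d → ℝ)}

theorem vel_ball_Vel (v u : Fin d → ℝ) (h : 0 < ∑ i, v i * u i) : Vel v ⊆ Ballistic u := by
  intro X hX
  have h1 : Tendsto (fun n : ℕ => ∑ i, (X n i : ℝ) / (n : ℝ) * u i) atTop
      (nhds (∑ i, v i * u i)) :=
    tendsto_finsetSum _ fun i _ => (tendsto_pi_nhds.1 hX i).mul_const _
  refine ⟨(∑ i, v i * u i) / 2, by positivity, ?_⟩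
  filter_upwards [h1.eventually (lt_mem_nhds (half_lt_self h)), eventually_ge_atTop 1]
    with n hn hn1
  have a3 : (0 : ℝ) < n := by exact_mod_cast hn1
  have e : ∑ i, (X n i : ℝ) / (n : ℝ) * u i = ip (X n) u / n := by
    rw [ip, Finset.sum_div]
    exact Finset.sum_congr rfl fun i _ => by ring
  rw [e, lt_div_iff₀ a3] at hn
  exact hn.le

theorem shift_Vel (a : ℕ → ℝ) (L : ℝ) (t : ℕ) :
    Tendsto (fun n : ℕ => a n / (n : ℝ)) atTop (nhds L) ↔
      Tendsto (fun n : ℕ => (a (t + n) - a t) / (n : ℝ)) atTop (nhds L) := by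
  have z : ∀ c : ℝ, Tendsto (fun n : ℕ => c / (n : ℝ)) atTop (nhds 0) :=
    fun c => tendsto_const_div_atTop_nhds_zero_nat c
  have o : Tendsto (fun n : ℕ => (t : ℝ) / (n : ℝ) + 1) atTop (nhds 1) := by
    simpa using (z t).add_const 1
  rw [← tendsto_add_atTop_iff_nat t]
  constructor
  · intro h
    have h2 := (h.mul o).sub (z (a t))
    simp only [mul_one, sub_zero] at h2
    refine h2.congr' ?_
    filter_upwards [eventually_ge_atTop 1] with n hn
    have a3 : (0 : ℝ) < n := by exact_mod_cast hn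
    rw [add_comm t n]
    push_cast
    field_simp
    ring
  · intro h
    have h2 := (h.add (z (a t))).div o one_ne_zero
    simp only [add_zero, div_one] at h2
    refine h2.congr' ?_
    filter_upwards [eventually_ge_atTop 1] with n hn
    have a3 : (0 : ℝ) < n := by exact_mod_cast hn
    simp only [Pi.div_apply]
    rw [add_comm t n]
    push_cast
    field_simp
    ring

theorem meas_Vel (v : Fin d → ℝ) : MeasurableSet (Vel v) := by
  refine measurableSet_tendsto (nhds v)
    (f := fun (n : ℕ) (X : ℕ → V d) => fun i => (X n i : ℝ) / (n : ℝ)) fun n => ?_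
  refine measurable_pi_lambda _ fun i => Measurable.div_const ?_ _
  exact (measurable_of_countable (fun z : ℤ => (z : ℝ))).comp
    ((measurable_pi_apply i).comp (measurable_pi_apply n))

theorem vel_eq [IsProbabilityMeasure μ] (hd : 0 < d) (h : Elliptic μ)
    {P : Measure (ℕ → V d)} (hP : IsAnnealed μ P)
    (hb : ∀ u : Fin d → ℝ, P (Ballistic u) = 0 ∨ P (Ballistic (-u)) = 0)
    (v w : Fin d → ℝ) (hv : v ≠ 0) (hw : w ≠ 0) (h1 : P (Vel v) ≠ 0) (h2 : P (Vel w) ≠ 0) :
    v = w := by
  classical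
  obtain ⟨l, hl⟩ : ∃ l : V d, ∀ i, v i * (l i : ℝ) = |v i| := by
    refine ⟨fun i => if 0 ≤ v i then 1 else -1, fun i => ?_⟩
    by_cases hi : 0 ≤ v i
    · simp [hi, abs_of_nonneg hi]
    · simp [hi, abs_of_neg (not_le.1 hi)]
  have ha : 0 < ∑ i, v i * (l i : ℝ) := by
    obtain ⟨i, hi⟩ := Function.ne_iff.1 hv
    simp only [hl]
    exact Finset.sum_pos' (fun j _ => abs_nonneg _) ⟨i, Finset.mem_univ _, abs_pos.2 hi⟩
  have hww : 0 < ∑ i, w i * w i := by
    obtain ⟨i, hi⟩ := Function.ne_iff.1 hw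
    exact Finset.sum_pos' (fun j _ => mul_self_nonneg _)
      ⟨i, Finset.mem_univ _, mul_self_pos.2 hi⟩
  by_cases hbb : 0 < ∑ i, w i * (l i : ℝ)
  · by_contra hne
    have esc : ∀ u : Fin d → ℝ, 0 < ∑ i, u i * (l i : ℝ) → ∀ X ∈ Vel u,
        Tendsto (fun n => dot l (X n)) atTop atTop := by
      intro u hu X hX
      have e1 := (ballistic_subset _ (vel_ball_Vel u (fun i => (l i : ℝ)) hu hX)).1
      refine tendsto_intCast_atTop_iff (R := ℝ).1 (Tendsto.congr (fun n => ?_) e1)
      simp only [ip, dot]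
      push_cast
      exact Finset.sum_congr rfl fun i _ => mul_comm _ _
    have hdis : Disjoint (Vel v) (Vel w) :=
      Set.disjoint_left.2 fun X a b => hne (tendsto_nhds_unique a b)
    have inv : ∀ (X : ℕ → V d) (t : ℕ),
        X ∈ Vel w ↔ (fun n => X (t + n) - X t) ∈ Vel w := by
      intro X t
      simp only [Vel, Set.mem_setOf_eq, tendsto_pi_nhds, Pi.sub_apply]
      push_cast
      exact forall_congr' fun i => shift_Vel (fun n => (X n i : ℝ)) (w i) t
    rcases tail hd h hP l (meas_Vel v) (meas_Vel w) hdis (esc v ha) (esc w hbb) inv with e | e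
    · exact h1 e
    · exact h2 e
  · exfalso
    push Not at hbb
    obtain ⟨ε, hε, hε2⟩ : ∃ ε : ℝ, 0 < ε ∧ ε * ∑ i, v i * w i < ∑ i, v i * (l i : ℝ) := by
      have p : 0 < |∑ i, v i * w i| + 1 := by positivity
      refine ⟨(∑ i, v i * (l i : ℝ)) / (|∑ i, v i * w i| + 1), div_pos ha p, ?_⟩
      rw [div_mul_eq_mul_div, div_lt_iff₀ p]
      have := le_abs_self (∑ i, v i * w i)
      nlinarith
    have e1 : 0 < ∑ i, v i * (fun i => (l i : ℝ) - ε * w i) i := by
      have : ∑ i, v i * (fun i => (l i : ℝ) - ε * w i) i =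
          ∑ i, v i * (l i : ℝ) - ε * ∑ i, v i * w i := by
        rw [Finset.mul_sum, ← Finset.sum_sub_distrib]
        exact Finset.sum_congr rfl fun i _ => by ring
      rw [this]; linarith
    have e2 : 0 < ∑ i, w i * (-(fun i => (l i : ℝ) - ε * w i)) i := by
      have : ∑ i, w i * (-(fun i => (l i : ℝ) - ε * w i)) i =
          ε * ∑ i, w i * w i - ∑ i, w i * (l i : ℝ) := by
        rw [Finset.mul_sum, ← Finset.sum_sub_distrib]
        exact Finset.sum_congr rfl fun i _ => by simp only [Pi.neg_apply]; ring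
      rw [this]
      have := mul_pos hε hww
      linarith
    rcases hb (fun i => (l i : ℝ) - ε * w i) with e | e
    · exact h1 (measure_mono_null (vel_ball_Vel _ _ e1) e)
    · exact h2 (measure_mono_null (vel_ball_Vel _ _ e2) e)

end Vale.Agent.P147
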